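/-
Row 299 (S0453, switch chain): shared definitions.
-/
import Mathlib

set_option autoImplicit false

namespace Crest.Agent.SC

open Finset

/-! ### averaging over equivalence classes -/

section avg
variable {Ω : Type*} [Fintype Ω]

open Classical in
/-- average of `f` over `{H | r G H}` -/
noncomputable def avg (r : Ω → Ω → Prop) (f : Ω → ℝ) (G : Ω) : ℝ :=
  (∑ H ∈ univ.filter (fun H => r G H), f H) / ((univ.filter (fun H => r G H)).card : ℝ)

/-- `D f = f - avg f` -/
noncomputable def Dav (r : Ω → Ω → Prop) (f : Ω → ℝ) (G : Ω) : ℝ := f G - avg r f G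

open Classical in
/-- average over `{H | r G H ∧ p H}` minus average over `{H | r G H}` -/
noncomputable def hfun (r : Ω → Ω → Prop) (p : Ω → Prop) (f : Ω → ℝ) (G : Ω) : ℝ :=
  (∑ H ∈ univ.filter (fun H => r G H ∧ p H), f H)
      / ((univ.filter (fun H => r G H ∧ p H)).card : ℝ) - avg r f G

end avg

/-! ### graphs with given degrees -/

variable {V : Type} [Fintype V] [DecidableEq V]

/-- graphs (symmetric irreflexive Boolean matrices) with degree sequence `d` -/
def Gr (d : V → ℕ) : Type :=
  {a : V → V → Bool // (∀ p q, a p q = a q p) ∧ (∀ p, a p p = false) ∧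
    ∀ p, (univ.filter fun q => a p q = true).card = d p}

instance (d : V → ℕ) : Fintype (Gr d) := by unfold Gr; infer_instance
instance (d : V → ℕ) : DecidableEq (Gr d) := by unfold Gr; infer_instance

/-- adjacency -/
def Gr.adj {d : V → ℕ} (G : Gr d) (p q : V) : Bool := G.1 p q

/-- `G` and `H` differ only in the way the set `N(v) Δ N(w)` is split between `v` and `w`. -/
def rel {d : V → ℕ} (v w : V) (G H : Gr d) : Prop :=
  (∀ p q, p ≠ v → p ≠ w → q ≠ v → q ≠ w → G.adj p q = H.adj p q) ∧
  G.adj v w = H.adj v w ∧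
  ∀ z, z ≠ v → z ≠ w →
    (G.adj v z).toNat + (G.adj w z).toNat = (H.adj v z).toNat + (H.adj w z).toNat

/-- the block `{v,w} × {x,y}` is a diagonal: `vx, wy` edges and `vy, wx` not, or conversely. -/
def Opp {d : V → ℕ} (v w x y : V) (G : Gr d) : Prop :=
  G.adj v x = G.adj w y ∧ G.adj v y = G.adj w x ∧ G.adj v x ≠ G.adj v y

instance {d : V → ℕ} (v w x y : V) (G : Gr d) : Decidable (Opp v w x y G) := by
  unfold Opp; infer_instance

/-- the four vertices are distinct -/
def Dist4 (v w x y : V) : Prop := v ≠ w ∧ v ≠ x ∧ v ≠ y ∧ w ≠ x ∧ w ≠ y ∧ x ≠ y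

instance (v w x y : V) : Decidable (Dist4 v w x y) := by unfold Dist4; infer_instance

/-- the matrix with the block `{v,w} × {x,y}` (and its transpose) complemented -/
def flipBlock (v w x y : V) (a : V → V → Bool) : V → V → Bool := fun p q =>
  xor (a p q) (decide (((p = v ∨ p = w) ∧ (q = x ∨ q = y)) ∨ ((q = v ∨ q = w) ∧ (p = x ∨ p = y))))

/-- the switch on the block `{v,w} × {x,y}`, if the block is a diagonal; identity otherwise. -/
def sw {d : V → ℕ} (v w x y : V) (G : Gr d) : Gr d :=
  if h : ((∀ p q, flipBlock v w x y G.1 p q = flipBlock v w x y G.1 q p) ∧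
      (∀ p, flipBlock v w x y G.1 p p = false) ∧
      ∀ p, (univ.filter fun q => flipBlock v w x y G.1 p q = true).card = d p) ∧
      Dist4 v w x y ∧ Opp v w x y G
  then ⟨flipBlock v w x y G.1, h.1⟩ else G

/-! ### three-row tables -/

/-- `3 × J` Boolean tables with column sums `c` and row sums `r`. -/
def Tab (J : Type) [Fintype J] (c : J → ℕ) (r : Fin 3 → ℕ) : Type :=
  {B : Fin 3 → J → Bool // (∀ j, ∑ i, (B i j).toNat = c j) ∧ (∀ i, ∑ j, (B i j).toNat = r i)}

instance (J : Type) [Fintype J] [DecidableEq J] (c : J → ℕ) (r : Fin 3 → ℕ) :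
    Fintype (Tab J c r) := by unfold Tab; infer_instance

/-- same row `i` -/
def relT {J : Type} [Fintype J] {c : J → ℕ} {r : Fin 3 → ℕ} (i : Fin 3) (B B' : Tab J c r) : Prop :=
  ∀ j, B.1 i j = B'.1 i j

end Crest.Agent.SC
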