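/-
Row 299 (S0453), package E: calculus of averages over equivalence classes, spectral lemmas.
-/
import Crest.Agent.SC.Basic

set_option autoImplicit false

namespace Crest.Agent.SC

open Finset

section avg
variable {Ω : Type*} [Fintype Ω]

open Classical in
lemma filter_rel_eq {r : Ω → Ω → Prop} (hr : Equivalence r) {G H : Ω} (h : r G H) :
    univ.filter (fun K => r G K) = univ.filter (fun K => r H K) := by
  ext K
  simp only [mem_filter, mem_univ, true_and]
  exact ⟨fun h1 => hr.trans (hr.symm h) h1, fun h1 => hr.trans h h1⟩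

open Classical in
lemma card_rel_pos {r : Ω → Ω → Prop} (hr : Equivalence r) (G : Ω) :
    (0:ℝ) < ((univ.filter (fun K => r G K)).card : ℝ) := by
  rw [Nat.cast_pos, Finset.card_pos]
  exact ⟨G, by simp [hr.refl G]⟩

theorem avg_inv (r : Ω → Ω → Prop) (hr : Equivalence r) (f : Ω → ℝ)
    (G H : Ω) (h : r G H) : avg r f G = avg r f H := by
  classical
  unfold avg
  rw [filter_rel_eq hr h]

theorem avg_of_inv (r : Ω → Ω → Prop) (hr : Equivalence r) (f : Ω → ℝ)
    (h : ∀ G H, r G H → f G = f H) (G : Ω) : avg r f G = f G := by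
  classical
  unfold avg
  have h1 : ∑ H ∈ univ.filter (fun K => r G K), f H = ∑ H ∈ univ.filter (fun K => r G K), f G := by
    refine Finset.sum_congr rfl fun H hH => ?_
    rw [mem_filter] at hH
    exact (h G H hH.2).symm
  rw [h1, Finset.sum_const, nsmul_eq_mul]
  have := card_rel_pos hr G
  field_simp

/-- only the class matters -/
theorem avg_congr (r : Ω → Ω → Prop) (f g : Ω → ℝ) (G : Ω) (h : ∀ H, r G H → f H = g H) :
    avg r f G = avg r g G := by
  classical
  unfold avg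
  congr 1
  refine Finset.sum_congr rfl fun H hH => ?_
  rw [mem_filter] at hH
  exact h H hH.2

theorem avg_add (r : Ω → Ω → Prop) (f g : Ω → ℝ) (G : Ω) :
    avg r (fun H => f H + g H) G = avg r f G + avg r g G := by
  unfold avg
  rw [Finset.sum_add_distrib, add_div]

theorem avg_sub (r : Ω → Ω → Prop) (f g : Ω → ℝ) (G : Ω) :
    avg r (fun H => f H - g H) G = avg r f G - avg r g G := by
  unfold avg
  rw [Finset.sum_sub_distrib, sub_div]

theorem avg_const_mul (r : Ω → Ω → Prop) (a : ℝ) (f : Ω → ℝ) (G : Ω) :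
    avg r (fun H => a * f H) G = a * avg r f G := by
  unfold avg
  rw [← Finset.mul_sum, mul_div_assoc]

theorem avg_smul (r : Ω → Ω → Prop) (a : ℝ) (f : Ω → ℝ) (G : Ω) :
    avg r (a • f) G = a * avg r f G := avg_const_mul r a f G

theorem avg_mono (r : Ω → Ω → Prop) (f g : Ω → ℝ) (G : Ω) (h : ∀ H, r G H → f H ≤ g H) :
    avg r f G ≤ avg r g G := by
  classical
  unfold avg
  gcongr with H hH
  rw [mem_filter] at hH
  exact h H hH.2

theorem avg_const (r : Ω → Ω → Prop) (hr : Equivalence r) (a : ℝ) (G : Ω) :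
    avg r (fun _ => a) G = a := avg_of_inv r hr _ (fun _ _ _ => rfl) G

/-- pull out an invariant factor -/
theorem avg_mul_inv (r : Ω → Ω → Prop) (f g : Ω → ℝ)
    (h : ∀ G H, r G H → g G = g H) (G : Ω) :
    avg r (fun H => f H * g H) G = avg r f G * g G := by
  classical
  unfold avg
  have h1 : ∑ H ∈ univ.filter (fun K => r G K), f H * g H
      = ∑ H ∈ univ.filter (fun K => r G K), f H * g G := by
    refine Finset.sum_congr rfl fun H hH => ?_
    rw [mem_filter] at hH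
    rw [h G H hH.2]
  rw [h1, ← Finset.sum_mul]
  ring

theorem avg_avg (r : Ω → Ω → Prop) (hr : Equivalence r) (f : Ω → ℝ) (G : Ω) :
    avg r (avg r f) G = avg r f G :=
  avg_of_inv r hr _ (fun _ _ h => avg_inv r hr f _ _ h) G

/-- finer relation `s ⊆ r` : averaging by `s` then `r` -/
theorem avg_symm (r : Ω → Ω → Prop) (hr : Equivalence r) (f g : Ω → ℝ) :
    ∑ G, f G * avg r g G = ∑ G, avg r f G * g G := by
  classical
  have e1 : ∀ f g : Ω → ℝ, ∑ G, f G * avg r g G = ∑ G, ∑ H, (if r G H then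
      f G * g H / ((univ.filter (fun K => r G K)).card : ℝ) else 0) := by
    intro f g
    refine Finset.sum_congr rfl fun G _ => ?_
    unfold avg
    rw [mul_div_assoc', Finset.mul_sum, Finset.sum_div, Finset.sum_filter]
  have e2 : ∑ G, avg r f G * g G = ∑ G, g G * avg r f G :=
    Finset.sum_congr rfl fun G _ => mul_comm _ _
  rw [e2, e1, e1, Finset.sum_comm]
  refine Finset.sum_congr rfl fun G _ => Finset.sum_congr rfl fun H _ => ?_
  by_cases h : r G H
  · have h' : r H G := hr.symm h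
    rw [if_pos h, if_pos h', filter_rel_eq hr h, mul_comm]
  · have h' : ¬ r H G := fun h2 => h (hr.symm h2)
    rw [if_neg h, if_neg h']

theorem sum_eq_sum_avg (r : Ω → Ω → Prop) (hr : Equivalence r) (f : Ω → ℝ) :
    ∑ G, f G = ∑ G, avg r f G := by
  have h := avg_symm r hr f (fun _ => (1:ℝ))
  simp only [mul_one] at h
  rw [← h]
  refine Finset.sum_congr rfl fun G _ => ?_
  rw [avg_const r hr, mul_one]

/-- it is enough to prove nonnegativity of class averages -/
theorem sum_nonneg_of_avg (r : Ω → Ω → Prop) (hr : Equivalence r) (f : Ω → ℝ)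
    (h : ∀ G, 0 ≤ avg r f G) : 0 ≤ ∑ G, f G := by
  rw [sum_eq_sum_avg r hr]
  exact Finset.sum_nonneg fun G _ => h G

open Classical in
/-- it is enough to prove nonnegativity of class sums -/
theorem sum_nonneg_of_class (r : Ω → Ω → Prop) (hr : Equivalence r) (f : Ω → ℝ)
    (h : ∀ G, 0 ≤ ∑ H ∈ univ.filter (fun H => r G H), f H) : 0 ≤ ∑ G, f G := by
  refine sum_nonneg_of_avg r hr f fun G => ?_
  unfold avg
  exact div_nonneg (h G) (Nat.cast_nonneg _)

theorem avg_idem_sum (r : Ω → Ω → Prop) (hr : Equivalence r) (f : Ω → ℝ) :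
    ∑ G, f G * avg r f G = ∑ G, avg r f G ^ 2 := by
  have h := avg_symm r hr f (avg r f)
  have e : ∑ G, f G * avg r (avg r f) G = ∑ G, f G * avg r f G :=
    Finset.sum_congr rfl fun G _ => by rw [avg_avg r hr]
  rw [e] at h
  rw [h]
  exact Finset.sum_congr rfl fun G _ => by ring

/-! ### the projections `D` -/

theorem Dav_add (r : Ω → Ω → Prop) (f g : Ω → ℝ) (G : Ω) :
    Dav r (fun H => f H + g H) G = Dav r f G + Dav r g G := by
  unfold Dav; rw [avg_add]; ring

theorem Dav_smul (r : Ω → Ω → Prop) (a : ℝ) (f : Ω → ℝ) (G : Ω) :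
    Dav r (a • f) G = a * Dav r f G := by
  unfold Dav; rw [avg_smul]; simp only [Pi.smul_apply, smul_eq_mul]; ring

theorem Dav_symm (r : Ω → Ω → Prop) (hr : Equivalence r) (f g : Ω → ℝ) :
    ∑ G, f G * Dav r g G = ∑ G, Dav r f G * g G := by
  unfold Dav
  simp_rw [mul_sub, sub_mul]
  rw [Finset.sum_sub_distrib, Finset.sum_sub_distrib, avg_symm r hr]

theorem avg_Dav (r : Ω → Ω → Prop) (hr : Equivalence r) (f : Ω → ℝ) (G : Ω) :
    avg r (Dav r f) G = 0 := by
  have : Dav r f = fun H => f H - avg r f H := rfl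
  rw [this, avg_sub, avg_avg r hr, sub_self]

theorem Dav_Dav (r : Ω → Ω → Prop) (hr : Equivalence r) (f : Ω → ℝ) (G : Ω) :
    Dav r (Dav r f) G = Dav r f G := by
  have h := avg_Dav r hr f G
  show Dav r f G - avg r (Dav r f) G = Dav r f G
  rw [h, sub_zero]

theorem Dav_sq (r : Ω → Ω → Prop) (hr : Equivalence r) (f : Ω → ℝ) :
    ∑ G, f G * Dav r f G = ∑ G, Dav r f G ^ 2 := by
  have h := Dav_symm r hr f (Dav r f)
  have e : ∑ G, f G * Dav r (Dav r f) G = ∑ G, f G * Dav r f G :=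
    Finset.sum_congr rfl fun G _ => by rw [Dav_Dav r hr]
  rw [e] at h
  rw [h]
  exact Finset.sum_congr rfl fun G _ => by ring

/-- `D` as a linear map -/
noncomputable def DavL (r : Ω → Ω → Prop) : (Ω → ℝ) →ₗ[ℝ] (Ω → ℝ) where
  toFun f := Dav r f
  map_add' f g := by ext G; exact Dav_add r f g G
  map_smul' a f := by ext G; simp only [RingHom.id_apply]; exact Dav_smul r a f G

@[simp] lemma DavL_apply (r : Ω → Ω → Prop) (f : Ω → ℝ) (G : Ω) : DavL r f G = Dav r f G := rfl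

/-- `avg` as a linear map -/
noncomputable def avgL (r : Ω → Ω → Prop) : (Ω → ℝ) →ₗ[ℝ] (Ω → ℝ) where
  toFun f := avg r f
  map_add' f g := by ext G; exact avg_add r f g G
  map_smul' a f := by ext G; simp only [RingHom.id_apply]; exact avg_smul r a f G

@[simp] lemma avgL_apply (r : Ω → Ω → Prop) (f : Ω → ℝ) (G : Ω) : avgL r f G = avg r f G := rfl

/-- invariance of the average under permutations preserving the relation -/
theorem avg_comp_equiv (r : Ω → Ω → Prop) (θ : Ω ≃ Ω) (hθ : ∀ G H, r (θ G) (θ H) ↔ r G H)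
    (f : Ω → ℝ) (G : Ω) : avg r (fun H => f (θ H)) G = avg r f (θ G) := by
  classical
  unfold avg
  have h1 : univ.filter (fun K => r (θ G) K) = (univ.filter (fun K => r G K)).map θ.toEmbedding := by
    ext K
    simp only [mem_filter, mem_univ, true_and, Finset.mem_map_equiv]
    rw [← hθ G (θ.symm K), Equiv.apply_symm_apply]
  rw [h1, Finset.sum_map, Finset.card_map]
  rfl

/-- commutation criterion -/
theorem avg_comm (r₁ r₂ : Ω → Ω → Prop) (h₁ : Equivalence r₁)
    (h₂ : Equivalence r₂) (Θ : Ω → Ω → Ω → Ω)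
    (hΘ : ∀ G G' H, r₂ G G' → r₁ G H →
      r₁ G' (Θ G G' H) ∧ r₂ H (Θ G G' H) ∧ Θ G' G (Θ G G' H) = H) (f : Ω → ℝ) (G : Ω) :
    avg r₁ (avg r₂ f) G = avg r₂ (avg r₁ f) G := by
  classical
  -- step 1: `avg r₁ φ` is `r₂`-invariant for `φ` `r₂`-invariant
  have step1 : ∀ φ : Ω → ℝ, (∀ G H, r₂ G H → φ G = φ H) → ∀ G G', r₂ G G' →
      avg r₁ φ G = avg r₁ φ G' := by
    intro φ hφ G G' hGG'
    have hG'G := h₂.symm hGG'
    have hb : ∀ ψ : Ω → ℝ, (∀ G H, r₂ G H → ψ G = ψ H) →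
        ∑ H ∈ univ.filter (fun K => r₁ G K), ψ H = ∑ H ∈ univ.filter (fun K => r₁ G' K), ψ H := by
      intro ψ hψ
      refine Finset.sum_bij' (fun H _ => Θ G G' H) (fun H _ => Θ G' G H) ?_ ?_ ?_ ?_ ?_
      · intro H hH
        rw [mem_filter] at hH ⊢
        exact ⟨mem_univ _, (hΘ G G' H hGG' hH.2).1⟩
      · intro H hH
        rw [mem_filter] at hH ⊢
        exact ⟨mem_univ _, (hΘ G' G H hG'G hH.2).1⟩
      · intro H hH
        rw [mem_filter] at hH
        exact (hΘ G G' H hGG' hH.2).2.2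
      · intro H hH
        rw [mem_filter] at hH
        exact (hΘ G' G H hG'G hH.2).2.2
      · intro H hH
        rw [mem_filter] at hH
        exact hψ _ _ (hΘ G G' H hGG' hH.2).2.1
    unfold avg
    have hc := hb (fun _ => (1:ℝ)) (fun _ _ _ => rfl)
    simp only [Finset.sum_const, nsmul_eq_mul, mul_one] at hc
    rw [hb φ hφ, hc]
  -- step 2: R₂ R₁ R₂ = R₁ R₂
  have step2 : ∀ f : Ω → ℝ, ∀ G, avg r₂ (avg r₁ (avg r₂ f)) G = avg r₁ (avg r₂ f) G := by
    intro f G
    refine avg_of_inv r₂ h₂ _ ?_ G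
    exact step1 _ (fun _ _ h => avg_inv r₂ h₂ f _ _ h)
  -- step 3: R₂ R₁ R₂ = R₂ R₁ by duality
  have step3 : ∀ f : Ω → ℝ, ∀ G, avg r₂ (avg r₁ (avg r₂ f)) G = avg r₂ (avg r₁ f) G := by
    intro f G
    have key : ∀ g : Ω → ℝ, ∑ x, avg r₂ (avg r₁ (avg r₂ f)) x * g x
        = ∑ x, avg r₂ (avg r₁ f) x * g x := by
      intro g
      have a1 : ∑ x, avg r₂ (avg r₁ (avg r₂ f)) x * g x
          = ∑ x, f x * avg r₂ (avg r₁ (avg r₂ g)) x := by
        rw [← avg_symm r₂ h₂, ← avg_symm r₁ h₁, ← avg_symm r₂ h₂]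
      have a2 : ∑ x, avg r₂ (avg r₁ f) x * g x = ∑ x, f x * avg r₁ (avg r₂ g) x := by
        rw [← avg_symm r₂ h₂, ← avg_symm r₁ h₁]
      rw [a1, a2]
      exact Finset.sum_congr rfl fun x _ => by rw [step2]
    have k := key (fun x => if x = G then 1 else 0)
    simpa using k
  rw [← step3, step2]

end avg

section spectral
variable {Ω : Type*} [Fintype Ω]

/-- spectral theorem in coordinates -/
theorem spectral (A : (Ω → ℝ) →ₗ[ℝ] (Ω → ℝ))
    (hA : ∀ f g : Ω → ℝ, ∑ x, f x * A g x = ∑ x, A f x * g x) :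
    ∃ (b : Ω → Ω → ℝ) (κ : Ω → ℝ), (∀ i, A (b i) = κ i • b i) ∧ (∀ i, b i ≠ 0) ∧
      (∀ f g : Ω → ℝ, ∑ x, f x * g x = ∑ i, (∑ x, b i x * f x) * (∑ x, b i x * g x)) ∧
      (∀ i j, i ≠ j → ∑ x, b i x * b j x = 0) ∧ (∀ i, ∑ x, b i x * b i x = 1) := by
  classical
  set M : Matrix Ω Ω ℝ := LinearMap.toMatrix' A with hM
  have hmul : ∀ f : Ω → ℝ, M.mulVec f = A f := fun f => LinearMap.toMatrix'_mulVec A f
  have hH : M.IsHermitian := by
    ext i j
    rw [Matrix.conjTranspose_apply, star_trivial]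
    have h := hA (Pi.single j 1) (Pi.single i 1)
    have e1 : M j i = A (Pi.single i 1) j := by
      rw [← hmul]; simp
    have e2 : M i j = A (Pi.single j 1) i := by
      rw [← hmul]; simp
    rw [e1, e2]
    simpa [Pi.single_apply] using h
  refine ⟨fun i => (hH.eigenvectorBasis i : EuclideanSpace ℝ Ω).ofLp, hH.eigenvalues, ?_, ?_, ?_,
    ?_, ?_⟩
  · intro i
    rw [← hmul]
    exact hH.mulVec_eigenvectorBasis i
  · intro i h0
    have h1 : ‖hH.eigenvectorBasis i‖ = 1 := hH.eigenvectorBasis.norm_eq_one i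
    have h2 : hH.eigenvectorBasis i = 0 := by
      ext x
      exact congrFun h0 x
    rw [h2, norm_zero] at h1
    exact zero_ne_one h1
  · intro f g
    have h := hH.eigenvectorBasis.sum_inner_mul_inner (WithLp.toLp 2 f) (WithLp.toLp 2 g)
    have e0 : ∀ u v : Ω → ℝ, (inner ℝ (WithLp.toLp 2 u : EuclideanSpace ℝ Ω) (WithLp.toLp 2 v) : ℝ)
        = ∑ x, u x * v x := by
      intro u v
      simp [PiLp.inner_apply, mul_comm]
    rw [e0] at h
    rw [← h]
    refine Finset.sum_congr rfl fun i _ => ?_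
    have e1 : (inner ℝ (WithLp.toLp 2 f : EuclideanSpace ℝ Ω) (hH.eigenvectorBasis i) : ℝ)
        = ∑ x, (hH.eigenvectorBasis i : EuclideanSpace ℝ Ω).ofLp x * f x := by
      simp [PiLp.inner_apply]
    have e2 : (inner ℝ (hH.eigenvectorBasis i) (WithLp.toLp 2 g : EuclideanSpace ℝ Ω) : ℝ)
        = ∑ x, (hH.eigenvectorBasis i : EuclideanSpace ℝ Ω).ofLp x * g x := by
      simp [PiLp.inner_apply, mul_comm]
    rw [e1, e2]
  · intro i j hij
    have h := hH.eigenvectorBasis.orthonormal.2 hij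
    rw [← h]
    simp [PiLp.inner_apply, mul_comm]
  · intro i
    have h := hH.eigenvectorBasis.norm_eq_one i
    have h2 : (inner ℝ (hH.eigenvectorBasis i) (hH.eigenvectorBasis i) : ℝ) = 1 := by
      rw [real_inner_self_eq_norm_sq, h]; norm_num
    rw [← h2, PiLp.inner_apply]
    exact Finset.sum_congr rfl fun x _ => by simp [sq]

/-- spectral theorem, quadratic forms -/
theorem spectral_forms (A : (Ω → ℝ) →ₗ[ℝ] (Ω → ℝ))
    (hA : ∀ f g : Ω → ℝ, ∑ x, f x * A g x = ∑ x, A f x * g x) :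
    ∃ (b : Ω → Ω → ℝ) (κ : Ω → ℝ), (∀ i, A (b i) = κ i • b i) ∧ (∀ i, b i ≠ 0) ∧
      (∀ f g : Ω → ℝ, ∑ x, f x * g x = ∑ i, (∑ x, b i x * f x) * (∑ x, b i x * g x)) ∧
      (∀ f : Ω → ℝ, ∑ x, f x * A f x = ∑ i, κ i * (∑ x, b i x * f x) ^ 2) ∧
      (∀ f : Ω → ℝ, ∑ x, A f x ^ 2 = ∑ i, κ i ^ 2 * (∑ x, b i x * f x) ^ 2) ∧
      (∀ i j, i ≠ j → ∑ x, b i x * b j x = 0) ∧ (∀ i, ∑ x, b i x * b i x = 1) := by
  obtain ⟨b, κ, h1, h2, h3, h6, h7⟩ := spectral A hA
  have hco : ∀ i (f : Ω → ℝ), ∑ x, b i x * A f x = κ i * ∑ x, b i x * f x := by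
    intro i f
    rw [hA, h1, Finset.mul_sum]
    exact Finset.sum_congr rfl fun x _ => by simp only [Pi.smul_apply, smul_eq_mul]; ring
  refine ⟨b, κ, h1, h2, h3, ?_, ?_, h6, h7⟩
  · intro f
    rw [h3 f (A f)]
    exact Finset.sum_congr rfl fun i _ => by rw [hco]; ring
  · intro f
    have : ∑ x, A f x ^ 2 = ∑ x, A f x * A f x := Finset.sum_congr rfl fun x _ => by ring
    rw [this, h3 (A f) (A f)]
    exact Finset.sum_congr rfl fun i _ => by rw [hco]; ring

/-- nonnegativity of a symmetric operator from its eigenvalues -/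
theorem quad_nonneg_of_eig (A : (Ω → ℝ) →ₗ[ℝ] (Ω → ℝ))
    (hA : ∀ f g : Ω → ℝ, ∑ x, f x * A g x = ∑ x, A f x * g x)
    (h : ∀ (κ : ℝ) (f : Ω → ℝ), f ≠ 0 → A f = κ • f → 0 ≤ κ) (f : Ω → ℝ) :
    0 ≤ ∑ x, f x * A f x := by
  obtain ⟨b, κ, h1, h2, h3, h4, h5, h6, h7⟩ := spectral_forms A hA
  rw [h4]
  exact Finset.sum_nonneg fun i _ => mul_nonneg (h _ _ (h2 i) (h1 i)) (sq_nonneg _)

/-- `A² ≥ A` from the eigenvalues -/
theorem sq_ge_of_eig (A : (Ω → ℝ) →ₗ[ℝ] (Ω → ℝ))
    (hA : ∀ f g : Ω → ℝ, ∑ x, f x * A g x = ∑ x, A f x * g x)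
    (h : ∀ (κ : ℝ) (f : Ω → ℝ), f ≠ 0 → A f = κ • f → κ ≤ κ ^ 2) (f : Ω → ℝ) :
    ∑ x, f x * A f x ≤ ∑ x, A f x ^ 2 := by
  obtain ⟨b, κ, h1, h2, h3, h4, h5, h6, h7⟩ := spectral_forms A hA
  rw [h4, h5]
  exact Finset.sum_le_sum fun i _ =>
    mul_le_mul_of_nonneg_right (h _ _ (h2 i) (h1 i)) (sq_nonneg _)

/-- spectral gap from `A² ≥ c A` and triviality of the kernel. -/
theorem gap_of_sq [Nonempty Ω] (A : (Ω → ℝ) →ₗ[ℝ] (Ω → ℝ)) (c : ℝ)
    (hc : 0 < c)
    (hA : ∀ f g : Ω → ℝ, ∑ x, f x * A g x = ∑ x, A f x * g x)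
    (hpos : ∀ f : Ω → ℝ, 0 ≤ ∑ x, f x * A f x)
    (hsq : ∀ f : Ω → ℝ, c * ∑ x, f x * A f x ≤ ∑ x, A f x ^ 2)
    (hker : ∀ f : Ω → ℝ, A f = 0 → ∀ x y, f x = f y) (f : Ω → ℝ) :
    c * ∑ x, (f x - (∑ y, f y) / Fintype.card Ω) ^ 2 ≤ ∑ x, f x * A f x := by
  classical
  obtain ⟨b, κ, h1, h2, h3, h4, h5, h6, h7⟩ := spectral_forms A hA
  have hbb : ∀ i, 0 < ∑ x, b i x ^ 2 := by
    intro i
    obtain ⟨x, hx⟩ := Function.ne_iff.1 (h2 i)
    exact Finset.sum_pos' (fun x _ => sq_nonneg _) ⟨x, mem_univ _, by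
      have : b i x ≠ 0 := hx
      positivity⟩
  have hκ : ∀ i, κ i = 0 ∨ c ≤ κ i := by
    intro i
    have p1 := hpos (b i)
    have p2 := hsq (b i)
    rw [h1] at p1 p2
    simp only [Pi.smul_apply, smul_eq_mul] at p1 p2
    have q1 : ∑ x, b i x * (κ i * b i x) = κ i * ∑ x, b i x ^ 2 := by
      rw [Finset.mul_sum]; exact Finset.sum_congr rfl fun x _ => by ring
    have q2 : ∑ x, (κ i * b i x) ^ 2 = κ i ^ 2 * ∑ x, b i x ^ 2 := by
      rw [Finset.mul_sum]; exact Finset.sum_congr rfl fun x _ => by ring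
    rw [q1] at p1 p2
    rw [q2] at p2
    have hb := hbb i
    have hk0 : 0 ≤ κ i := by
      by_contra hneg
      push Not at hneg
      have := mul_neg_of_neg_of_pos hneg hb
      linarith
    have hk1 : c * κ i ≤ κ i ^ 2 := by
      have : (c * κ i) * ∑ x, b i x ^ 2 ≤ κ i ^ 2 * ∑ x, b i x ^ 2 := by linarith
      exact le_of_mul_le_mul_right this hb
    rcases hk0.eq_or_lt with h | h
    · exact Or.inl h.symm
    · right
      have : c * κ i ≤ κ i * κ i := by nlinarith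
      exact le_of_mul_le_mul_right this h
  -- the kernel part of `f`
  set a : Ω → ℝ := fun i => ∑ x, b i x * f x with ha
  have hexp : ∀ (f : Ω → ℝ) x, f x = ∑ i, (∑ y, b i y * f y) * b i x := by
    intro f x
    have h := h3 f (fun y => if y = x then 1 else 0)
    simpa using h
  set p : Ω → ℝ := fun x => ∑ i ∈ univ.filter (fun i => κ i = 0), a i * b i x with hp
  have hbconst : ∀ i, κ i = 0 → ∀ x y, b i x = b i y := by
    intro i hi
    apply hker
    rw [h1, hi, zero_smul]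
  obtain ⟨x₀⟩ := ‹Nonempty Ω›
  have hpconst : ∀ x, p x = p x₀ := by
    intro x
    simp only [hp]
    refine Finset.sum_congr rfl fun i hi => ?_
    rw [mem_filter] at hi
    rw [hbconst i hi.2 x x₀]
  -- mean minimises
  have hmean : ∀ t : ℝ, ∑ x, (f x - (∑ y, f y) / Fintype.card Ω) ^ 2 ≤ ∑ x, (f x - t) ^ 2 := by
    intro t
    set N : ℝ := (Fintype.card Ω : ℝ) with hN
    have hN0 : 0 < N := by
      rw [hN]; exact_mod_cast Fintype.card_pos_iff.2 ⟨x₀⟩
    set m := (∑ y, f y) / N with hm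
    have hs : ∑ x, f x = N * m := by rw [hm]; field_simp
    have e : ∀ t : ℝ, ∑ x, (f x - t) ^ 2 = ∑ x, f x ^ 2 - 2 * t * (N * m) + N * t ^ 2 := by
      intro t
      have : ∀ x, (f x - t) ^ 2 = f x ^ 2 - 2 * t * f x + t ^ 2 := fun x => by ring
      simp_rw [this]
      rw [Finset.sum_add_distrib, Finset.sum_sub_distrib, ← Finset.mul_sum, hs, Finset.sum_const,
        Finset.card_univ, nsmul_eq_mul]
    rw [e, e]
    nlinarith [mul_nonneg hN0.le (sq_nonneg (t - m))]
  have hcoef : ∀ j, ∑ x, b j x * (f x - p x) = if κ j = 0 then 0 else a j := by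
    intro j
    have e1 : ∑ x, b j x * p x = ∑ i ∈ univ.filter (fun i => κ i = 0),
        a i * ∑ x, b j x * b i x := by
      simp only [hp, Finset.mul_sum]
      rw [Finset.sum_comm]
      exact Finset.sum_congr rfl fun i _ => Finset.sum_congr rfl fun x _ => by ring
    have e2 : ∑ x, b j x * p x = if κ j = 0 then a j else 0 := by
      rw [e1]
      have e3 : ∀ i ∈ univ.filter (fun i => κ i = 0), a i * ∑ x, b j x * b i x
          = if i = j then a j else 0 := by
        intro i _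
        by_cases hij : i = j
        · subst hij; rw [h7, if_pos rfl, mul_one]
        · rw [h6 j i (Ne.symm hij), if_neg hij, mul_zero]
      rw [Finset.sum_congr rfl e3, Finset.sum_ite_eq']
      simp
    simp_rw [mul_sub]
    rw [Finset.sum_sub_distrib, e2]
    split_ifs with hk
    · simp [ha]
    · simp [ha]
  have hvar : ∑ x, (f x - p x) ^ 2 = ∑ j, (if κ j = 0 then 0 else a j) ^ 2 := by
    have : ∑ x, (f x - p x) ^ 2 = ∑ x, (f x - p x) * (f x - p x) :=
      Finset.sum_congr rfl fun x _ => by ring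
    rw [this, h3 (fun x => f x - p x) (fun x => f x - p x)]
    refine Finset.sum_congr rfl fun j _ => ?_
    rw [hcoef]; ring
  have hmin : ∑ x, (f x - (∑ y, f y) / Fintype.card Ω) ^ 2 ≤ ∑ x, (f x - p x) ^ 2 := by
    have := hmean (p x₀)
    refine this.trans (le_of_eq ?_)
    exact Finset.sum_congr rfl fun x _ => by rw [hpconst x]
  calc c * ∑ x, (f x - (∑ y, f y) / Fintype.card Ω) ^ 2
      ≤ c * ∑ j, (if κ j = 0 then 0 else a j) ^ 2 := by
        rw [← hvar]; exact mul_le_mul_of_nonneg_left hmin hc.le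
    _ = ∑ j, c * (if κ j = 0 then 0 else a j) ^ 2 := Finset.mul_sum _ _ _
    _ ≤ ∑ j, κ j * (∑ x, b j x * f x) ^ 2 := by
        refine Finset.sum_le_sum fun j _ => ?_
        rcases hκ j with h | h
        · rw [if_pos h, h]; simp
        · rw [if_neg (by linarith : κ j ≠ 0)] 
          exact mul_le_mul_of_nonneg_right h (sq_nonneg _)
    _ = ∑ x, f x * A f x := (h4 f).symm

end spectral

end Crest.Agent.SC
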