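/-
Row 299 (S0453, switch chain), package G0: switches, the relation `rel`, charts of its classes.
-/
import Crest.Agent.SC.Basic

set_option autoImplicit false

namespace Crest.Agent.SC

open Finset

variable {V : Type} [Fintype V] [DecidableEq V]

/-! ### basic facts -/

theorem Gr.adj_symm {d : V → ℕ} (G : Gr d) (p q : V) : G.adj p q = G.adj q p := G.2.1 p q

@[simp] theorem Gr.adj_self {d : V → ℕ} (G : Gr d) (p : V) : G.adj p p = false := G.2.2.1 p

theorem Gr.deg {d : V → ℕ} (G : Gr d) (p : V) :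
    (univ.filter fun q => G.adj p q = true).card = d p := G.2.2.2 p

theorem card_filter_eq_sum (b : V → Bool) :
    (univ.filter fun q => b q = true).card = ∑ q, (b q).toNat := by
  rw [card_filter]
  refine sum_congr rfl fun q _ => ?_
  cases b q <;> rfl

theorem Gr.deg_sum {d : V → ℕ} (G : Gr d) (p : V) : ∑ q, (G.adj p q).toNat = d p := by
  rw [← card_filter_eq_sum]; exact G.deg p

theorem Gr.ext_adj {d : V → ℕ} {G H : Gr d} (h : ∀ p q, G.adj p q = H.adj p q) : G = H := by
  apply Subtype.ext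
  funext p q
  exact h p q

/-- build a graph from a matrix with the right row sums -/
def mkGr {d : V → ℕ} (a : V → V → Bool) (h1 : ∀ p q, a p q = a q p) (h2 : ∀ p, a p p = false)
    (h3 : ∀ p, ∑ q, (a p q).toNat = d p) : Gr d :=
  ⟨a, h1, h2, fun p => by rw [card_filter_eq_sum]; exact h3 p⟩

@[simp] theorem mkGr_adj {d : V → ℕ} (a : V → V → Bool) (h1 : ∀ p q, a p q = a q p)
    (h2 : ∀ p, a p p = false) (h3 : ∀ p, ∑ q, (a p q).toNat = d p) (p q : V) :
    (mkGr a h1 h2 h3 : Gr d).adj p q = a p q := rfl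

/-! ### the relation -/

theorem rel_refl {d : V → ℕ} (v w : V) (G : Gr d) : rel v w G G :=
  ⟨fun _ _ _ _ _ _ => rfl, rfl, fun _ _ _ => rfl⟩

theorem rel_symm {d : V → ℕ} {v w : V} {G H : Gr d} (h : rel v w G H) : rel v w H G :=
  ⟨fun p q a b c e => (h.1 p q a b c e).symm, h.2.1.symm, fun z a b => (h.2.2 z a b).symm⟩

theorem rel_trans {d : V → ℕ} {v w : V} {G H K : Gr d} (h : rel v w G H) (h' : rel v w H K) :
    rel v w G K :=
  ⟨fun p q a b c e => (h.1 p q a b c e).trans (h'.1 p q a b c e), h.2.1.trans h'.2.1,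
    fun z a b => (h.2.2 z a b).trans (h'.2.2 z a b)⟩

theorem rel_equiv {d : V → ℕ} (v w : V) : Equivalence (rel (d := d) v w) :=
  ⟨rel_refl v w, rel_symm, rel_trans⟩

theorem rel_comm {d : V → ℕ} {v w : V} {G H : Gr d} : rel v w G H ↔ rel w v G H := by
  constructor
  · intro h
    refine ⟨fun p q a b c e => h.1 p q b a e c, ?_, fun z a b => ?_⟩
    · rw [G.adj_symm, H.adj_symm]; exact h.2.1
    · have := h.2.2 z b a; omega
  · intro h
    refine ⟨fun p q a b c e => h.1 p q b a e c, ?_, fun z a b => ?_⟩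
    · rw [G.adj_symm, H.adj_symm]; exact h.2.1
    · have := h.2.2 z b a; omega

instance {d : V → ℕ} (v w : V) (G H : Gr d) : Decidable (rel v w G H) := by
  unfold rel; infer_instance

/-! ### `Opp` and `Dist4` symmetries -/

theorem Dist4.swap_pairs {v w x y : V} (h : Dist4 v w x y) : Dist4 x y v w := by
  obtain ⟨h1, h2, h3, h4, h5, h6⟩ := h
  exact ⟨h6, h2.symm, h4.symm, h3.symm, h5.symm, h1⟩

theorem Dist4.swap_left {v w x y : V} (h : Dist4 v w x y) : Dist4 w v x y := by
  obtain ⟨h1, h2, h3, h4, h5, h6⟩ := h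
  exact ⟨h1.symm, h4, h5, h2, h3, h6⟩

theorem Dist4.swap_right {v w x y : V} (h : Dist4 v w x y) : Dist4 v w y x := by
  obtain ⟨h1, h2, h3, h4, h5, h6⟩ := h
  exact ⟨h1, h3, h2, h5, h4, h6.symm⟩

theorem Opp.swap_pairs {d : V → ℕ} {v w x y : V} {G : Gr d} (h : Opp v w x y G) :
    Opp x y v w G := by
  obtain ⟨h1, h2, h3⟩ := h
  refine ⟨?_, ?_, ?_⟩
  · rw [G.adj_symm x v, G.adj_symm y w]; exact h1
  · rw [G.adj_symm x w, G.adj_symm y v]; exact h2.symm
  · rw [G.adj_symm x v, G.adj_symm x w, ← h2]; exact h3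

theorem opp_swap_pairs {d : V → ℕ} {v w x y : V} {G : Gr d} :
    Opp x y v w G ↔ Opp v w x y G := ⟨Opp.swap_pairs, Opp.swap_pairs⟩

theorem Opp.swap_left {d : V → ℕ} {v w x y : V} {G : Gr d} (h : Opp v w x y G) :
    Opp w v x y G := by
  obtain ⟨h1, h2, h3⟩ := h
  exact ⟨h2.symm, h1.symm, by rw [← h2, ← h1]; exact h3.symm⟩

theorem opp_swap_left {d : V → ℕ} {v w x y : V} {G : Gr d} :
    Opp w v x y G ↔ Opp v w x y G := ⟨Opp.swap_left, Opp.swap_left⟩

theorem Opp.swap_right {d : V → ℕ} {v w x y : V} {G : Gr d} (h : Opp v w x y G) :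
    Opp v w y x G := by
  obtain ⟨h1, h2, h3⟩ := h
  exact ⟨h2, h1, h3.symm⟩

theorem opp_swap_right {d : V → ℕ} {v w x y : V} {G : Gr d} :
    Opp v w y x G ↔ Opp v w x y G := ⟨Opp.swap_right, Opp.swap_right⟩

/-! ### the switch -/

theorem flipBlock_pairs (v w x y : V) (a : V → V → Bool) :
    flipBlock x y v w a = flipBlock v w x y a := by
  funext p q
  unfold flipBlock
  congr 1
  apply decide_eq_decide.2
  tauto

theorem flipBlock_left (v w x y : V) (a : V → V → Bool) :
    flipBlock w v x y a = flipBlock v w x y a := by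
  funext p q
  unfold flipBlock
  congr 1
  apply decide_eq_decide.2
  tauto

theorem flipBlock_right (v w x y : V) (a : V → V → Bool) :
    flipBlock v w y x a = flipBlock v w x y a := by
  funext p q
  unfold flipBlock
  congr 1
  apply decide_eq_decide.2
  tauto

theorem card_swap_row (b : V → Bool) {x y : V} (hb : b x ≠ b y) :
    (univ.filter fun q => (xor (b q) (decide (q = x ∨ q = y))) = true).card
      = (univ.filter fun q => b q = true).card := by
  have hxy : x ≠ y := fun h => hb (by rw [h])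
  refine card_bij' (fun q _ => Equiv.swap x y q) (fun q _ => Equiv.swap x y q) ?_ ?_ ?_ ?_
  · intro q hq
    simp only [mem_filter, mem_univ, true_and] at hq ⊢
    by_cases h1 : q = x
    · subst h1
      rw [Equiv.swap_apply_left]
      simp only [true_or, decide_true, Bool.xor_true, Bool.not_eq_true'] at hq
      revert hb; rw [hq]; cases b y <;> simp
    · by_cases h2 : q = y
      · subst h2
        rw [Equiv.swap_apply_right]
        simp only [or_true, decide_true, Bool.xor_true, Bool.not_eq_true'] at hq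
        revert hb; rw [hq]; cases b x <;> simp
      · rw [Equiv.swap_apply_of_ne_of_ne h1 h2]
        simpa [h1, h2] using hq
  · intro q hq
    simp only [mem_filter, mem_univ, true_and] at hq ⊢
    by_cases h1 : q = x
    · subst h1
      rw [Equiv.swap_apply_left]
      simp only [or_true, decide_true, Bool.xor_true, Bool.not_eq_true']
      revert hb; rw [hq]; cases b y <;> simp
    · by_cases h2 : q = y
      · subst h2
        rw [Equiv.swap_apply_right]
        simp only [true_or, decide_true, Bool.xor_true, Bool.not_eq_true']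
        revert hb; rw [hq]; cases b x <;> simp
      · rw [Equiv.swap_apply_of_ne_of_ne h1 h2]
        simpa [h1, h2] using hq
  · intro q _; exact Equiv.swap_swap_apply' x y q
  · intro q _; exact Equiv.swap_swap_apply' x y q
where
  Equiv.swap_swap_apply' (x y q : V) : Equiv.swap x y (Equiv.swap x y q) = q := by
    simp

theorem flip_valid {d : V → ℕ} {v w x y : V} (G : Gr d) (h : Dist4 v w x y) (ho : Opp v w x y G) :
    (∀ p q, flipBlock v w x y G.1 p q = flipBlock v w x y G.1 q p) ∧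
      (∀ p, flipBlock v w x y G.1 p p = false) ∧
      ∀ p, (univ.filter fun q => flipBlock v w x y G.1 p q = true).card = d p := by
  obtain ⟨h1, h2, h3, h4, h5, h6⟩ := h
  obtain ⟨o1, o2, o3⟩ := ho
  refine ⟨?_, ?_, ?_⟩
  · intro p q
    unfold flipBlock
    rw [G.2.1 p q]
    congr 1
    apply decide_eq_decide.2
    tauto
  · intro p
    unfold flipBlock
    rw [G.2.2.1 p]
    have : ¬ (((p = v ∨ p = w) ∧ (p = x ∨ p = y)) ∨ ((p = v ∨ p = w) ∧ (p = x ∨ p = y))) := by
      rintro (⟨rfl | rfl, rfl | rfl⟩ | ⟨rfl | rfl, rfl | rfl⟩) <;> simp_all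
    rw [decide_eq_false this]; rfl
  · intro p
    rw [← G.deg p]
    unfold flipBlock Gr.adj
    by_cases hp : p = v ∨ p = w
    · have hcond : ∀ q, (((p = v ∨ p = w) ∧ (q = x ∨ q = y)) ∨ ((q = v ∨ q = w) ∧ (p = x ∨ p = y)))
          ↔ (q = x ∨ q = y) := by
        intro q
        have : ¬ (p = x ∨ p = y) := by
          rintro (rfl | rfl) <;> rcases hp with hp | hp <;> simp_all
        tauto
      simp_rw [hcond]
      refine card_swap_row (fun q => G.1 p q) ?_
      rcases hp with rfl | rfl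
      · exact o3
      · change G.adj p x ≠ G.adj p y
        rw [← o2, ← o1]; exact o3.symm
    · by_cases hp' : p = x ∨ p = y
      · have hcond : ∀ q, (((p = v ∨ p = w) ∧ (q = x ∨ q = y)) ∨ ((q = v ∨ q = w) ∧ (p = x ∨ p = y)))
            ↔ (q = v ∨ q = w) := by
          intro q; tauto
        simp_rw [hcond]
        refine card_swap_row (fun q => G.1 p q) ?_
        rcases hp' with rfl | rfl
        · change G.adj p v ≠ G.adj p w
          rw [G.adj_symm p v, G.adj_symm p w, ← o2]; exact o3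
        · change G.adj p v ≠ G.adj p w
          rw [G.adj_symm p v, G.adj_symm p w, ← o1]; exact o3.symm
      · have hcond : ∀ q, (((p = v ∨ p = w) ∧ (q = x ∨ q = y)) ∨ ((q = v ∨ q = w) ∧ (p = x ∨ p = y)))
            ↔ False := by
          intro q; tauto
        simp_rw [hcond]
        simp

theorem sw_adj {d : V → ℕ} {v w x y : V} {G : Gr d} (h : Dist4 v w x y) (ho : Opp v w x y G)
    (p q : V) : (sw v w x y G).adj p q = flipBlock v w x y G.1 p q := by
  unfold sw
  rw [dif_pos ⟨flip_valid G h ho, h, ho⟩]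
  rfl

/-- entries outside the block are unchanged -/
theorem sw_adj_of_not {d : V → ℕ} {v w x y : V} {G : Gr d} (h : Dist4 v w x y)
    (ho : Opp v w x y G) {p q : V}
    (hpq : ¬ (((p = v ∨ p = w) ∧ (q = x ∨ q = y)) ∨ ((q = v ∨ q = w) ∧ (p = x ∨ p = y)))) :
    (sw v w x y G).adj p q = G.adj p q := by
  rw [sw_adj h ho]
  unfold flipBlock
  rw [decide_eq_false hpq]
  simp [Gr.adj]

/-- entries of the block are complemented -/
theorem sw_adj_of {d : V → ℕ} {v w x y : V} {G : Gr d} (h : Dist4 v w x y)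
    (ho : Opp v w x y G) {p q : V}
    (hpq : (((p = v ∨ p = w) ∧ (q = x ∨ q = y)) ∨ ((q = v ∨ q = w) ∧ (p = x ∨ p = y)))) :
    (sw v w x y G).adj p q = !(G.adj p q) := by
  rw [sw_adj h ho]
  unfold flipBlock
  rw [decide_eq_true hpq]
  simp [Gr.adj]

theorem sw_of_not {d : V → ℕ} {v w x y : V} {G : Gr d} (h : ¬ (Dist4 v w x y ∧ Opp v w x y G)) :
    sw v w x y G = G := by
  unfold sw
  rw [dif_neg]
  exact fun h' => h h'.2

theorem sw_of_not_opp {d : V → ℕ} {v w x y : V} {G : Gr d} (h : ¬ Opp v w x y G) :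
    sw v w x y G = G := sw_of_not fun h' => h h'.2

theorem sw_pairs {d : V → ℕ} (v w x y : V) (G : Gr d) : sw x y v w G = sw v w x y G := by
  by_cases h : Dist4 v w x y ∧ Opp v w x y G
  · apply Gr.ext_adj
    intro p q
    rw [sw_adj h.1 h.2, sw_adj h.1.swap_pairs h.2.swap_pairs, flipBlock_pairs]
  · rw [sw_of_not h, sw_of_not]
    exact fun h' => h ⟨h'.1.swap_pairs, h'.2.swap_pairs⟩

theorem sw_left {d : V → ℕ} (v w x y : V) (G : Gr d) : sw w v x y G = sw v w x y G := by
  by_cases h : Dist4 v w x y ∧ Opp v w x y G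
  · apply Gr.ext_adj
    intro p q
    rw [sw_adj h.1 h.2, sw_adj h.1.swap_left h.2.swap_left, flipBlock_left]
  · rw [sw_of_not h, sw_of_not]
    exact fun h' => h ⟨h'.1.swap_left, h'.2.swap_left⟩

theorem sw_right {d : V → ℕ} (v w x y : V) (G : Gr d) : sw v w y x G = sw v w x y G := by
  by_cases h : Dist4 v w x y ∧ Opp v w x y G
  · apply Gr.ext_adj
    intro p q
    rw [sw_adj h.1 h.2, sw_adj h.1.swap_right h.2.swap_right, flipBlock_right]
  · rw [sw_of_not h, sw_of_not]
    exact fun h' => h ⟨h'.1.swap_right, h'.2.swap_right⟩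

theorem opp_sw {d : V → ℕ} {v w x y : V} {G : Gr d} :
    Opp v w x y (sw v w x y G) ↔ Opp v w x y G := by
  by_cases h : Dist4 v w x y ∧ Opp v w x y G
  · refine ⟨fun _ => h.2, fun _ => ?_⟩
    obtain ⟨h1, h2⟩ := h
    obtain ⟨o1, o2, o3⟩ := h2
    refine ⟨?_, ?_, ?_⟩
    · rw [sw_adj_of h1 ⟨o1, o2, o3⟩ (by simp), sw_adj_of h1 ⟨o1, o2, o3⟩ (by simp), o1]
    · rw [sw_adj_of h1 ⟨o1, o2, o3⟩ (by simp), sw_adj_of h1 ⟨o1, o2, o3⟩ (by simp), o2]
    · rw [sw_adj_of h1 ⟨o1, o2, o3⟩ (by simp), sw_adj_of h1 ⟨o1, o2, o3⟩ (by simp)]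
      intro hh
      exact o3 (by simpa using hh)
  · rw [sw_of_not h]

theorem sw_sw {d : V → ℕ} (v w x y : V) (G : Gr d) : sw v w x y (sw v w x y G) = G := by
  by_cases h : Dist4 v w x y ∧ Opp v w x y G
  · have ho : Opp v w x y (sw v w x y G) := opp_sw.2 h.2
    apply Gr.ext_adj
    intro p q
    by_cases hpq : (((p = v ∨ p = w) ∧ (q = x ∨ q = y)) ∨ ((q = v ∨ q = w) ∧ (p = x ∨ p = y)))
    · rw [sw_adj_of h.1 ho hpq, sw_adj_of h.1 h.2 hpq, Bool.not_not]
    · rw [sw_adj_of_not h.1 ho hpq, sw_adj_of_not h.1 h.2 hpq]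
  · rw [sw_of_not h, sw_of_not h]

theorem sw_involutive {d : V → ℕ} (v w x y : V) :
    Function.Involutive (sw (d := d) v w x y) := sw_sw v w x y

theorem sw_ne {d : V → ℕ} {v w x y : V} {G : Gr d} (h : Dist4 v w x y) (ho : Opp v w x y G) :
    sw v w x y G ≠ G := by
  intro hh
  have h1 := sw_adj_of h ho (p := v) (q := x) (by simp)
  rw [hh] at h1
  cases hb : G.adj v x <;> simp [hb] at h1

theorem rel_sw {d : V → ℕ} (v w x y : V) (G : Gr d) : rel v w G (sw v w x y G) := by
  by_cases h : Dist4 v w x y ∧ Opp v w x y G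
  · obtain ⟨h, ho⟩ := h
    obtain ⟨h1, h2, h3, h4, h5, h6⟩ := id h
    obtain ⟨o1, o2, o3⟩ := id ho
    refine ⟨?_, ?_, ?_⟩
    · intro p q a b c e
      rw [sw_adj_of_not h ho (by tauto)]
    · rw [sw_adj_of_not h ho (by
        rintro (⟨_, rfl | rfl⟩ | ⟨_, rfl | rfl⟩) <;> simp_all)]
    · intro z hz1 hz2
      by_cases hx : z = x
      · subst hx
        rw [sw_adj_of h ho (by simp), sw_adj_of h ho (by simp), ← o2]
        revert o3
        cases G.adj v z <;> cases G.adj v y <;> simp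
      · by_cases hy : z = y
        · subst hy
          rw [sw_adj_of h ho (by simp), sw_adj_of h ho (by simp), ← o1]
          revert o3
          cases G.adj v z <;> cases G.adj v x <;> simp
        · rw [sw_adj_of_not h ho (by tauto), sw_adj_of_not h ho (by tauto)]
  · rw [sw_of_not h]; exact rel_refl v w G

theorem rel_sw' {d : V → ℕ} (v w x y : V) (G : Gr d) : rel x y G (sw v w x y G) := by
  rw [← sw_pairs]; exact rel_sw x y v w G

end Crest.Agent.SC
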