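/-
Row 299 (S0453, switch chain), package B: the block inequality.
-/
import Crest.Agent.SC.E
import Crest.Agent.SC.G0

set_option autoImplicit false

namespace Crest.Agent.SC

open Finset

/-! ### commuting projections -/

section comm
variable {Ω : Type*} [Fintype Ω]

theorem comm_nonneg (A B : (Ω → ℝ) →ₗ[ℝ] (Ω → ℝ))
    (hA : ∀ f g : Ω → ℝ, ∑ x, f x * A g x = ∑ x, A f x * g x)
    (hB : ∀ f g : Ω → ℝ, ∑ x, f x * B g x = ∑ x, B f x * g x)
    (hAA : ∀ f, A (A f) = A f) (hBB : ∀ f, B (B f) = B f)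
    (hAB : ∀ f, A (B f) = B (A f)) (f : Ω → ℝ) :
    0 ≤ ∑ x, A f x * B f x := by
  have e : ∑ x, A f x * B f x = ∑ x, A (B f) x ^ 2 := by
    calc ∑ x, A f x * B f x = ∑ x, A f x * B (B f) x := by rw [hBB]
      _ = ∑ x, B (A f) x * B f x := hB _ _
      _ = ∑ x, A (B f) x * B f x := by rw [hAB]
      _ = ∑ x, A (A (B f)) x * B f x := by rw [hAA]
      _ = ∑ x, A (B f) x * A (B f) x := (hA _ _).symm
      _ = _ := Finset.sum_congr rfl fun x _ => by ring
  rw [e]
  exact Finset.sum_nonneg fun x _ => sq_nonneg _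

/-- averaging over finer classes first changes nothing -/
theorem avg_finer (r₁ r₂ : Ω → Ω → Prop) (h₁ : Equivalence r₁) (h₂ : Equivalence r₂)
    (h : ∀ G H, r₁ G H → r₂ G H) (f : Ω → ℝ) (G : Ω) :
    avg r₂ (avg r₁ f) G = avg r₂ f G := by
  classical
  have hs : ∀ g : Ω → ℝ, ∀ G, avg r₁ (avg r₂ g) G = avg r₂ g G := fun g G =>
    avg_of_inv r₁ h₁ _ (fun A B hAB => avg_inv r₂ h₂ g A B (h A B hAB)) G
  have key : ∀ g : Ω → ℝ, ∑ x, avg r₂ (avg r₁ f) x * g x = ∑ x, avg r₂ f x * g x := by
    intro g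
    rw [← avg_symm r₂ h₂, ← avg_symm r₁ h₁, ← avg_symm r₂ h₂]
    exact Finset.sum_congr rfl fun x _ => by rw [hs]
  have k := key (fun x => if x = G then 1 else 0)
  simpa using k

theorem avg_rel_congr (r r' : Ω → Ω → Prop) (f : Ω → ℝ) (G : Ω) (h : ∀ H, r G H ↔ r' G H) :
    avg r f G = avg r' f G := by
  classical
  have : (univ.filter fun H => r G H) = univ.filter fun H => r' G H := by
    ext H
    simp only [mem_filter, mem_univ, true_and]
    exact h H
  unfold avg
  rw [this]

theorem avgL_symm (r : Ω → Ω → Prop) (hr : Equivalence r) (f g : Ω → ℝ) :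
    ∑ x, f x * avgL r g x = ∑ x, avgL r f x * g x := avg_symm r hr f g

theorem avgL_idem (r : Ω → Ω → Prop) (hr : Equivalence r) (f : Ω → ℝ) :
    avgL r (avgL r f) = avgL r f := by
  funext G
  exact avg_avg r hr f G

/-- if the averages commute then `⟨D₁ f, D₂ f⟩ ≥ 0` -/
theorem Dav_comm_nonneg (r₁ r₂ : Ω → Ω → Prop) (h₁ : Equivalence r₁) (h₂ : Equivalence r₂)
    (hc : ∀ (f : Ω → ℝ) (G : Ω), avg r₁ (avg r₂ f) G = avg r₂ (avg r₁ f) G) (f : Ω → ℝ) :
    0 ≤ ∑ G, Dav r₁ f G * Dav r₂ f G := by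
  have hcL : ∀ f, avgL r₁ (avgL r₂ f) = avgL r₂ (avgL r₁ f) := fun f => by
    funext G; exact hc f G
  have hD : ∀ (r : Ω → Ω → Prop) (f : Ω → ℝ), DavL r f = f - avgL r f := fun r f => by
    funext G; rfl
  refine comm_nonneg (DavL r₁) (DavL r₂) (Dav_symm r₁ h₁) (Dav_symm r₂ h₂) ?_ ?_ ?_ f
  · intro f; funext G; exact Dav_Dav r₁ h₁ f G
  · intro f; funext G; exact Dav_Dav r₂ h₂ f G
  · intro f
    simp only [hD, map_sub, hcL]
    abel

/-- second term: `P = α - R` with `α` finer than `R`, both commuting with `β`. -/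
theorem proj_comm_nonneg (ra r b : Ω → Ω → Prop) (ha : Equivalence ra) (hr : Equivalence r)
    (hb : Equivalence b) (hfine : ∀ G H, ra G H → r G H)
    (hc1 : ∀ (f : Ω → ℝ) (G : Ω), avg ra (avg b f) G = avg b (avg ra f) G)
    (hc2 : ∀ (f : Ω → ℝ) (G : Ω), avg r (avg b f) G = avg b (avg r f) G) (f : Ω → ℝ) :
    0 ≤ ∑ G, (avg ra f G - avg r f G) * Dav b f G := by
  have hc1L : ∀ f, avgL ra (avgL b f) = avgL b (avgL ra f) := fun f => by
    funext G; exact hc1 f G
  have hc2L : ∀ f, avgL r (avgL b f) = avgL b (avgL r f) := fun f => by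
    funext G; exact hc2 f G
  have hD : ∀ (r : Ω → Ω → Prop) (f : Ω → ℝ), DavL r f = f - avgL r f := fun r f => by
    funext G; rfl
  have hra : ∀ f, avgL r (avgL ra f) = avgL r f := fun f => by
    funext G; exact avg_finer ra r ha hr hfine f G
  have har : ∀ f, avgL ra (avgL r f) = avgL r f := fun f => by
    funext G
    exact avg_of_inv ra ha _ (fun A B hAB => avg_inv r hr f A B (hfine A B hAB)) G
  refine comm_nonneg (avgL ra - avgL r) (DavL b) ?_ (Dav_symm b hb) ?_ ?_ ?_ f
  · intro f g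
    simp only [LinearMap.sub_apply, Pi.sub_apply, mul_sub, sub_mul, Finset.sum_sub_distrib]
    rw [avgL_symm ra ha, avgL_symm r hr]
  · intro f
    simp only [LinearMap.sub_apply, map_sub, hra, har, avgL_idem ra ha, avgL_idem r hr]
    try abel
  · intro f; funext G; exact Dav_Dav b hb f G
  · intro f
    simp only [hD, LinearMap.sub_apply, map_sub, hc1L, hc2L]
    try abel

end comm

/-! ### graphs from matrices -/

variable {V : Type} [Fintype V] [DecidableEq V]

open Classical in
/-- the graph with matrix `a`, if there is one -/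
noncomputable def ofMat {d : V → ℕ} (a : V → V → Bool) (H : Gr d) : Gr d :=
  if h : ∃ K : Gr d, ∀ p q, K.adj p q = a p q then h.choose else H

theorem ofMat_adj {d : V → ℕ} (a : V → V → Bool) (H : Gr d) (h1 : ∀ p q, a p q = a q p)
    (h2 : ∀ p, a p p = false) (h3 : ∀ p, ∑ q, (a p q).toNat = d p) (p q : V) :
    (ofMat a H).adj p q = a p q := by
  have h : ∃ K : Gr d, ∀ p q, K.adj p q = a p q := ⟨mkGr a h1 h2 h3, fun p q => rfl⟩
  unfold ofMat
  rw [dif_pos h]
  exact h.choose_spec p q

theorem sum_pair_congr (f g : V → ℕ) {x y : V} (hxy : x ≠ y)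
    (h : ∀ q, q ≠ x → q ≠ y → f q = g q) (h2 : f x + f y = g x + g y) :
    ∑ q, f q = ∑ q, g q := by
  rw [← Finset.add_sum_erase univ f (mem_univ x), ← Finset.add_sum_erase univ g (mem_univ x),
    ← Finset.add_sum_erase (univ.erase x) f (mem_erase.2 ⟨hxy.symm, mem_univ y⟩),
    ← Finset.add_sum_erase (univ.erase x) g (mem_erase.2 ⟨hxy.symm, mem_univ y⟩)]
  have : ∑ q ∈ (univ.erase x).erase y, f q = ∑ q ∈ (univ.erase x).erase y, g q := by
    refine Finset.sum_congr rfl fun q hq => ?_
    simp only [mem_erase] at hq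
    exact h q hq.2.1 hq.1
  rw [this]
  omega

/-! ### the same-block relation -/

/-- same block `{v,w} × {x,y}` -/
def sbl {d : V → ℕ} (v w x y : V) (G H : Gr d) : Prop :=
  G.adj v x = H.adj v x ∧ G.adj v y = H.adj v y ∧ G.adj w x = H.adj w x ∧ G.adj w y = H.adj w y

theorem sbl_refl {d : V → ℕ} (v w x y : V) (G : Gr d) : sbl v w x y G G := ⟨rfl, rfl, rfl, rfl⟩

theorem sbl_symm {d : V → ℕ} {v w x y : V} {G H : Gr d} (h : sbl v w x y G H) :
    sbl v w x y H G := ⟨h.1.symm, h.2.1.symm, h.2.2.1.symm, h.2.2.2.symm⟩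

theorem sbl_trans {d : V → ℕ} {v w x y : V} {G H K : Gr d} (h : sbl v w x y G H)
    (h' : sbl v w x y H K) : sbl v w x y G K :=
  ⟨h.1.trans h'.1, h.2.1.trans h'.2.1, h.2.2.1.trans h'.2.2.1, h.2.2.2.trans h'.2.2.2⟩

theorem sbl_pairs {d : V → ℕ} {v w x y : V} {G H : Gr d} (h : sbl v w x y G H) :
    sbl x y v w G H := by
  obtain ⟨h1, h2, h3, h4⟩ := h
  refine ⟨?_, ?_, ?_, ?_⟩
  · rw [G.adj_symm, H.adj_symm]; exact h1
  · rw [G.adj_symm, H.adj_symm]; exact h3
  · rw [G.adj_symm, H.adj_symm]; exact h2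
  · rw [G.adj_symm, H.adj_symm]; exact h4

/-- `rel` and same block -/
def rbl {d : V → ℕ} (v w x y : V) (G H : Gr d) : Prop := rel v w G H ∧ sbl v w x y G H

theorem rbl_equiv {d : V → ℕ} (v w x y : V) : Equivalence (rbl (d := d) v w x y) :=
  ⟨fun G => ⟨rel_refl v w G, sbl_refl v w x y G⟩, fun h => ⟨rel_symm h.1, sbl_symm h.2⟩,
    fun h h' => ⟨rel_trans h.1 h'.1, sbl_trans h.2 h'.2⟩⟩

/-- cells touching `{x,y}` from `G'`, the others from `H` -/
noncomputable def mixE {d : V → ℕ} (x y : V) (G' H : Gr d) : Gr d :=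
  ofMat (fun p q => if p = x ∨ p = y ∨ q = x ∨ q = y then G'.adj p q else H.adj p q) H

theorem mixE_adj {d : V → ℕ} {v w x y : V} (hD : Dist4 v w x y) {G G' H : Gr d}
    (h1 : rel x y G G') (h2 : rbl v w x y G H) (p q : V) :
    (mixE x y G' H).adj p q =
      if p = x ∨ p = y ∨ q = x ∨ q = y then G'.adj p q else H.adj p q := by
  unfold mixE
  refine ofMat_adj _ H ?_ ?_ ?_ p q
  · intro p q
    rw [G'.adj_symm p q, H.adj_symm p q]
    congr 1
    apply propext; tauto
  · intro p
    simp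
  · intro p
    by_cases hp : p = x ∨ p = y
    · rw [← G'.deg_sum p]
      refine Finset.sum_congr rfl fun q _ => ?_
      rw [if_pos (by tauto)]
    · rw [← H.deg_sum p]
      have hpx : p ≠ x := fun h => hp (Or.inl h)
      have hpy : p ≠ y := fun h => hp (Or.inr h)
      refine sum_pair_congr _ _ hD.2.2.2.2.2 ?_ ?_
      · intro q hqx hqy
        rw [if_neg (by tauto)]
      · rw [if_pos (by tauto), if_pos (by tauto)]
        have e1 := h1.2.2 p hpx hpy
        rw [G'.adj_symm p x, G'.adj_symm p y, ← e1]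
        -- cells `(p, x)` of `G` and `H` agree
        have e2 : G.adj x p = H.adj p x ∧ G.adj y p = H.adj p y := by
          rw [G.adj_symm x p, G.adj_symm y p]
          by_cases hv : p = v
          · subst hv; exact ⟨h2.2.1, h2.2.2.1⟩
          · by_cases hw : p = w
            · subst hw; exact ⟨h2.2.2.2.1, h2.2.2.2.2⟩
            · exact ⟨h2.1.1 p x hv hw hD.2.1.symm hD.2.2.2.1.symm,
                h2.1.1 p y hv hw hD.2.2.1.symm hD.2.2.2.2.1.symm⟩
        rw [e2.1, e2.2]

theorem mixE_spec {d : V → ℕ} {v w x y : V} (hD : Dist4 v w x y) {G G' H : Gr d}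
    (h1 : rel x y G G') (h2 : rbl v w x y G H) :
    rbl v w x y G' (mixE x y G' H) ∧ rel x y H (mixE x y G' H) ∧
      mixE x y G (mixE x y G' H) = H := by
  have hadj := mixE_adj hD h1 h2
  obtain ⟨d1, d2, d3, d4, d5, d6⟩ := id hD
  -- cells of the columns `x`, `y` of `G` and `H` agree
  have e2 : ∀ p, p ≠ x → p ≠ y → G.adj p x = H.adj p x ∧ G.adj p y = H.adj p y := by
    intro p _ _
    by_cases hv : p = v
    · subst hv; exact ⟨h2.2.1, h2.2.2.1⟩
    · by_cases hw : p = w
      · subst hw; exact ⟨h2.2.2.2.1, h2.2.2.2.2⟩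
      · exact ⟨h2.1.1 p x hv hw d2.symm d4.symm, h2.1.1 p y hv hw d3.symm d5.symm⟩
  have exy : G.adj x y = H.adj x y := h2.1.1 x y d2.symm d4.symm d3.symm d5.symm
  have hA : rbl v w x y G' (mixE x y G' H) := by
    refine ⟨⟨?_, ?_, ?_⟩, ?_⟩
    · intro p q a b c e
      rw [hadj]
      split_ifs with hc
      · rfl
      · rw [← h1.1 p q (by tauto) (by tauto) (by tauto) (by tauto)]
        exact h2.1.1 p q a b c e
    · rw [hadj, if_neg (by tauto), ← h1.1 v w d2 d3 d4 d5]
      exact h2.1.2.1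
    · intro z hzv hzw
      rw [hadj, hadj]
      by_cases hz : z = x ∨ z = y
      · rw [if_pos (by tauto), if_pos (by tauto)]
      · rw [if_neg (by tauto), if_neg (by tauto), ← h1.1 v z d2 d3 (by tauto) (by tauto),
          ← h1.1 w z d4 d5 (by tauto) (by tauto)]
        exact h2.1.2.2 z hzv hzw
    · refine ⟨?_, ?_, ?_, ?_⟩ <;> rw [hadj, if_pos (by tauto)]
  have hB : rel x y H (mixE x y G' H) := by
    refine ⟨?_, ?_, ?_⟩
    · intro p q a b c e
      rw [hadj, if_neg (by tauto)]
    · rw [hadj, if_pos (by tauto), ← h1.2.1]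
      exact exy.symm
    · intro z hzx hzy
      rw [hadj, hadj, if_pos (by tauto), if_pos (by tauto), ← h1.2.2 z hzx hzy,
        G.adj_symm x z, G.adj_symm y z, (e2 z hzx hzy).1, (e2 z hzx hzy).2,
        H.adj_symm x z, H.adj_symm y z]
  refine ⟨hA, hB, ?_⟩
  have h1' : rel x y G' G := rel_symm h1
  have hadj2 := mixE_adj hD h1' hA
  apply Gr.ext_adj
  intro p q
  rw [hadj2]
  split_ifs with hc
  · -- cells touching `{x,y}` of `G` and `H` agree
    by_cases hp : p = x ∨ p = y
    · by_cases hq : q = x ∨ q = y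
      · rcases hp with rfl | rfl <;> rcases hq with rfl | rfl
        · simp
        · exact exy
        · rw [G.adj_symm, H.adj_symm]; exact exy
        · simp
      · rw [G.adj_symm p q, H.adj_symm p q]
        rcases hp with rfl | rfl
        · exact (e2 q (by tauto) (by tauto)).1
        · exact (e2 q (by tauto) (by tauto)).2
    · rcases (by tauto : q = x ∨ q = y) with rfl | rfl
      · exact (e2 p (by tauto) (by tauto)).1
      · exact (e2 p (by tauto) (by tauto)).2
  · rw [hadj, if_neg hc]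

/-- `avg (rel v w ∧ same block)` commutes with `avg (rel x y)` -/
theorem comm_rbl_rel {d : V → ℕ} {v w x y : V} (hD : Dist4 v w x y) (f : Gr d → ℝ) (G : Gr d) :
    avg (rbl v w x y) (avg (rel x y) f) G = avg (rel x y) (avg (rbl v w x y) f) G :=
  avg_comm (rbl v w x y) (rel x y) (rbl_equiv v w x y) (rel_equiv x y)
    (fun _ G' H => mixE x y G' H) (fun _ _ _ h1 h2 => mixE_spec hD h1 h2) f G

/-- the two same-block averages commute -/
theorem comm_rbl_rbl {d : V → ℕ} {v w x y : V} (hD : Dist4 v w x y) (f : Gr d → ℝ) (G : Gr d) :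
    avg (rbl v w x y) (avg (rbl x y v w) f) G = avg (rbl x y v w) (avg (rbl v w x y) f) G := by
  refine avg_comm (rbl v w x y) (rbl x y v w) (rbl_equiv v w x y) (rbl_equiv x y v w)
    (fun _ G' H => mixE x y G' H) (fun G G' H h1 h2 => ?_) f G
  obtain ⟨a, b, c⟩ := mixE_spec hD h1.1 h2
  exact ⟨a, ⟨b, sbl_trans (sbl_trans (sbl_symm (sbl_pairs h2.2)) h1.2) (sbl_pairs a.2)⟩, c⟩

/-! ### odd blocks -/

/-- `σ` is the identity or the transposition on `{x,y}` -/
def swp (x y : V) (σ : V → V) : Prop := (σ x = x ∧ σ y = y) ∨ (σ x = y ∧ σ y = x)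

/-- the block of `G'` is that of `G` with the columns permuted by `σ` -/
def blkσ {d : V → ℕ} (v w x y : V) (σ : V → V) (G G' : Gr d) : Prop :=
  G'.adj v x = G.adj v (σ x) ∧ G'.adj v y = G.adj v (σ y) ∧
    G'.adj w x = G.adj w (σ x) ∧ G'.adj w y = G.adj w (σ y)

theorem blkσ_symm {d : V → ℕ} {v w x y : V} {σ : V → V} (hσ : swp x y σ) {G G' : Gr d}
    (h : blkσ v w x y σ G G') : blkσ v w x y σ G' G := by
  obtain ⟨h1, h2, h3, h4⟩ := h
  rcases hσ with ⟨e1, e2⟩ | ⟨e1, e2⟩
  · rw [e1] at h1 h3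
    rw [e2] at h2 h4
    unfold blkσ
    rw [e1, e2]
    exact ⟨h1.symm, h2.symm, h3.symm, h4.symm⟩
  · rw [e1] at h1 h3
    rw [e2] at h2 h4
    unfold blkσ
    rw [e1, e2]
    exact ⟨h2.symm, h1.symm, h4.symm, h3.symm⟩

/-- cells touching `{x,y}` with other end outside `{v,w}` from `G'`, block cells from `H` with
columns permuted by `σ`, the others from `H` -/
noncomputable def mixO {d : V → ℕ} (v w x y : V) (σ : V → V) (G' H : Gr d) : Gr d :=
  ofMat (fun p q =>
    if p = x ∨ p = y then (if q = v ∨ q = w then H.adj (σ p) q else G'.adj p q)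
    else if q = x ∨ q = y then (if p = v ∨ p = w then H.adj p (σ q) else G'.adj p q)
    else H.adj p q) H

theorem mixO_adj {d : V → ℕ} {v w x y : V} (hD : Dist4 v w x y) {G G' H : Gr d} {σ : V → V}
    (hσ : swp x y σ) (hb : blkσ v w x y σ G G')
    (h1 : rel x y G G') (h2 : rel v w G H) (p q : V) :
    (mixO v w x y σ G' H).adj p q =
      if p = x ∨ p = y then (if q = v ∨ q = w then H.adj (σ p) q else G'.adj p q)
      else if q = x ∨ q = y then (if p = v ∨ p = w then H.adj p (σ q) else G'.adj p q)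
      else H.adj p q := by
  obtain ⟨d1, d2, d3, d4, d5, d6⟩ := id hD
  -- column sums of the block
  have hcol : ∀ q, q = x ∨ q = y → (H.adj (σ q) v).toNat + (H.adj (σ q) w).toNat
      = (G'.adj q v).toNat + (G'.adj q w).toNat := by
    obtain ⟨b1, b2, b3, b4⟩ := hb
    have hs : ∀ q, (q = x ∨ q = y) → (σ q = x ∨ σ q = y) := by
      rintro q (rfl | rfl) <;> rcases hσ with ⟨e1, e2⟩ | ⟨e1, e2⟩ <;> tauto
    intro q hq
    have hne : σ q ≠ v ∧ σ q ≠ w := by
      rcases hs q hq with h | h <;> rw [h]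
      · exact ⟨d2.symm, d4.symm⟩
      · exact ⟨d3.symm, d5.symm⟩
    rw [H.adj_symm _ v, H.adj_symm _ w, ← h2.2.2 (σ q) hne.1 hne.2, G'.adj_symm q v,
      G'.adj_symm q w]
    rcases hq with rfl | rfl
    · rw [b1, b3]
    · rw [b2, b4]
  unfold mixO
  refine ofMat_adj _ H ?_ ?_ ?_ p q
  · intro p q
    by_cases hp : p = x ∨ p = y
    · by_cases hq : q = x ∨ q = y
      · have hp' : ¬ (p = v ∨ p = w) := by
          rcases hp with rfl | rfl <;> (push Not; constructor <;> (apply Ne.symm; assumption))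
        have hq' : ¬ (q = v ∨ q = w) := by
          rcases hq with rfl | rfl <;> (push Not; constructor <;> (apply Ne.symm; assumption))
        rw [if_pos hp, if_neg hq', if_pos hq, if_neg hp']
        exact G'.adj_symm p q
      · rw [if_pos hp, if_neg hq, if_pos hp]
        split_ifs
        · exact H.adj_symm _ _
        · exact G'.adj_symm p q
    · by_cases hq : q = x ∨ q = y
      · rw [if_neg hp, if_pos hq, if_pos hq]
        split_ifs
        · exact H.adj_symm _ _
        · exact G'.adj_symm p q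
      · rw [if_neg hp, if_neg hq, if_neg hq, if_neg hp]
        exact H.adj_symm p q
  · intro p
    by_cases hp : p = x ∨ p = y
    · have hp' : ¬ (p = v ∨ p = w) := by
        rcases hp with rfl | rfl <;> (push Not; constructor <;> (apply Ne.symm; assumption))
      rw [if_pos hp, if_neg hp']
      exact G'.adj_self p
    · rw [if_neg hp, if_neg hp]
      exact H.adj_self p
  · intro p
    by_cases hp : p = x ∨ p = y
    · rw [← G'.deg_sum p]
      refine sum_pair_congr _ _ d1 ?_ ?_
      · intro q hqv hqw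
        rw [if_pos hp, if_neg (by tauto)]
      · rw [if_pos hp, if_pos (by tauto), if_pos hp, if_pos (by tauto)]
        exact hcol p hp
    · rw [← H.deg_sum p]
      have hpx : p ≠ x := fun h => hp (Or.inl h)
      have hpy : p ≠ y := fun h => hp (Or.inr h)
      refine sum_pair_congr _ _ hD.2.2.2.2.2 ?_ ?_
      · intro q hqx hqy
        rw [if_neg hp, if_neg (by tauto)]
      · rw [if_neg hp, if_neg hp, if_pos (Or.inl rfl : x = x ∨ x = y),
          if_pos (Or.inr rfl : y = x ∨ y = y)]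
        by_cases hp' : p = v ∨ p = w
        · rw [if_pos hp', if_pos hp']
          rcases hσ with ⟨e1, e2⟩ | ⟨e1, e2⟩
          · rw [e1, e2]
          · rw [e1, e2, add_comm]
        · rw [if_neg hp', if_neg hp']
          have e1 := h1.2.2 p hpx hpy
          rw [G'.adj_symm p x, G'.adj_symm p y, ← e1, G.adj_symm x p, G.adj_symm y p,
            h2.1 p x (by tauto) (by tauto) d2.symm d4.symm,
            h2.1 p y (by tauto) (by tauto) d3.symm d5.symm]

theorem mixO_spec {d : V → ℕ} {v w x y : V} (hD : Dist4 v w x y) {G G' H : Gr d} {σ : V → V}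
    (hσ : swp x y σ) (hb : blkσ v w x y σ G G')
    (h1 : rel x y G G') (h2 : rel v w G H) :
    rel v w G' (mixO v w x y σ G' H) ∧ rel x y H (mixO v w x y σ G' H) ∧
      mixO v w x y σ G (mixO v w x y σ G' H) = H := by
  have hadj := mixO_adj hD hσ hb h1 h2
  obtain ⟨d1, d2, d3, d4, d5, d6⟩ := id hD
  obtain ⟨b1, b2, b3, b4⟩ := id hb
  have hs : ∀ q, (q = x ∨ q = y) → (σ q = x ∨ σ q = y) := by
    rintro q (rfl | rfl) <;> rcases hσ with ⟨e1, e2⟩ | ⟨e1, e2⟩ <;> tauto
  have hss : ∀ q, (q = x ∨ q = y) → σ (σ q) = q := by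
    rintro q (rfl | rfl) <;> rcases hσ with ⟨e1, e2⟩ | ⟨e1, e2⟩
    · rw [e1, e1]
    · rw [e1, e2]
    · rw [e2, e2]
    · rw [e2, e1]
  have hxy_vw : ∀ q, (q = x ∨ q = y) → ¬ (q = v ∨ q = w) := by
    rintro q (rfl | rfl) <;> (push Not; constructor <;> (apply Ne.symm; assumption))
  -- cells of the columns `x`, `y` of `G` and `H` outside the block agree
  have e2 : ∀ p q, (q = x ∨ q = y) → ¬ (p = v ∨ p = w) → G.adj p q = H.adj p q := by
    intro p q hq hp
    have hq' := hxy_vw q hq
    exact h2.1 p q (by tauto) (by tauto) (by tauto) (by tauto)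
  have hv' : ¬ (v = x ∨ v = y) := by rintro (h | h); exacts [d2 h, d3 h]
  have hw' : ¬ (w = x ∨ w = y) := by rintro (h | h); exacts [d4 h, d5 h]
  have hA : rel v w G' (mixO v w x y σ G' H) := by
    refine ⟨?_, ?_, ?_⟩
    · intro p q a b c e
      rw [hadj]
      have hpv : ¬ (p = v ∨ p = w) := by rintro (h | h); exacts [a h, b h]
      have hqv : ¬ (q = v ∨ q = w) := by rintro (h | h); exacts [c h, e h]
      by_cases hp : p = x ∨ p = y
      · rw [if_pos hp, if_neg hqv]
      · by_cases hq : q = x ∨ q = y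
        · rw [if_neg hp, if_pos hq, if_neg hpv]
        · rw [if_neg hp, if_neg hq, ← h1.1 p q (fun h => hp (Or.inl h)) (fun h => hp (Or.inr h))
            (fun h => hq (Or.inl h)) (fun h => hq (Or.inr h))]
          exact h2.1 p q a b c e
    · rw [hadj, if_neg hv', if_neg hw', ← h1.1 v w d2 d3 d4 d5]
      exact h2.2.1
    · intro z hzv hzw
      rw [hadj, hadj]
      by_cases hz : z = x ∨ z = y
      · rw [if_neg hv', if_pos hz, if_pos (Or.inl rfl : v = v ∨ v = w), if_neg hw', if_pos hz,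
          if_pos (Or.inr rfl : w = v ∨ w = w)]
        have hne : σ z ≠ v ∧ σ z ≠ w := by
          have := hxy_vw _ (hs z hz); tauto
        rw [← h2.2.2 (σ z) hne.1 hne.2]
        rcases hz with rfl | rfl
        · rw [b1, b3]
        · rw [b2, b4]
      · rw [if_neg hv', if_neg hz, if_neg hw', if_neg hz,
          ← h1.1 v z d2 d3 (fun h => hz (Or.inl h)) (fun h => hz (Or.inr h)),
          ← h1.1 w z d4 d5 (fun h => hz (Or.inl h)) (fun h => hz (Or.inr h))]
        exact h2.2.2 z hzv hzw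
  have hB : rel x y H (mixO v w x y σ G' H) := by
    refine ⟨?_, ?_, ?_⟩
    · intro p q a b c e
      have hpx : ¬ (p = x ∨ p = y) := by rintro (h | h); exacts [a h, b h]
      have hqx : ¬ (q = x ∨ q = y) := by rintro (h | h); exacts [c h, e h]
      rw [hadj, if_neg hpx, if_neg hqx]
    · rw [hadj, if_pos (Or.inl rfl : x = x ∨ x = y), if_neg (hxy_vw y (Or.inr rfl)), ← h1.2.1]
      exact (e2 x y (Or.inr rfl) (hxy_vw x (Or.inl rfl))).symm
    · intro z hzx hzy
      rw [hadj, hadj, if_pos (Or.inl rfl : x = x ∨ x = y), if_pos (Or.inr rfl : y = x ∨ y = y)]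
      by_cases hz : z = v ∨ z = w
      · rw [if_pos hz, if_pos hz]
        rcases hσ with ⟨e1, e2⟩ | ⟨e1, e2⟩
        · rw [e1, e2]
        · rw [e1, e2, add_comm]
      · rw [if_neg hz, if_neg hz, ← h1.2.2 z hzx hzy, G.adj_symm x z, G.adj_symm y z,
          e2 z x (Or.inl rfl) hz, e2 z y (Or.inr rfl) hz, H.adj_symm x z, H.adj_symm y z]
  refine ⟨hA, hB, ?_⟩
  have h1' : rel x y G' G := rel_symm h1
  have hadj2 := mixO_adj hD hσ (blkσ_symm hσ hb) h1' hA
  apply Gr.ext_adj
  intro p q
  rw [hadj2]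
  by_cases hp : p = x ∨ p = y
  · rw [if_pos hp]
    by_cases hq : q = v ∨ q = w
    · rw [if_pos hq, hadj, if_pos (hs p hp), if_pos hq, hss p hp]
    · rw [if_neg hq, G.adj_symm, H.adj_symm]
      exact e2 q p hp hq
  · rw [if_neg hp]
    by_cases hq : q = x ∨ q = y
    · rw [if_pos hq]
      by_cases hp' : p = v ∨ p = w
      · rw [if_pos hp', hadj, if_neg hp, if_pos (hs q hq), if_pos hp', hss q hq]
      · rw [if_neg hp']
        exact e2 p q hq hp'
    · rw [if_neg hq, hadj, if_neg hp, if_neg hq]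

/-- block parity -/
def par {d : V → ℕ} (v w x y : V) (G : Gr d) : Bool :=
  xor (xor (G.adj v x) (G.adj w x)) (xor (G.adj v y) (G.adj w y))

theorem par_rel {d : V → ℕ} {v w x y : V} (hD : Dist4 v w x y) {G H : Gr d}
    (h : rel v w G H) : par v w x y G = par v w x y H := by
  have key : ∀ a b a' b' : Bool, a.toNat + b.toNat = a'.toNat + b'.toNat →
      xor a b = xor a' b' := by decide
  have e1 := key _ _ _ _ (h.2.2 x hD.2.1.symm hD.2.2.2.1.symm)
  have e2 := key _ _ _ _ (h.2.2 y hD.2.2.1.symm hD.2.2.2.2.1.symm)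
  unfold par
  rw [e1, e2]

theorem par_pairs {d : V → ℕ} (v w x y : V) (G : Gr d) : par x y v w G = par v w x y G := by
  unfold par
  rw [G.adj_symm x v, G.adj_symm y v, G.adj_symm x w, G.adj_symm y w]
  cases G.adj v x <;> cases G.adj v y <;> cases G.adj w x <;> cases G.adj w y <;> rfl

theorem par_rel' {d : V → ℕ} {v w x y : V} (hD : Dist4 v w x y) {G H : Gr d}
    (h : rel x y G H) : par v w x y G = par v w x y H := by
  rw [← par_pairs, ← par_pairs v w x y H]
  exact par_rel hD.swap_pairs h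

/-- `rel` on graphs with odd block, equality otherwise -/
def ro {d : V → ℕ} (e : V × V) (v w x y : V) (G H : Gr d) : Prop :=
  rel e.1 e.2 G H ∧ (par v w x y G = true ∨ G = H)

theorem ro_equiv {d : V → ℕ} (e : V × V) (v w x y : V)
    (hp : ∀ G H : Gr d, rel e.1 e.2 G H → par v w x y G = par v w x y H) :
    Equivalence (ro (d := d) e v w x y) := by
  refine ⟨fun G => ⟨rel_refl _ _ G, Or.inr rfl⟩, ?_, ?_⟩
  · rintro G H ⟨h1, h2⟩
    refine ⟨rel_symm h1, ?_⟩
    rcases h2 with h2 | h2
    · left; rw [← hp G H h1]; exact h2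
    · right; exact h2.symm
  · rintro G H K ⟨h1, h2⟩ ⟨h3, h4⟩
    refine ⟨rel_trans h1 h3, ?_⟩
    rcases h2 with h2 | h2
    · left; exact h2
    · subst h2; exact h4

/-- the column permutation carrying the block of `G` to that of `G'` -/
noncomputable def sig {d : V → ℕ} (v w x y : V) (G G' : Gr d) : V → V := by
  classical
  exact if sbl v w x y G G' then id else Equiv.swap x y

theorem sig_symm {d : V → ℕ} (v w x y : V) (G G' : Gr d) :
    sig v w x y G G' = sig v w x y G' G := by
  unfold sig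
  by_cases h : sbl v w x y G G'
  · rw [if_pos h, if_pos (sbl_symm h)]
  · rw [if_neg h, if_neg fun h' => h (sbl_symm h')]

theorem sig_swp {d : V → ℕ} (v w x y : V) (G G' : Gr d) : swp x y (sig v w x y G G') := by
  unfold sig
  split_ifs with h
  · left; exact ⟨rfl, rfl⟩
  · right; exact ⟨Equiv.swap_apply_left x y, Equiv.swap_apply_right x y⟩

theorem sig_blk {d : V → ℕ} {v w x y : V} (hD : Dist4 v w x y) {G G' : Gr d}
    (h : rel x y G G') (hp : par v w x y G = true) :
    blkσ v w x y (sig v w x y G G') G G' := by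
  obtain ⟨d1, d2, d3, d4, d5, d6⟩ := id hD
  unfold sig
  split_ifs with hs
  · obtain ⟨s1, s2, s3, s4⟩ := hs
    exact ⟨s1.symm, s2.symm, s3.symm, s4.symm⟩
  · unfold blkσ
    rw [Equiv.swap_apply_left, Equiv.swap_apply_right]
    have e1 := h.2.2 v d2 d3
    have e2 := h.2.2 w d4 d5
    rw [G.adj_symm x v, G.adj_symm y v, G'.adj_symm x v, G'.adj_symm y v] at e1
    rw [G.adj_symm x w, G.adj_symm y w, G'.adj_symm x w, G'.adj_symm y w] at e2
    unfold par at hp
    unfold sbl at hs
    revert e1 e2 hp hs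
    generalize G.adj v x = a
    generalize G.adj v y = b
    generalize G.adj w x = c
    generalize G.adj w y = e
    generalize G'.adj v x = a'
    generalize G'.adj v y = b'
    generalize G'.adj w x = c'
    generalize G'.adj w y = e'
    revert a b c e a' b' c' e'
    decide

theorem comm_ro {d : V → ℕ} {v w x y : V} (hD : Dist4 v w x y) (f : Gr d → ℝ) (G : Gr d) :
    avg (ro (v, w) v w x y) (avg (ro (x, y) v w x y) f) G
      = avg (ro (x, y) v w x y) (avg (ro (v, w) v w x y) f) G := by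
  classical
  refine avg_comm (ro (v, w) v w x y) (ro (x, y) v w x y)
    (ro_equiv (v, w) v w x y fun G H h => par_rel hD h)
    (ro_equiv (x, y) v w x y fun G H h => par_rel' hD h)
    (fun G G' H => if par v w x y G = true then mixO v w x y (sig v w x y G G') G' H else G)
    (fun G G' H h1 h2 => ?_) f G
  obtain ⟨h1, h1'⟩ := h1
  obtain ⟨h2, h2'⟩ := h2
  have hpG' := par_rel' hD h1
  have hpH := par_rel hD h2
  by_cases hp : par v w x y G = true
  · have hpG'1 : par v w x y G' = true := by rw [← hpG']; exact hp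
    have hpH1 : par v w x y H = true := by rw [← hpH]; exact hp
    simp only [if_pos hp, if_pos hpG'1]
    obtain ⟨a, b, c⟩ := mixO_spec hD (sig_swp v w x y G G') (sig_blk hD h1 hp) h1 h2
    refine ⟨⟨a, Or.inl hpG'1⟩, ⟨b, Or.inl hpH1⟩, ?_⟩
    rw [sig_symm v w x y G' G]
    exact c
  · have e1 : G = G' := by tauto
    have e2 : G = H := by tauto
    subst e1
    subst e2
    simp only [if_neg hp]
    exact ⟨⟨rel_refl _ _ G, Or.inr rfl⟩, ⟨rel_refl _ _ G, Or.inr rfl⟩, trivial⟩

/-- functions supported on graphs with odd block -/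
theorem Dav_ro_eq {d : V → ℕ} (e : V × V) (v w x y : V)
    (hp : ∀ G H : Gr d, rel e.1 e.2 G H → par v w x y G = par v w x y H) (ψ : Gr d → ℝ)
    (hψ : ∀ G, par v w x y G = false → ψ G = 0) (G : Gr d) :
    Dav (rel e.1 e.2) ψ G = Dav (ro e v w x y) ψ G := by
  classical
  unfold Dav
  by_cases hG : par v w x y G = true
  · congr 1
    exact avg_rel_congr _ _ _ _ fun H => ⟨fun h => ⟨h, Or.inl hG⟩, fun h => h.1⟩
  · have hG' : par v w x y G = false := by simpa using hG
    have e1 : avg (rel e.1 e.2) ψ G = 0 := by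
      rw [avg_congr (rel e.1 e.2) ψ (fun _ => 0) G fun H h => hψ H (by rw [← hp G H h]; exact hG')]
      exact avg_const _ (rel_equiv e.1 e.2) 0 G
    have e2 : avg (ro e v w x y) ψ G = 0 := by
      rw [avg_congr (ro e v w x y) ψ (fun _ => 0) G fun H h => hψ H (by
        rw [← hp G H h.1]; exact hG')]
      exact avg_const _ (ro_equiv e v w x y hp) 0 G
    rw [e1, e2]

theorem odd_part {d : V → ℕ} {v w x y : V} (hD : Dist4 v w x y) (ψ : Gr d → ℝ)
    (hψ : ∀ G, par v w x y G = false → ψ G = 0) :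
    0 ≤ ∑ G, Dav (rel v w) ψ G * Dav (rel x y) ψ G := by
  have h := Dav_comm_nonneg (ro (v, w) v w x y) (ro (x, y) v w x y)
    (ro_equiv (v, w) v w x y fun G H h => par_rel hD h)
    (ro_equiv (x, y) v w x y fun G H h => par_rel' hD h) (comm_ro hD) ψ
  refine h.trans (le_of_eq ?_)
  refine Finset.sum_congr rfl fun G _ => ?_
  have e1 := Dav_ro_eq (v, w) v w x y (fun G H h => par_rel hD h) ψ hψ G
  have e2 := Dav_ro_eq (x, y) v w x y (fun G H h => par_rel' hD h) ψ hψ G
  simp only at e1 e2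
  rw [e1, e2]

/-! ### the even part -/

theorem opp_of_sbl {d : V → ℕ} {v w x y : V} {G H : Gr d} (h : sbl v w x y G H)
    (ho : Opp v w x y G) : Opp v w x y H := by
  obtain ⟨s1, s2, s3, s4⟩ := h
  unfold Opp at *
  rw [← s1, ← s2, ← s3, ← s4]
  exact ho

theorem sbl_sw {d : V → ℕ} {v w x y : V} (hD : Dist4 v w x y) {G H : Gr d}
    (hG : Opp v w x y G) (hH : Opp v w x y H) :
    sbl v w x y G (sw v w x y H) ↔ ¬ sbl v w x y G H := by
  have e : sbl v w x y G (sw v w x y H) ↔ (G.adj v x = !H.adj v x ∧ G.adj v y = !H.adj v y ∧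
      G.adj w x = !H.adj w x ∧ G.adj w y = !H.adj w y) := by
    unfold sbl
    rw [sw_adj_of hD hH (by simp), sw_adj_of hD hH (by simp), sw_adj_of hD hH (by simp),
      sw_adj_of hD hH (by simp)]
  rw [e]
  unfold sbl
  unfold Opp at hG hH
  revert hG hH
  generalize G.adj v x = a
  generalize G.adj v y = b
  generalize G.adj w x = c
  generalize G.adj w y = e
  generalize H.adj v x = a'
  generalize H.adj v y = b'
  generalize H.adj w x = c'
  generalize H.adj w y = e'
  revert a b c e a' b' c' e'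
  decide

open Classical in
theorem sum_opp_class {d : V → ℕ} {v w x y : V} (hD : Dist4 v w x y) {G : Gr d}
    (hG : Opp v w x y G) (ψ : Gr d → ℝ) (hψ : ∀ H, ψ (sw v w x y H) = ψ H) :
    ∑ H ∈ univ.filter (fun H => rel v w G H ∧ Opp v w x y H), ψ H
      = 2 * ∑ H ∈ univ.filter (fun H => rbl v w x y G H), ψ H := by
  rw [← Finset.sum_filter_add_sum_filter_not _ (fun H => sbl v w x y G H)]
  have e1 : (univ.filter (fun H => rel v w G H ∧ Opp v w x y H)).filter
      (fun H => sbl v w x y G H) = univ.filter (fun H => rbl v w x y G H) := by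
    ext H
    simp only [mem_filter, mem_univ, true_and]
    exact ⟨fun h => ⟨h.1.1, h.2⟩, fun h => ⟨⟨h.1, opp_of_sbl h.2 hG⟩, h.2⟩⟩
  have e2 : ∑ H ∈ (univ.filter (fun H => rel v w G H ∧ Opp v w x y H)).filter
      (fun H => ¬ sbl v w x y G H), ψ H = ∑ H ∈ univ.filter (fun H => rbl v w x y G H), ψ H := by
    refine Finset.sum_bij' (fun H _ => sw v w x y H) (fun H _ => sw v w x y H) ?_ ?_ ?_ ?_ ?_
    · intro H hH
      simp only [mem_filter, mem_univ, true_and] at hH ⊢
      exact ⟨rel_trans hH.1.1 (rel_sw v w x y H), (sbl_sw hD hG hH.1.2).2 hH.2⟩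
    · intro H hH
      simp only [mem_filter, mem_univ, true_and] at hH ⊢
      have ho := opp_of_sbl hH.2 hG
      refine ⟨⟨rel_trans hH.1 (rel_sw v w x y H), opp_sw.2 ho⟩, ?_⟩
      rw [sbl_sw hD hG ho]
      exact not_not.2 hH.2
    · intro H _; exact sw_sw v w x y H
    · intro H _; exact sw_sw v w x y H
    · intro H _; exact (hψ H).symm
  rw [e1, e2]
  ring

/-- on graphs with a diagonal block, `P ψ = h` -/
theorem P_eq_hfun {d : V → ℕ} {v w x y : V} (hD : Dist4 v w x y) {G : Gr d}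
    (hG : Opp v w x y G) (ψ : Gr d → ℝ) (hψ : ∀ H, ψ (sw v w x y H) = ψ H) :
    avg (rbl v w x y) ψ G - avg (rel v w) ψ G = hfun (rel v w) (Opp v w x y) ψ G := by
  classical
  have h1 := sum_opp_class hD hG ψ hψ
  have h2 := sum_opp_class hD hG (fun _ => (1:ℝ)) (fun _ => rfl)
  simp only [Finset.sum_const, nsmul_eq_mul, mul_one] at h2
  unfold hfun
  congr 1
  unfold avg
  have key : (∑ H ∈ univ.filter (fun H => rbl v w x y G H), ψ H)
      / ((univ.filter (fun H => rbl v w x y G H)).card : ℝ)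
      = (∑ H ∈ univ.filter (fun H => rel v w G H ∧ Opp v w x y H), ψ H)
      / ((univ.filter (fun H => rel v w G H ∧ Opp v w x y H)).card : ℝ) := by
    rw [h1, h2, mul_div_mul_left _ _ (by norm_num : (2:ℝ) ≠ 0)]
  convert key

/-- constant columns: the class has constant block -/
theorem P_eq_zero {d : V → ℕ} {v w x y : V} (hD : Dist4 v w x y) {G : Gr d}
    (hx : G.adj v x = G.adj w x) (hy : G.adj v y = G.adj w y) (ψ : Gr d → ℝ) :
    avg (rbl v w x y) ψ G = avg (rel v w) ψ G := by
  classical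
  have key : ∀ a b a' b' : Bool, a.toNat + b.toNat = a'.toNat + b'.toNat → a = b →
      a = a' ∧ b = b' := by decide
  refine avg_rel_congr _ _ _ _ fun H => ⟨fun h => h.1, fun h => ⟨h, ?_⟩⟩
  have e1 := key _ _ _ _ (h.2.2 x hD.2.1.symm hD.2.2.2.1.symm) hx
  have e2 := key _ _ _ _ (h.2.2 y hD.2.2.1.symm hD.2.2.2.2.1.symm) hy
  exact ⟨e1.1, e2.1, e1.2, e2.2⟩

/-- an even block is diagonal, or has constant columns, or constant rows -/
theorem even_cases {d : V → ℕ} {v w x y : V} {G : Gr d} (hp : par v w x y G = false) :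
    Opp v w x y G ∨ (G.adj v x = G.adj w x ∧ G.adj v y = G.adj w y) ∨
      (G.adj v x = G.adj v y ∧ G.adj w x = G.adj w y) := by
  unfold par at hp
  unfold Opp
  revert hp
  generalize G.adj v x = a
  generalize G.adj v y = b
  generalize G.adj w x = c
  generalize G.adj w y = e
  revert a b c e
  decide

theorem even_part {d : V → ℕ} {v w x y : V} (hD : Dist4 v w x y) (ψ : Gr d → ℝ)
    (hψ : ∀ G, par v w x y G = true → ψ G = 0) (hs : ∀ H, ψ (sw v w x y H) = ψ H) :
    - (∑ G, if Opp v w x y G then (hfun (rel v w) (Opp v w x y) ψ G ^ 2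
        + hfun (rel x y) (Opp v w x y) ψ G ^ 2) else 0) ≤
      2 * ∑ G, Dav (rel v w) ψ G * Dav (rel x y) ψ G := by
  have hs' : ∀ H, ψ (sw x y v w H) = ψ H := fun H => by rw [sw_pairs]; exact hs H
  have hopp : (Opp x y v w : Gr d → Prop) = Opp v w x y := by
    funext G; exact propext opp_swap_pairs
  have t1 : 0 ≤ ∑ G, Dav (rbl v w x y) ψ G * Dav (rel x y) ψ G :=
    Dav_comm_nonneg _ _ (rbl_equiv v w x y) (rel_equiv x y) (comm_rbl_rel hD) ψ
  have t2 : 0 ≤ ∑ G, (avg (rbl v w x y) ψ G - avg (rel v w) ψ G) * Dav (rbl x y v w) ψ G :=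
    proj_comm_nonneg (rbl v w x y) (rel v w) (rbl x y v w) (rbl_equiv v w x y) (rel_equiv v w)
      (rbl_equiv x y v w) (fun _ _ h => h.1) (comm_rbl_rbl hD)
      (fun f G => (comm_rbl_rel hD.swap_pairs f G).symm) ψ
  have t3 : ∀ G : Gr d, - (if Opp v w x y G then (hfun (rel v w) (Opp v w x y) ψ G ^ 2
        + hfun (rel x y) (Opp v w x y) ψ G ^ 2) else 0) ≤
      2 * ((avg (rbl v w x y) ψ G - avg (rel v w) ψ G)
        * (avg (rbl x y v w) ψ G - avg (rel x y) ψ G)) := by
    intro G
    by_cases hp : par v w x y G = true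
    · -- odd block: `ψ = 0` on the classes
      have hz : ∀ (r : Gr d → Gr d → Prop), Equivalence r → (∀ H, r G H → rel v w G H) →
          avg r ψ G = 0 := by
        intro r hr hle
        rw [avg_congr r ψ (fun _ => 0) G fun H h => hψ H (by
          rw [← par_rel hD (hle H h)]; exact hp)]
        exact avg_const _ hr 0 G
      rw [hz _ (rbl_equiv v w x y) (fun H h => h.1), hz _ (rel_equiv v w) (fun H h => h)]
      split_ifs
      · nlinarith [sq_nonneg (hfun (rel v w) (Opp v w x y) ψ G),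
          sq_nonneg (hfun (rel x y) (Opp v w x y) ψ G)]
      · simp
    · have hp' : par v w x y G = false := by simpa using hp
      by_cases ho : Opp v w x y G
      · rw [if_pos ho, P_eq_hfun hD ho ψ hs, P_eq_hfun hD.swap_pairs ho.swap_pairs ψ hs', hopp]
        nlinarith [sq_nonneg (hfun (rel v w) (Opp v w x y) ψ G
          + hfun (rel x y) (Opp v w x y) ψ G)]
      · rw [if_neg ho]
        rcases even_cases hp' with h | h | h
        · exact absurd h ho
        · rw [P_eq_zero hD h.1 h.2]; simp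
        · rw [P_eq_zero hD.swap_pairs (G := G) (by rw [G.adj_symm x v, G.adj_symm y v]; exact h.1)
            (by rw [G.adj_symm x w, G.adj_symm y w]; exact h.2)]; simp
  have e : ∑ G, Dav (rel v w) ψ G * Dav (rel x y) ψ G =
      ∑ G, Dav (rbl v w x y) ψ G * Dav (rel x y) ψ G
      + ∑ G, (avg (rbl v w x y) ψ G - avg (rel v w) ψ G) * Dav (rbl x y v w) ψ G
      + ∑ G, (avg (rbl v w x y) ψ G - avg (rel v w) ψ G)
        * (avg (rbl x y v w) ψ G - avg (rel x y) ψ G) := by
    rw [← Finset.sum_add_distrib, ← Finset.sum_add_distrib]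
    refine Finset.sum_congr rfl fun G _ => ?_
    unfold Dav
    ring
  rw [e, ← Finset.sum_neg_distrib]
  have t4 := Finset.sum_le_sum fun G (_ : G ∈ (univ : Finset (Gr d))) => t3 G
  rw [← Finset.mul_sum] at t4
  linarith

/-! ### assembly -/

theorem Dav_mul_inv {Ω : Type*} [Fintype Ω] (r : Ω → Ω → Prop) (f g : Ω → ℝ)
    (h : ∀ G H, r G H → g G = g H) (G : Ω) :
    Dav r (fun H => f H * g H) G = Dav r f G * g G := by
  unfold Dav
  rw [avg_mul_inv r f g h]
  ring

theorem hfun_mul_inv {Ω : Type*} [Fintype Ω] (r : Ω → Ω → Prop) (p : Ω → Prop) (f g : Ω → ℝ)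
    (h : ∀ G H, r G H → g G = g H) (G : Ω) :
    hfun r p (fun H => f H * g H) G = hfun r p f G * g G := by
  classical
  unfold hfun
  rw [avg_mul_inv r f g h]
  have h1 : ∑ H ∈ univ.filter (fun K => r G K ∧ p K), f H * g H
      = ∑ H ∈ univ.filter (fun K => r G K ∧ p K), f H * g G := by
    refine Finset.sum_congr rfl fun H hH => ?_
    rw [mem_filter] at hH
    rw [h G H hH.2.1]
  rw [h1, ← Finset.sum_mul]
  ring

open Classical in
theorem hfun_symmetrize {Ω : Type*} [Fintype Ω] (r : Ω → Ω → Prop) (p : Ω → Prop) (θ : Ω → Ω)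
    (hθ : ∀ G, θ (θ G) = G) (f : Ω → ℝ) (G : Ω) (h1 : ∀ H, r G H → r G (θ H))
    (h2 : ∀ H, p H → p (θ H)) :
    ∑ H ∈ univ.filter (fun H => r G H ∧ p H), f H
      = ∑ H ∈ univ.filter (fun H => r G H ∧ p H), (f H + f (θ H)) / 2 := by
  have e1 : ∑ H ∈ univ.filter (fun H => r G H ∧ p H), f (θ H)
      = ∑ H ∈ univ.filter (fun H => r G H ∧ p H), f H := by
    refine Finset.sum_bij' (fun H _ => θ H) (fun H _ => θ H) ?_ ?_ ?_ ?_ ?_
    · intro H hH
      simp only [mem_filter, mem_univ, true_and] at hH ⊢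
      exact ⟨h1 H hH.1, h2 H hH.2⟩
    · intro H hH
      simp only [mem_filter, mem_univ, true_and] at hH ⊢
      exact ⟨h1 H hH.1, h2 H hH.2⟩
    · intro H _; exact hθ H
    · intro H _; exact hθ H
    · intro H _; rfl
  rw [← Finset.sum_div, Finset.sum_add_distrib, e1]
  ring

/-- for `sw`-invariant functions -/
theorem block_ineq_inv {d : V → ℕ} {v w x y : V} (hD : Dist4 v w x y) (φ : Gr d → ℝ)
    (hs : ∀ H, φ (sw v w x y H) = φ H) :
    - (∑ G, if Opp v w x y G then (hfun (rel v w) (Opp v w x y) φ G ^ 2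
        + hfun (rel x y) (Opp v w x y) φ G ^ 2) else 0) ≤
      2 * ∑ G, Dav (rel v w) φ G * Dav (rel x y) φ G := by
  set g : Gr d → ℝ := fun G => if par v w x y G = true then 1 else 0 with hg
  set g' : Gr d → ℝ := fun G => if par v w x y G = true then 0 else 1 with hg'
  have hg1 : ∀ G H, rel v w G H → g G = g H := fun G H h => by
    simp only [hg, par_rel hD h]
  have hg2 : ∀ G H, rel x y G H → g G = g H := fun G H h => by
    simp only [hg, par_rel' hD h]
  have hg1' : ∀ G H, rel v w G H → g' G = g' H := fun G H h => by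
    simp only [hg', par_rel hD h]
  have hg2' : ∀ G H, rel x y G H → g' G = g' H := fun G H h => by
    simp only [hg', par_rel' hD h]
  have ho := odd_part hD (fun H => φ H * g H) (fun G h => by simp [hg, h])
  have he := even_part hD (fun H => φ H * g' H) (fun G h => by simp [hg', h]) (fun H => by
    simp only [hs]
    rw [hg1' _ _ (rel_sw v w x y H)])
  simp only [Dav_mul_inv _ φ g hg1, Dav_mul_inv _ φ g hg2] at ho
  simp only [Dav_mul_inv _ φ g' hg1', Dav_mul_inv _ φ g' hg2', hfun_mul_inv _ _ φ g' hg1',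
    hfun_mul_inv _ _ φ g' hg2'] at he
  have e1 : (∑ G, if Opp v w x y G then ((hfun (rel v w) (Opp v w x y) φ G * g' G) ^ 2
        + (hfun (rel x y) (Opp v w x y) φ G * g' G) ^ 2) else 0)
      = ∑ G, if Opp v w x y G then (hfun (rel v w) (Opp v w x y) φ G ^ 2
        + hfun (rel x y) (Opp v w x y) φ G ^ 2) else 0 := by
    refine Finset.sum_congr rfl fun G _ => ?_
    by_cases hG : Opp v w x y G
    · rw [if_pos hG, if_pos hG]
      have : par v w x y G = false := by
        obtain ⟨o1, o2, o3⟩ := hG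
        unfold par
        rw [o1, ← o2]
        cases G.adj w y <;> cases G.adj v y <;> rfl
      simp [hg', this]
    · rw [if_neg hG, if_neg hG]
  have e2 : ∑ G, Dav (rel v w) φ G * Dav (rel x y) φ G
      = ∑ G, Dav (rel v w) φ G * g G * (Dav (rel x y) φ G * g G)
        + ∑ G, Dav (rel v w) φ G * g' G * (Dav (rel x y) φ G * g' G) := by
    rw [← Finset.sum_add_distrib]
    refine Finset.sum_congr rfl fun G _ => ?_
    simp only [hg, hg']
    split_ifs <;> ring
  rw [e1] at he
  rw [e2]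
  linarith

theorem block_ineq {d : V → ℕ} (v w x y : V) (h : Dist4 v w x y) (f : Gr d → ℝ) :
    (∑ G, if Opp v w x y G then
      ((f G - f (sw v w x y G)) ^ 2 / 2 - hfun (rel v w) (Opp v w x y) f G ^ 2
        - hfun (rel x y) (Opp v w x y) f G ^ 2) else 0) ≤
      2 * ∑ G, Dav (rel v w) f G * Dav (rel x y) f G := by
  classical
  set θ : Gr d ≃ Gr d := (sw_involutive v w x y).toPerm with hθ
  have hθa : ∀ G, θ G = sw v w x y G := fun G => rfl
  set s : Gr d → ℝ := fun G => (f G + f (sw v w x y G)) / 2 with hs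
  set A : Gr d → ℝ := fun G => (f G - f (sw v w x y G)) / 2 with hA
  -- averages do not see `sw`
  have hav1 : ∀ G, avg (rel v w) (fun H => f (sw v w x y H)) G = avg (rel v w) f G := by
    intro G
    have h1 := avg_comp_equiv (rel v w) θ (fun G H => by
      rw [hθa, hθa]
      exact ⟨fun h => rel_trans (rel_sw v w x y G) (rel_trans h (rel_symm (rel_sw v w x y H))),
        fun h => rel_trans (rel_symm (rel_sw v w x y G)) (rel_trans h (rel_sw v w x y H))⟩) f G
    simp only [hθa] at h1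
    rw [h1]
    exact (avg_inv _ (rel_equiv v w) f _ _ (rel_sw v w x y G)).symm
  have hav2 : ∀ G, avg (rel x y) (fun H => f (sw v w x y H)) G = avg (rel x y) f G := by
    intro G
    have h1 := avg_comp_equiv (rel x y) θ (fun G H => by
      rw [hθa, hθa]
      exact ⟨fun h => rel_trans (rel_sw' v w x y G) (rel_trans h (rel_symm (rel_sw' v w x y H))),
        fun h => rel_trans (rel_symm (rel_sw' v w x y G)) (rel_trans h (rel_sw' v w x y H))⟩) f G
    simp only [hθa] at h1
    rw [h1]
    exact (avg_inv _ (rel_equiv x y) f _ _ (rel_sw' v w x y G)).symm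
  have hs1 : ∀ (r : Gr d → Gr d → Prop) (G : Gr d),
      avg r (fun H => f (sw v w x y H)) G = avg r f G → avg r s G = avg r f G := by
    intro r G hr
    have : s = fun H => (1/2 : ℝ) * (f H + f (sw v w x y H)) := by
      funext H; simp only [hs]; ring
    rw [this, avg_const_mul, avg_add, hr]
    ring
  have hD1 : ∀ G, Dav (rel v w) f G = Dav (rel v w) s G + A G := by
    intro G
    unfold Dav
    rw [hs1 _ G (hav1 G)]
    simp only [hs, hA]; ring
  have hD2 : ∀ G, Dav (rel x y) f G = Dav (rel x y) s G + A G := by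
    intro G
    unfold Dav
    rw [hs1 _ G (hav2 G)]
    simp only [hs, hA]; ring
  have hh : ∀ (r : Gr d → Gr d → Prop) (G : Gr d), (∀ H, r H (sw v w x y H)) → Equivalence r →
      avg r (fun H => f (sw v w x y H)) G = avg r f G →
      hfun r (Opp v w x y) f G = hfun r (Opp v w x y) s G := by
    intro r G hrs hr hra
    have hpav := hfun_symmetrize r (Opp v w x y) (sw v w x y) (sw_sw v w x y) f G
      (fun H hH => hr.trans hH (hrs H)) (fun H hH => opp_sw.2 hH)
    unfold hfun
    rw [hs1 r G hra]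
    congr 2
  have hh1 : ∀ G, hfun (rel v w) (Opp v w x y) f G = hfun (rel v w) (Opp v w x y) s G :=
    fun G => hh _ G (rel_sw v w x y) (rel_equiv v w) (hav1 G)
  have hh2 : ∀ G, hfun (rel x y) (Opp v w x y) f G = hfun (rel x y) (Opp v w x y) s G :=
    fun G => hh _ G (rel_sw' v w x y) (rel_equiv x y) (hav2 G)
  have hsinv : ∀ H, s (sw v w x y H) = s H := fun H => by
    simp only [hs, sw_sw]; ring
  have hAanti : ∀ H, A (sw v w x y H) = - A H := fun H => by
    simp only [hA, sw_sw]; ring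
  have hmain := block_ineq_inv h s hsinv
  -- cross terms
  have hcross : ∀ X : Gr d → ℝ, (∀ G, X (sw v w x y G) = X G) → ∑ G, A G * X G = 0 := by
    intro X hX
    have e1 : ∑ G, A G * X G = ∑ G, A (θ G) * X (θ G) := (Equiv.sum_comp θ _).symm
    have e2 : ∑ G, A (θ G) * X (θ G) = - ∑ G, A G * X G := by
      rw [← Finset.sum_neg_distrib]
      refine Finset.sum_congr rfl fun G _ => ?_
      rw [hθa, hAanti, hX]; ring
    linarith
  have hX1 : ∀ G, Dav (rel v w) s (sw v w x y G) = Dav (rel v w) s G := fun G => by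
    unfold Dav
    rw [hsinv, avg_inv _ (rel_equiv v w) s _ _ (rel_sw v w x y G)]
  have hX2 : ∀ G, Dav (rel x y) s (sw v w x y G) = Dav (rel x y) s G := fun G => by
    unfold Dav
    rw [hsinv, avg_inv _ (rel_equiv x y) s _ _ (rel_sw' v w x y G)]
  have hc1 := hcross _ hX1
  have hc2 := hcross _ hX2
  have hexp : ∑ G, Dav (rel v w) f G * Dav (rel x y) f G
      = ∑ G, Dav (rel v w) s G * Dav (rel x y) s G + ∑ G, A G ^ 2 := by
    have : ∀ G, Dav (rel v w) f G * Dav (rel x y) f G = Dav (rel v w) s G * Dav (rel x y) s G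
        + A G ^ 2 + (A G * Dav (rel v w) s G + A G * Dav (rel x y) s G) := by
      intro G; rw [hD1, hD2]; ring
    simp_rw [this]
    rw [Finset.sum_add_distrib, Finset.sum_add_distrib, Finset.sum_add_distrib, hc1, hc2]
    ring
  have hA2 : ∑ G, A G ^ 2 = ∑ G, if Opp v w x y G then (f G - f (sw v w x y G)) ^ 2 / 4 else 0 := by
    refine Finset.sum_congr rfl fun G _ => ?_
    split_ifs with ho
    · simp only [hA]; ring
    · simp only [hA]; rw [sw_of_not_opp ho]; ring
  have hL : (∑ G, if Opp v w x y G then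
      ((f G - f (sw v w x y G)) ^ 2 / 2 - hfun (rel v w) (Opp v w x y) f G ^ 2
        - hfun (rel x y) (Opp v w x y) f G ^ 2) else 0)
      = 2 * (∑ G, if Opp v w x y G then (f G - f (sw v w x y G)) ^ 2 / 4 else 0)
        - ∑ G, if Opp v w x y G then (hfun (rel v w) (Opp v w x y) s G ^ 2
        + hfun (rel x y) (Opp v w x y) s G ^ 2) else 0 := by
    rw [Finset.mul_sum, ← Finset.sum_sub_distrib]
    refine Finset.sum_congr rfl fun G _ => ?_
    split_ifs with ho
    · rw [hh1, hh2]; ring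
    · ring
  rw [hL, hexp, hA2]
  linarith

end Crest.Agent.SC
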