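/-
Row 299 (S0453, switch chain), package C: connectivity (Havel-Hakimi).
-/
import Crest.Agent.SC.G0

set_option autoImplicit false

namespace Crest.Agent.SC

open Finset

variable {V : Type} [Fintype V] [DecidableEq V]

/-- agreement of the rows in `P` -/
def agree {d : V → ℕ} (P : Finset V) (G H : Gr d) : Prop :=
  ∀ p ∈ P, ∀ q, G.adj p q = H.adj p q

theorem agree_refl {d : V → ℕ} (P : Finset V) (G : Gr d) : agree P G G := fun _ _ _ => rfl

theorem agree_trans {d : V → ℕ} {P : Finset V} {G H K : Gr d} (h : agree P G H)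
    (h' : agree P H K) : agree P G K := fun p hp q => (h p hp q).trans (h' p hp q)

theorem agree_symm {d : V → ℕ} {P : Finset V} {G H : Gr d} (h : agree P G H) :
    agree P H G := fun p hp q => (h p hp q).symm

/-- residual degree -/
def rdeg {d : V → ℕ} (P : Finset V) (G : Gr d) (u : V) : ℕ := ∑ q ∈ Pᶜ, (G.adj u q).toNat

theorem rdeg_agree {d : V → ℕ} {P : Finset V} {G H : Gr d} (h : agree P G H) (u : V) :
    rdeg P G u = rdeg P H u := by
  have h1 := G.deg_sum u
  have h2 := H.deg_sum u
  rw [← sum_add_sum_compl P] at h1 h2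
  have h3 : ∑ q ∈ P, (G.adj u q).toNat = ∑ q ∈ P, (H.adj u q).toNat :=
    sum_congr rfl fun q hq => by rw [G.adj_symm, H.adj_symm, h q hq u]
  unfold rdeg
  omega

/-- injective rank refining the residual degree -/
noncomputable def rk {d : V → ℕ} (P : Finset V) (G : Gr d) (u : V) : ℕ :=
  rdeg P G u * Fintype.card V + (Fintype.equivFin V u : ℕ)

theorem rk_agree {d : V → ℕ} {P : Finset V} {G H : Gr d} (h : agree P G H) (u : V) :
    rk P G u = rk P H u := by
  unfold rk; rw [rdeg_agree h]

theorem rk_inj {d : V → ℕ} {P : Finset V} {G : Gr d} {a b : V} (h : rk P G a = rk P G b) :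
    a = b := by
  unfold rk at h
  have h1 : ((Fintype.equivFin V a : Fin _) : ℕ) = ((Fintype.equivFin V b : Fin _) : ℕ) := by
    have := congrArg (· % Fintype.card V) h
    simpa [Nat.add_mod, Nat.mod_eq_of_lt] using this
  exact (Fintype.equivFin V).injective (Fin.ext h1)

theorem rdeg_le_of_rk {d : V → ℕ} {P : Finset V} {G : Gr d} {a b : V}
    (h : rk P G b < rk P G a) : rdeg P G b ≤ rdeg P G a := by
  by_contra hlt
  push Not at hlt
  unfold rk at h
  have h1 : ((Fintype.equivFin V a : Fin _) : ℕ) < Fintype.card V := (Fintype.equivFin V a).2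
  have h2 : (rdeg P G a + 1) * Fintype.card V ≤ rdeg P G b * Fintype.card V :=
    Nat.mul_le_mul_right _ hlt
  nlinarith

/-- the exchange vertex -/
theorem exists_exchange {d : V → ℕ} {P : Finset V} {G : Gr d} {v a b : V}
    (hv : v ∉ P) (ha : a ∉ P) (hb : b ∉ P) (hav : a ≠ v) (hbv : b ≠ v)
    (h1 : G.adj v b = true) (h2 : G.adj v a = false) (h3 : rdeg P G b ≤ rdeg P G a) :
    ∃ c, c ∉ P ∧ c ≠ a ∧ c ≠ b ∧ c ≠ v ∧ G.adj a c = true ∧ G.adj b c = false := by
  by_contra hne
  push Not at hne
  have hab : a ≠ b := by rintro rfl; rw [h1] at h2; cases h2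
  -- compare the sums over `Pᶜ \ {a, b, v}`
  have hsplit : ∀ u, rdeg P G u = (G.adj u a).toNat + ((G.adj u b).toNat + ((G.adj u v).toNat +
      ∑ q ∈ ((Pᶜ.erase a).erase b).erase v, (G.adj u q).toNat)) := by
    intro u
    unfold rdeg
    rw [← add_sum_erase Pᶜ (fun q => (G.adj u q).toNat) (a := a) (by simpa using ha),
      ← add_sum_erase (Pᶜ.erase a) (fun q => (G.adj u q).toNat) (a := b)
        (by simp [hb, hab.symm]),
      ← add_sum_erase ((Pᶜ.erase a).erase b) (fun q => (G.adj u q).toNat) (a := v)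
        (by simp [hv, hav.symm, hbv.symm])]
  have hA := hsplit a
  have hB := hsplit b
  have h4 : ∑ q ∈ ((Pᶜ.erase a).erase b).erase v, (G.adj a q).toNat
      ≤ ∑ q ∈ ((Pᶜ.erase a).erase b).erase v, (G.adj b q).toNat := by
    refine sum_le_sum fun q hq => ?_
    simp only [mem_erase, mem_compl] at hq
    have := hne q hq.2.2.2 hq.2.2.1 hq.2.1 hq.1
    revert this
    cases G.adj a q <;> cases G.adj b q <;> simp
  rw [G.adj_self a, G.adj_symm a v, h2] at hA
  rw [G.adj_self b, G.adj_symm b v, h1, G.adj_symm b a] at hB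
  simp only [Bool.toNat_false, Bool.toNat_true] at hA hB
  omega

/-- moving `N(v)` to the top -/
theorem exists_top {d : V → ℕ} (f : Gr d → ℝ)
    (h : ∀ v w, v ≠ w → ∀ G H : Gr d, rel v w G H → f G = f H)
    (P : Finset V) (v : V) (hv : v ∉ P) (G0 : Gr d) :
    ∃ G : Gr d, f G = f G0 ∧ agree P G0 G ∧
      ∀ a b, a ∉ P → b ∉ P → a ≠ v → b ≠ v → G.adj v b = true → G.adj v a = false →
        rk P G0 a ≤ rk P G0 b := by
  classical
  let T : Finset (Gr d) := univ.filter fun G => f G = f G0 ∧ agree P G0 G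
  have hT : T.Nonempty := ⟨G0, by simp [T, agree_refl]⟩
  obtain ⟨G, hG, hmax⟩ := exists_max_image T
    (fun G => ∑ u, (G.adj v u).toNat * rk P G0 u) hT
  simp only [T, mem_filter, mem_univ, true_and] at hG
  refine ⟨G, hG.1, hG.2, ?_⟩
  intro a b ha hb hav hbv h1 h2
  by_contra hlt
  push Not at hlt
  have hab : a ≠ b := by rintro rfl; rw [h1] at h2; cases h2
  have h3 : rdeg P G b ≤ rdeg P G a := by
    rw [← rdeg_agree hG.2, ← rdeg_agree hG.2]
    exact rdeg_le_of_rk hlt
  obtain ⟨c, hc, hca, hcb, hcv, h4, h5⟩ := exists_exchange hv ha hb hav hbv h1 h2 h3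
  have hD : Dist4 a b c v := ⟨hab, hca.symm, hav, hcb.symm, hbv, hcv⟩
  have ho : Opp a b c v G := by
    refine ⟨?_, ?_, ?_⟩
    · rw [h4, G.adj_symm b v, h1]
    · rw [G.adj_symm a v, h2, h5]
    · rw [h4, G.adj_symm a v, h2]; simp
  have hmem : sw a b c v G ∈ T := by
    simp only [T, mem_filter, mem_univ, true_and]
    refine ⟨?_, ?_⟩
    · rw [← h a b hab G _ (rel_sw a b c v G)]; exact hG.1
    · refine agree_trans hG.2 ?_
      intro p hp q
      rw [sw_adj_of_not hD ho]
      rintro (⟨rfl | rfl, _⟩ | ⟨_, rfl | rfl⟩)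
      · exact ha hp
      · exact hb hp
      · exact hc hp
      · exact hv hp
  have hle := hmax _ hmem
  have e : ∀ K : Gr d, ∑ u, (K.adj v u).toNat * rk P G0 u
      = (K.adj v a).toNat * rk P G0 a + ((K.adj v b).toNat * rk P G0 b
        + ∑ u ∈ (univ.erase a).erase b, (K.adj v u).toNat * rk P G0 u) := by
    intro K
    rw [← add_sum_erase univ (fun u => (K.adj v u).toNat * rk P G0 u) (mem_univ a),
      ← add_sum_erase (univ.erase a) (fun u => (K.adj v u).toNat * rk P G0 u) (a := b)
        (by simp [hab.symm])]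
  rw [e, e] at hle
  have e1 : ∑ u ∈ (univ.erase a).erase b, ((sw a b c v G).adj v u).toNat * rk P G0 u
      = ∑ u ∈ (univ.erase a).erase b, (G.adj v u).toNat * rk P G0 u := by
    refine sum_congr rfl fun u hu => ?_
    simp only [mem_erase, mem_univ, and_true] at hu
    rw [sw_adj_of_not hD ho]
    rintro (⟨rfl | rfl, _⟩ | ⟨h6 | h6, _⟩)
    · exact hav rfl
    · exact hbv rfl
    · exact hu.2 h6
    · exact hu.1 h6
  rw [e1, sw_adj_of hD ho (p := v) (q := a) (by simp), sw_adj_of hD ho (p := v) (q := b) (by simp),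
    h1, h2] at hle
  simp at hle
  omega

theorem row_unique {d : V → ℕ} {P : Finset V} {v : V} {G0 G H : Gr d}
    (hG : agree P G0 G) (hH : agree P G0 H)
    (hGt : ∀ a b, a ∉ P → b ∉ P → a ≠ v → b ≠ v → G.adj v b = true → G.adj v a = false →
        rk P G0 a ≤ rk P G0 b)
    (hHt : ∀ a b, a ∉ P → b ∉ P → a ≠ v → b ≠ v → H.adj v b = true → H.adj v a = false →
        rk P G0 a ≤ rk P G0 b) (q : V) : G.adj v q = H.adj v q := by
  have hout : ∀ u, G.adj v u ≠ H.adj v u → u ∉ P ∧ u ≠ v := by
    intro u hu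
    refine ⟨fun hp => hu ?_, ?_⟩
    · rw [G.adj_symm, H.adj_symm, ← hG u hp, ← hH u hp]
    · rintro rfl; simp at hu
  by_contra hne
  have hsum : ∑ u, (G.adj v u).toNat = ∑ u, (H.adj v u).toNat := by
    rw [G.deg_sum, H.deg_sum]
  -- there are `b` in N_G \ N_H and `a` in N_H \ N_G
  have hex1 : ∃ b, G.adj v b = true ∧ H.adj v b = false := by
    by_contra hno
    push Not at hno
    have hle : ∀ u, (G.adj v u).toNat ≤ (H.adj v u).toNat := by
      intro u
      have := hno u
      revert this
      cases G.adj v u <;> cases H.adj v u <;> simp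
    have hall := (sum_eq_sum_iff_of_le fun u _ => hle u).1 hsum
    have := hall q (mem_univ q)
    revert hne this
    cases G.adj v q <;> cases H.adj v q <;> simp
  have hex2 : ∃ a, H.adj v a = true ∧ G.adj v a = false := by
    by_contra hno
    push Not at hno
    have hle : ∀ u, (H.adj v u).toNat ≤ (G.adj v u).toNat := by
      intro u
      have := hno u
      revert this
      cases G.adj v u <;> cases H.adj v u <;> simp
    have hall := (sum_eq_sum_iff_of_le fun u _ => hle u).1 hsum.symm
    have := hall q (mem_univ q)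
    revert hne this
    cases G.adj v q <;> cases H.adj v q <;> simp
  obtain ⟨b, hb1, hb2⟩ := hex1
  obtain ⟨a, ha1, ha2⟩ := hex2
  have hb := hout b (by rw [hb1, hb2]; simp)
  have ha := hout a (by rw [ha1, ha2]; simp)
  have h1 := hGt a b ha.1 hb.1 ha.2 hb.2 hb1 ha2
  have h2 := hHt b a hb.1 ha.1 hb.2 ha.2 ha1 hb2
  have h3 := rk_inj (le_antisymm h1 h2)
  rw [h3, hb1] at ha2
  cases ha2

/-- Package C : connectivity -/
theorem conn {d : V → ℕ} (f : Gr d → ℝ)
    (h : ∀ v w, v ≠ w → ∀ G H : Gr d, rel v w G H → f G = f H) : ∀ G H, f G = f H := by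
  have key : ∀ n, ∀ P : Finset V, Pᶜ.card = n → ∀ G H : Gr d, agree P G H → f G = f H := by
    intro n
    induction n with
    | zero =>
      intro P hP G H hGH
      have : P = univ := by
        rw [card_eq_zero, compl_eq_empty_iff] at hP; exact hP
      subst this
      have : G = H := Gr.ext_adj fun p q => hGH p (mem_univ p) q
      rw [this]
    | succ n ih =>
      intro P hP G H hGH
      have hne : Pᶜ.Nonempty := by rw [← card_pos]; omega
      obtain ⟨v, hv⟩ := hne
      have hv' : v ∉ P := by simpa using hv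
      obtain ⟨G1, g1, g2, g3⟩ := exists_top f h P v hv' G
      obtain ⟨H1, k1, k2, k3⟩ := exists_top f h P v hv' H
      rw [← g1, ← k1]
      refine ih (insert v P) ?_ G1 H1 ?_
      · rw [compl_insert, card_erase_of_mem hv, hP]; rfl
      · intro p hp q
        rw [mem_insert] at hp
        rcases hp with rfl | hp
        · refine row_unique g2 (agree_trans hGH k2) g3 ?_ q
          intro a b ha hb hav hbv e1 e2
          rw [rk_agree hGH, rk_agree hGH]
          exact k3 a b ha hb hav hbv e1 e2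
        · rw [← g2 p hp q, ← k2 p hp q]; exact hGH p hp q
  intro G H
  exact key _ ∅ rfl G H (fun p hp => by simp at hp)

end Crest.Agent.SC
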