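/-
Package K of row 299 (S0453): translation of the kernel to the matrix graphs `Gr d`.
-/
import Crest.Agent.SC.Basic
import Crest.Agent.SC.G0
import Crest.Agent.SW.M

set_option autoImplicit false
namespace Crest.Agent.SC
open Finset Crest.SwitchChain Crest.Agent.SW

section K
variable {n : ℕ}

/-- edge set of a matrix graph -/
def toE {d : Fin n → ℕ} (G : Gr d) : Finset (Edge n) :=
  univ.filter fun e => ∃ p q, e.1 = s(p, q) ∧ G.adj p q = true

namespace K

lemma adj_symm {d : Fin n → ℕ} (G : Gr d) (p q : Fin n) : G.adj p q = G.adj q p := G.2.1 p q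

lemma adj_irrefl {d : Fin n → ℕ} (G : Gr d) (p : Fin n) : G.adj p p = false := G.2.2.1 p

lemma mem_toE {d : Fin n → ℕ} (G : Gr d) (p q : Fin n) (h : ¬ (s(p, q) : Sym2 (Fin n)).IsDiag) :
    (⟨s(p, q), h⟩ : Edge n) ∈ toE G ↔ G.adj p q = true := by
  simp only [toE, mem_filter, mem_univ, true_and]
  constructor
  · rintro ⟨a, b, hab, hadj⟩
    rw [Sym2.eq_iff] at hab
    rcases hab with ⟨rfl, rfl⟩ | ⟨rfl, rfl⟩
    · exact hadj
    · rw [adj_symm]; exact hadj
  · intro hadj
    exact ⟨p, q, rfl, hadj⟩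

lemma toE_injective {d : Fin n → ℕ} : Function.Injective (toE : Gr d → Finset (Edge n)) := by
  intro G H hGH
  apply Subtype.ext
  funext p q
  by_cases hpq : p = q
  · subst hpq
    rw [show G.1 p p = false from G.2.2.1 p, show H.1 p p = false from H.2.2.1 p]
  · have hd : ¬ (s(p, q) : Sym2 (Fin n)).IsDiag := by rwa [Sym2.mk_isDiag_iff]
    have h1 := mem_toE G p q hd
    have h2 := mem_toE H p q hd
    rw [hGH] at h1
    have h3 : G.adj p q = true ↔ H.adj p q = true := h1.symm.trans h2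
    exact Bool.eq_iff_iff.2 h3

/-- the matrix of an edge set -/
def matOf (E : Finset (Edge n)) (p q : Fin n) : Bool := decide (∃ e ∈ E, e.1 = s(p, q))

lemma matOf_symm (E : Finset (Edge n)) (p q : Fin n) : matOf E p q = matOf E q p := by
  unfold matOf
  rw [Sym2.eq_swap]

lemma matOf_irrefl (E : Finset (Edge n)) (p : Fin n) : matOf E p p = false := by
  unfold matOf
  rw [decide_eq_false_iff_not]
  rintro ⟨e, _, he⟩
  apply e.2
  rw [he]; simp

lemma deg_eq (E : Finset (Edge n)) (p : Fin n) :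
    deg E p = (univ.filter fun q => matOf E p q = true).card := by
  unfold deg
  symm
  apply Finset.card_bij (fun q hq => (⟨s(p, q), by
    simp only [mem_filter, mem_univ, true_and, matOf, decide_eq_true_eq] at hq
    obtain ⟨e, _, he⟩ := hq
    rw [← he]; exact e.2⟩ : Edge n))
  · intro q hq
    simp only [mem_filter, mem_univ, true_and, matOf, decide_eq_true_eq] at hq ⊢
    obtain ⟨e, he, he2⟩ := hq
    refine ⟨?_, by simp⟩
    have : e = ⟨s(p, q), he2 ▸ e.2⟩ := Subtype.ext he2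
    rw [← this]; exact he
  · intro q _ q' _ h
    have h1 : (s(p, q) : Sym2 (Fin n)) = s(p, q') := congrArg Subtype.val h
    rw [Sym2.eq_iff] at h1
    rcases h1 with ⟨_, h⟩ | ⟨h2, h3⟩
    · exact h
    · exact h3.trans h2
  · intro e he
    simp only [mem_filter] at he
    obtain ⟨he1, he2⟩ := he
    obtain ⟨q, hq⟩ := he2
    refine ⟨q, ?_, Subtype.ext hq.symm⟩
    simp only [mem_filter, mem_univ, true_and, matOf, decide_eq_true_eq]
    exact ⟨e, he1, hq⟩

lemma matOf_toE {d : Fin n → ℕ} (G : Gr d) (p q : Fin n) : matOf (toE G) p q = G.adj p q := by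
  rw [Bool.eq_iff_iff]
  simp only [matOf, decide_eq_true_eq]
  constructor
  · rintro ⟨e, he, he2⟩
    have : e = ⟨s(p, q), he2 ▸ e.2⟩ := Subtype.ext he2
    rw [this] at he
    exact (mem_toE G p q _).1 he
  · intro h
    have hpq : p ≠ q := by
      rintro rfl
      rw [adj_irrefl] at h
      exact Bool.false_ne_true h
    have hd : ¬ (s(p, q) : Sym2 (Fin n)).IsDiag := by rwa [Sym2.mk_isDiag_iff]
    exact ⟨⟨s(p, q), hd⟩, (mem_toE G p q hd).2 h, rfl⟩

lemma toE_mem {d : Fin n → ℕ} (G : Gr d) : toE G ∈ realizations d := by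
  simp only [realizations, mem_filter, mem_univ, true_and]
  intro p
  rw [deg_eq]
  simp_rw [matOf_toE]
  exact G.2.2.2 p

lemma exists_of_mem {d : Fin n → ℕ} (E : Finset (Edge n)) (hE : E ∈ realizations d) :
    ∃ G : Gr d, toE G = E := by
  simp only [realizations, mem_filter, mem_univ, true_and] at hE
  refine ⟨⟨matOf E, matOf_symm E, matOf_irrefl E, fun p => ?_⟩, ?_⟩
  · rw [← deg_eq, hE p]
  · ext e
    obtain ⟨s, hs⟩ := e
    induction s with
    | _ p q =>
      rw [mem_toE]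
      simp only [Gr.adj, matOf, decide_eq_true_eq]
      constructor
      · rintro ⟨e, he, he2⟩
        have : e = ⟨s(p, q), hs⟩ := Subtype.ext he2
        rwa [← this]
      · intro h; exact ⟨_, h, rfl⟩

end K

theorem sum_toE {d : Fin n → ℕ} (f : Finset (Edge n) → ℝ) :
    ∑ G ∈ realizations d, f G = ∑ G : Gr d, f (toE G) := by
  symm
  apply Finset.sum_bij (fun (G : Gr d) _ => toE G)
  · intro G _; exact K.toE_mem G
  · intro G _ H _ h; exact K.toE_injective h
  · intro E hE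
    obtain ⟨G, hG⟩ := K.exists_of_mem E hE
    exact ⟨G, mem_univ _, hG⟩
  · intro G _; rfl

namespace K

/-! ### pairs of matchings from four vertices -/

/-- the two edges `v x`, `w y` -/
def pm2 (v x w y : Fin n) : Finset (Edge n) := univ.filter fun e => e.1 = s(v, x) ∨ e.1 = s(w, y)

lemma mem_pm2 (v x w y : Fin n) (e : Edge n) : e ∈ pm2 v x w y ↔ e.1 = s(v, x) ∨ e.1 = s(w, y) := by
  simp [pm2]

lemma map_pm2 {m : ℕ} (φ : Fin m ↪ Fin n) (a b c d : Fin m) :
    (pm2 a b c d).map (edgeMap φ) = pm2 (φ a) (φ b) (φ c) (φ d) := by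
  ext e
  rw [Finset.mem_map, mem_pm2]
  constructor
  · rintro ⟨e₀, he₀, rfl⟩
    rw [mem_pm2] at he₀
    rcases he₀ with h | h
    · left; simp [edgeMap, h]
    · right; simp [edgeMap, h]
  · rintro (h | h)
    · have hab : ¬ (s(a, b) : Sym2 (Fin m)).IsDiag := by
        rw [Sym2.mk_isDiag_iff]
        rintro rfl
        apply e.2
        rw [h]; simp
      refine ⟨⟨s(a, b), hab⟩, ?_, ?_⟩
      · rw [mem_pm2]; left; rfl
      · apply Subtype.ext
        rw [h]; simp [edgeMap]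
    · have hcd : ¬ (s(c, d) : Sym2 (Fin m)).IsDiag := by
        rw [Sym2.mk_isDiag_iff]
        rintro rfl
        apply e.2
        rw [h]; simp
      refine ⟨⟨s(c, d), hcd⟩, ?_, ?_⟩
      · rw [mem_pm2]; right; rfl
      · apply Subtype.ext
        rw [h]; simp [edgeMap]

/-- the triples completing `v` to an ordered quadruple of distinct elements -/
def trip (v : Fin 4) : Finset (Fin 4 × Fin 4 × Fin 4) :=
  univ.filter fun t => Dist4 v t.1 t.2.1 t.2.2

/-- ordered pairs of distinct matchings on all of `Fin 4` -/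
def pairs4 : Finset (Finset (Edge 4) × Finset (Edge 4)) :=
  ((pmSet (univ : Finset (Fin 4))) ×ˢ (pmSet (univ : Finset (Fin 4)))).filter fun p => p.1 ≠ p.2

/-- quadruple `(v,w,x,y)` to the pair of matchings -/
def toPair (v : Fin 4) (t : Fin 4 × Fin 4 × Fin 4) : Finset (Edge 4) × Finset (Edge 4) :=
  (pm2 v t.2.1 t.1 t.2.2, pm2 v t.2.2 t.1 t.2.1)

lemma maps4 : ∀ v, ∀ t ∈ trip v, toPair v t ∈ pairs4 := by decide +kernel
lemma inj4 : ∀ v, ∀ t ∈ trip v, ∀ t' ∈ trip v, toPair v t = toPair v t' → t = t' := by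
  decide +kernel
lemma card_trip : ∀ v, (trip v).card = 6 := by decide +kernel
lemma card_pairs4 : pairs4.card = 6 := by decide +kernel

lemma sum_trip (v : Fin 4) (Ψ : Finset (Edge 4) × Finset (Edge 4) → ℝ) :
    ∑ t ∈ trip v, Ψ (toPair v t) = ∑ p ∈ pairs4, Ψ p := by
  have himg : (trip v).image (toPair v) = pairs4 := by
    apply Finset.eq_of_subset_of_card_le
    · intro p hp
      obtain ⟨t, ht, rfl⟩ := Finset.mem_image.1 hp
      exact maps4 v t ht
    · rw [Finset.card_image_of_injOn (fun t ht t' ht' h => inj4 v t ht t' ht' h), card_trip,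
        card_pairs4]
  rw [← himg, Finset.sum_image (fun t ht t' ht' h => inj4 v t ht t' ht' h)]

lemma sum_quads4 (Ψ : Finset (Edge 4) × Finset (Edge 4) → ℝ) :
    ∑ s : Fin 4 × Fin 4 × Fin 4 × Fin 4, (if Dist4 s.1 s.2.1 s.2.2.1 s.2.2.2 then
      Ψ (pm2 s.1 s.2.2.1 s.2.1 s.2.2.2, pm2 s.1 s.2.2.2 s.2.1 s.2.2.1) else 0)
      = 4 * ∑ p ∈ pairs4, Ψ p := by
  rw [Fintype.sum_prod_type]
  have h1 : ∀ v : Fin 4, ∑ t : Fin 4 × Fin 4 × Fin 4, (if Dist4 v t.1 t.2.1 t.2.2 then
      Ψ (pm2 v t.2.1 t.1 t.2.2, pm2 v t.2.2 t.1 t.2.1) else 0) = ∑ p ∈ pairs4, Ψ p := by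
    intro v
    rw [← sum_trip v Ψ, trip, Finset.sum_filter]
    rfl
  simp only at h1 ⊢
  rw [Finset.sum_congr rfl (fun v _ => h1 v), Finset.sum_const, Finset.card_univ, Fintype.card_fin,
    nsmul_eq_mul]
  norm_num

/-- the set of entries -/
def set4 (t : Fin n × Fin n × Fin n × Fin n) : Finset (Fin n) := {t.1, t.2.1, t.2.2.1, t.2.2.2}

lemma set4_card (t : Fin n × Fin n × Fin n × Fin n) (h : Dist4 t.1 t.2.1 t.2.2.1 t.2.2.2) :
    (set4 t).card = 4 := by
  obtain ⟨h1, h2, h3, h4, h5, h6⟩ := h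
  unfold set4
  rw [Finset.card_insert_of_notMem, Finset.card_insert_of_notMem, Finset.card_insert_of_notMem,
    Finset.card_singleton]
  · simp [h6]
  · simp [h4, h5]
  · simp [h1, h2, h3]

/-- quadruple map -/
def qmap (φ : Fin 4 ↪ Fin n) (s : Fin 4 × Fin 4 × Fin 4 × Fin 4) :
    Fin n × Fin n × Fin n × Fin n := (φ s.1, φ s.2.1, φ s.2.2.1, φ s.2.2.2)

lemma qmap_inj (φ : Fin 4 ↪ Fin n) : Function.Injective (qmap φ) := by
  rintro ⟨a, b, c, d⟩ ⟨a', b', c', d'⟩ h
  simp only [qmap, Prod.mk.injEq, EmbeddingLike.apply_eq_iff_eq] at h ⊢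
  exact h

lemma dist_qmap (φ : Fin 4 ↪ Fin n) (s : Fin 4 × Fin 4 × Fin 4 × Fin 4) :
    Dist4 (qmap φ s).1 (qmap φ s).2.1 (qmap φ s).2.2.1 (qmap φ s).2.2.2
      ↔ Dist4 s.1 s.2.1 s.2.2.1 s.2.2.2 := by
  simp only [Dist4, qmap, ne_eq, EmbeddingLike.apply_eq_iff_eq]

lemma step1 (φ : Fin 4 ↪ Fin n) (Ψ : Fin n × Fin n × Fin n × Fin n → ℝ) :
    ∑ s : Fin 4 × Fin 4 × Fin 4 × Fin 4, (if Dist4 s.1 s.2.1 s.2.2.1 s.2.2.2 then Ψ (qmap φ s) else 0)
      = ∑ t : Fin n × Fin n × Fin n × Fin n, (if Dist4 t.1 t.2.1 t.2.2.1 t.2.2.2 ∧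
        set4 t = (univ : Finset (Fin 4)).map φ then Ψ t else 0) := by
  rw [← Finset.sum_filter, ← Finset.sum_filter]
  apply Finset.sum_bij (fun s _ => qmap φ s)
  · intro s hs
    simp only [mem_filter, mem_univ, true_and] at hs ⊢
    refine ⟨(dist_qmap φ s).2 hs, ?_⟩
    have h1 : set4 (qmap φ s) = (set4 s).map φ := by
      simp [set4, qmap, Finset.map_insert]
    have h2 : set4 s = univ := Finset.eq_univ_of_card _ (by rw [set4_card s hs, Fintype.card_fin])
    rw [h1, h2]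
  · intro s _ s' _ h; exact qmap_inj φ h
  · rintro ⟨v, w, x, y⟩ ht
    simp only [mem_filter, mem_univ, true_and] at ht
    obtain ⟨hd, hs⟩ := ht
    have hmem : ∀ u ∈ set4 (v, w, x, y), ∃ a, φ a = u := by
      intro u hu
      rw [hs, Finset.mem_map] at hu
      obtain ⟨a, _, ha⟩ := hu
      exact ⟨a, ha⟩
    obtain ⟨a, ha⟩ := hmem v (by simp [set4])
    obtain ⟨b, hb⟩ := hmem w (by simp [set4])
    obtain ⟨c, hc⟩ := hmem x (by simp [set4])
    obtain ⟨e, he⟩ := hmem y (by simp [set4])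
    refine ⟨(a, b, c, e), ?_, ?_⟩
    · simp only [mem_filter, mem_univ, true_and]
      rw [← ha, ← hb, ← hc, ← he] at hd
      exact (dist_qmap φ (a, b, c, e)).1 hd
    · simp [qmap, ha, hb, hc, he]
  · intro s _; rfl

lemma sum_pairs (Φ : Finset (Edge n) → Finset (Edge n) → ℝ) (φ : Fin 4 ↪ Fin n) :
    ∑ F ∈ pmSet ((univ : Finset (Fin 4)).map φ), ∑ F' ∈ (pmSet ((univ : Finset (Fin 4)).map φ)).erase F,
      Φ F F' = ∑ p ∈ pairs4, Φ (p.1.map (edgeMap φ)) (p.2.map (edgeMap φ)) := by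
  rw [pmSet_map, Finset.sum_map, pairs4, Finset.sum_filter, Finset.sum_product]
  refine Finset.sum_congr rfl fun F _ => ?_
  rw [← Finset.map_erase, Finset.sum_map]
  have : (pmSet (univ : Finset (Fin 4))).erase F
      = (pmSet (univ : Finset (Fin 4))).filter (fun F' => F ≠ F') := by
    ext F'; simp only [Finset.mem_erase, mem_filter, ne_eq]
    constructor
    · rintro ⟨a, b⟩; exact ⟨b, fun h => a h.symm⟩
    · rintro ⟨a, b⟩; exact ⟨fun h => b h.symm, a⟩
  rw [this, Finset.sum_filter]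
  rfl

lemma sum_S (Φ : Finset (Edge n) → Finset (Edge n) → ℝ) (S : Finset (Fin n)) (hS : S.card = 4) :
    4 * ∑ F ∈ pmSet S, ∑ F' ∈ (pmSet S).erase F, Φ F F'
      = ∑ t : Fin n × Fin n × Fin n × Fin n, (if Dist4 t.1 t.2.1 t.2.2.1 t.2.2.2 ∧ set4 t = S then
        Φ (pm2 t.1 t.2.2.1 t.2.1 t.2.2.2) (pm2 t.1 t.2.2.2 t.2.1 t.2.2.1) else 0) := by
  set φ := (S.orderEmbOfFin hS).toEmbedding with hφ
  have hS' : S = (univ : Finset (Fin 4)).map φ := by
    ext v
    simp only [Finset.mem_map, mem_univ, true_and]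
    have := Finset.range_orderEmbOfFin S hS
    rw [Set.ext_iff] at this
    have h2 := this v
    simp only [Set.mem_range, Finset.mem_coe] at h2
    exact h2.symm
  rw [hS', sum_pairs, ← sum_quads4 (fun p => Φ (p.1.map (edgeMap φ)) (p.2.map (edgeMap φ))),
    ← step1 φ (fun t => Φ (pm2 t.1 t.2.2.1 t.2.1 t.2.2.2) (pm2 t.1 t.2.2.2 t.2.1 t.2.2.1))]
  refine Finset.sum_congr rfl fun s _ => ?_
  simp only [map_pm2, qmap]

lemma sum_proposals (Φ : Finset (Edge n) → Finset (Edge n) → ℝ) :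
    4 * ∑ S ∈ (univ : Finset (Fin n)).powersetCard 4, ∑ F ∈ pmSet S, ∑ F' ∈ (pmSet S).erase F, Φ F F'
      = ∑ v, ∑ w, ∑ x, ∑ y, (if Dist4 v w x y then Φ (pm2 v x w y) (pm2 v y w x) else 0) := by
  rw [Finset.mul_sum]
  have h1 : ∀ S ∈ (univ : Finset (Fin n)).powersetCard 4,
      4 * ∑ F ∈ pmSet S, ∑ F' ∈ (pmSet S).erase F, Φ F F'
      = ∑ t : Fin n × Fin n × Fin n × Fin n, (if Dist4 t.1 t.2.1 t.2.2.1 t.2.2.2 ∧ set4 t = S then
        Φ (pm2 t.1 t.2.2.1 t.2.1 t.2.2.2) (pm2 t.1 t.2.2.2 t.2.1 t.2.2.1) else 0) := by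
    intro S hS
    exact sum_S Φ S (Finset.mem_powersetCard.1 hS).2
  rw [Finset.sum_congr rfl h1, Finset.sum_comm, Fintype.sum_prod_type]
  refine Finset.sum_congr rfl fun v _ => ?_
  rw [Fintype.sum_prod_type]
  refine Finset.sum_congr rfl fun w _ => ?_
  rw [Fintype.sum_prod_type]
  refine Finset.sum_congr rfl fun x _ => Finset.sum_congr rfl fun y _ => ?_
  simp only
  by_cases hd : Dist4 v w x y
  · simp only [hd, true_and, if_true]
    rw [Finset.sum_ite_eq, if_pos]
    rw [Finset.mem_powersetCard]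
    exact ⟨Finset.subset_univ _, set4_card (v, w, x, y) hd⟩
  · simp [hd]

lemma toE_sw {d : Fin n → ℕ} {v w x y : Fin n} {G : Gr d} (hD : Dist4 v w x y)
    (hO : Opp v w x y G) (h : G.adj v x = true) :
    toE (sw v w x y G) = switchResult (toE G) (pm2 v x w y) (pm2 v y w x) := by
  obtain ⟨o1, o2, o3⟩ := hO
  have a1 : G.adj v x = true := h
  have a2 : G.adj w y = true := by rw [← o1, h]
  have a3 : G.adj v y = false := by
    rw [h] at o3
    cases hh : G.adj v y
    · rfl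
    · rw [hh] at o3; exact absurd rfl o3
  have a4 : G.adj w x = false := by rw [← o2, a3]
  have b1 : G.adj x v = true := by rw [adj_symm]; exact a1
  have b2 : G.adj y w = true := by rw [adj_symm]; exact a2
  have b3 : G.adj y v = false := by rw [adj_symm]; exact a3
  have b4 : G.adj x w = false := by rw [adj_symm]; exact a4
  have hcond : pm2 v x w y ⊆ toE G ∧ Disjoint (pm2 v y w x) (toE G) := by
    constructor
    · intro e he
      rw [mem_pm2] at he
      obtain ⟨s, hs⟩ := e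
      simp only at he
      rcases he with rfl | rfl
      · rw [mem_toE]; exact a1
      · rw [mem_toE]; exact a2
    · rw [Finset.disjoint_left]
      intro e he
      rw [mem_pm2] at he
      obtain ⟨s, hs⟩ := e
      simp only at he
      rcases he with rfl | rfl
      · rw [mem_toE, a3]; exact Bool.false_ne_true
      · rw [mem_toE, a4]; exact Bool.false_ne_true
  unfold switchResult
  rw [if_pos hcond]
  ext e
  obtain ⟨s, hs⟩ := e
  induction s with
  | _ p q =>
    rw [mem_toE, Finset.mem_union, Finset.mem_sdiff, mem_toE, mem_pm2, mem_pm2]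
    simp only [Sym2.eq_iff]
    have hD' := hD
    obtain ⟨d1, d2, d3, d4, d5, d6⟩ := hD
    by_cases hb : (((p = v ∨ p = w) ∧ (q = x ∨ q = y)) ∨ ((q = v ∨ q = w) ∧ (p = x ∨ p = y)))
    · rw [sw_adj_of hD' ⟨o1, o2, o3⟩ hb]
      rcases hb with ⟨rfl | rfl, rfl | rfl⟩ | ⟨rfl | rfl, rfl | rfl⟩ <;>
        simp [a1, a2, a3, a4, b1, b2, b3, b4, d1, d2, d3, d4, d5, d6, d1.symm, d2.symm, d3.symm,
          d4.symm, d5.symm, d6.symm]
    · rw [sw_adj_of_not hD' ⟨o1, o2, o3⟩ hb]
      push Not at hb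
      constructor
      · intro hadj
        left
        refine ⟨hadj, ?_⟩
        rintro ((⟨h1, h2⟩ | ⟨h1, h2⟩) | (⟨h1, h2⟩ | ⟨h1, h2⟩))
        · exact (hb.1 (Or.inl h1)).1 h2
        · exact (hb.2 (Or.inl h2)).1 h1
        · exact (hb.1 (Or.inr h1)).2 h2
        · exact (hb.2 (Or.inr h2)).2 h1
      · rintro (⟨hadj, _⟩ | ((⟨h1, h2⟩ | ⟨h1, h2⟩) | (⟨h1, h2⟩ | ⟨h1, h2⟩)))
        · exact hadj
        · exact absurd h2 (hb.1 (Or.inl h1)).2
        · exact absurd h1 (hb.2 (Or.inl h2)).2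
        · exact absurd h2 (hb.1 (Or.inr h1)).1
        · exact absurd h1 (hb.2 (Or.inr h2)).1

lemma switch_id {d : Fin n → ℕ} {v w x y : Fin n} {G : Gr d} (hD : Dist4 v w x y)
    (h : ¬ (Opp v w x y G ∧ G.adj v x = true)) :
    switchResult (toE G) (pm2 v x w y) (pm2 v y w x) = toE G := by
  unfold switchResult
  rw [if_neg]
  rintro ⟨h1, h2⟩
  apply h
  obtain ⟨d1, d2, d3, d4, d5, d6⟩ := hD
  have n1 : ¬ (s(v, x) : Sym2 (Fin n)).IsDiag := by rwa [Sym2.mk_isDiag_iff]
  have n2 : ¬ (s(w, y) : Sym2 (Fin n)).IsDiag := by rwa [Sym2.mk_isDiag_iff]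
  have n3 : ¬ (s(v, y) : Sym2 (Fin n)).IsDiag := by rwa [Sym2.mk_isDiag_iff]
  have n4 : ¬ (s(w, x) : Sym2 (Fin n)).IsDiag := by rwa [Sym2.mk_isDiag_iff]
  have a1 : G.adj v x = true :=
    (mem_toE G v x n1).1 (h1 (by rw [mem_pm2]; left; rfl))
  have a2 : G.adj w y = true :=
    (mem_toE G w y n2).1 (h1 (by rw [mem_pm2]; right; rfl))
  have a3 : G.adj v y = false := by
    have := Finset.disjoint_left.1 h2 (show (⟨s(v, y), n3⟩ : Edge n) ∈ _ by
      rw [mem_pm2]; left; rfl)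
    rw [mem_toE] at this
    simpa using this
  have a4 : G.adj w x = false := by
    have := Finset.disjoint_left.1 h2 (show (⟨s(w, x), n4⟩ : Edge n) ∈ _ by
      rw [mem_pm2]; right; rfl)
    rw [mem_toE] at this
    simpa using this
  refine ⟨⟨?_, ?_, ?_⟩, a1⟩
  · rw [a1, a2]
  · rw [a3, a4]
  · rw [a1, a3]; simp

lemma term_eq {d : Fin n → ℕ} (f : Finset (Edge n) → ℝ) {v w x y : Fin n} (G : Gr d)
    (hD : Dist4 v w x y) :
    (f (toE G) - f (toE (sw v w x y G))) ^ 2
      = (f (toE G) - f (switchResult (toE G) (pm2 v x w y) (pm2 v y w x))) ^ 2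
        + (f (toE G) - f (switchResult (toE G) (pm2 v y w x) (pm2 v x w y))) ^ 2 := by
  by_cases hO : Opp v w x y G
  · by_cases h : G.adj v x = true
    · rw [← toE_sw hD hO h, switch_id hD.swap_right]
      · simp
      · rintro ⟨_, h2⟩
        exact hO.2.2 (by rw [h, h2])
    · have h2 : G.adj v y = true := by
        have := hO.2.2
        cases h3 : G.adj v y
        · exfalso; apply this; rw [h3]; simpa using h
        · rfl
      rw [← toE_sw hD.swap_right hO.swap_right h2, sw_right, switch_id hD]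
      · simp
      · rintro ⟨_, h3⟩; exact h h3
  · rw [sw_of_not_opp hO, switch_id hD (fun h => hO h.1), switch_id hD.swap_right
      (fun h => hO (opp_swap_right.1 h.1))]
    simp

end K

theorem dirichlet_eq {d : Fin n → ℕ} (hn : 4 ≤ n) (f : Finset (Edge n) → ℝ) :
    ∑ G ∈ realizations d, f G * (f G - ∑ G' ∈ realizations d, kernel n G G' * f G') =
      (∑ v, ∑ w, ∑ x, ∑ y, ∑ G : Gr d, if Dist4 v w x y then
        (f (toE G) - f (toE (sw v w x y G))) ^ 2 else 0) / (192 * (n.choose 4 : ℝ)) := by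
  have hN : (0:ℝ) < (n.choose 4 : ℝ) := by exact_mod_cast Nat.choose_pos hn
  rw [dirichlet hn d f]
  have h1 : ∀ E ∈ realizations d, ∑ G' ∈ realizations d, (proposalCount E G' : ℝ) * (f E - f G') ^ 2
      = 1 / 4 * ∑ v, ∑ w, ∑ x, ∑ y, (if Dist4 v w x y then
        (f E - f (switchResult E (K.pm2 v x w y) (K.pm2 v y w x))) ^ 2 else 0) := by
    intro E hE
    rw [← K.sum_proposals (fun F F' => (f E - f (switchResult E F F')) ^ 2)]
    have e1 : ∑ G' ∈ realizations d, (proposalCount E G' : ℝ) * (f E - f G') ^ 2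
        = ∑ G', (proposalCount E G' : ℝ) * (f E - f G') ^ 2 := by
      apply Finset.sum_subset (Finset.subset_univ _)
      intro G' _ hG'
      rw [proposalCount_out d E G' hE hG']
      simp
    rw [e1]
    have e2 : ∀ G', (proposalCount E G' : ℝ) * (f E - f G') ^ 2
        = ∑ S ∈ (univ : Finset (Fin n)).powersetCard 4, ∑ F ∈ pmSet S, ∑ F' ∈ (pmSet S).erase F,
          (if switchResult E F F' = G' then (f E - f G') ^ 2 else 0) := by
      intro G'
      unfold proposalCount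
      push_cast
      rw [Finset.sum_mul]
      refine Finset.sum_congr rfl fun S _ => ?_
      rw [Finset.sum_mul]
      refine Finset.sum_congr rfl fun F _ => ?_
      rw [Finset.sum_mul]
      refine Finset.sum_congr rfl fun F' _ => ?_
      split_ifs <;> simp
    simp_rw [e2]
    rw [Finset.sum_comm]
    have e3 : ∀ S ∈ (univ : Finset (Fin n)).powersetCard 4,
        ∑ G' : Finset (Edge n), ∑ F ∈ pmSet S, ∑ F' ∈ (pmSet S).erase F,
          (if switchResult E F F' = G' then (f E - f G') ^ 2 else 0)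
        = ∑ F ∈ pmSet S, ∑ F' ∈ (pmSet S).erase F, (f E - f (switchResult E F F')) ^ 2 := by
      intro S _
      rw [Finset.sum_comm]
      refine Finset.sum_congr rfl fun F _ => ?_
      rw [Finset.sum_comm]
      refine Finset.sum_congr rfl fun F' _ => ?_
      rw [Finset.sum_ite_eq, if_pos (mem_univ _)]
    rw [Finset.sum_congr rfl e3]
    ring
  rw [Finset.sum_congr rfl h1, sum_toE (d := d) (fun E => 1 / 4 * ∑ v, ∑ w, ∑ x, ∑ y,
    (if Dist4 v w x y then
        (f E - f (switchResult E (K.pm2 v x w y) (K.pm2 v y w x))) ^ 2 else 0))]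
  -- symmetrise in x, y
  have h2 : ∀ G : Gr d, ∑ v, ∑ w, ∑ x, ∑ y, (if Dist4 v w x y then
        (f (toE G) - f (switchResult (toE G) (K.pm2 v x w y) (K.pm2 v y w x))) ^ 2 else 0)
      = 1 / 2 * ∑ v, ∑ w, ∑ x, ∑ y, (if Dist4 v w x y then
        (f (toE G) - f (toE (sw v w x y G))) ^ 2 else 0) := by
    intro G
    have e1 : ∑ v, ∑ w, ∑ x, ∑ y, (if Dist4 v w x y then
        (f (toE G) - f (toE (sw v w x y G))) ^ 2 else 0)
        = ∑ v, ∑ w, ∑ x, ∑ y, (if Dist4 v w x y then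
        (f (toE G) - f (switchResult (toE G) (K.pm2 v x w y) (K.pm2 v y w x))) ^ 2 else 0)
        + ∑ v, ∑ w, ∑ x, ∑ y, (if Dist4 v w x y then
        (f (toE G) - f (switchResult (toE G) (K.pm2 v y w x) (K.pm2 v x w y))) ^ 2 else 0) := by
      simp_rw [← Finset.sum_add_distrib]
      refine Finset.sum_congr rfl fun v _ => Finset.sum_congr rfl fun w _ =>
        Finset.sum_congr rfl fun x _ => Finset.sum_congr rfl fun y _ => ?_
      split_ifs with h
      · exact K.term_eq f G h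
      · simp
    have e2 : ∑ v, ∑ w, ∑ x, ∑ y, (if Dist4 v w x y then
        (f (toE G) - f (switchResult (toE G) (K.pm2 v y w x) (K.pm2 v x w y))) ^ 2 else 0)
        = ∑ v, ∑ w, ∑ x, ∑ y, (if Dist4 v w x y then
        (f (toE G) - f (switchResult (toE G) (K.pm2 v x w y) (K.pm2 v y w x))) ^ 2 else 0) := by
      refine Finset.sum_congr rfl fun v _ => Finset.sum_congr rfl fun w _ => ?_
      rw [Finset.sum_comm]
      refine Finset.sum_congr rfl fun x _ => Finset.sum_congr rfl fun y _ => ?_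
      have : Dist4 v w y x ↔ Dist4 v w x y := ⟨fun h => h.swap_right, fun h => h.swap_right⟩
      simp only [this]
    rw [e1, e2]
    ring
  simp_rw [h2]
  have h3 : ∑ v, ∑ w, ∑ x, ∑ y, ∑ G : Gr d, (if Dist4 v w x y then
        (f (toE G) - f (toE (sw v w x y G))) ^ 2 else 0)
      = ∑ G : Gr d, ∑ v, ∑ w, ∑ x, ∑ y, (if Dist4 v w x y then
        (f (toE G) - f (toE (sw v w x y G))) ^ 2 else 0) := by
    have c1 : ∀ v w x, ∑ y, ∑ G : Gr d, (if Dist4 v w x y then
        (f (toE G) - f (toE (sw v w x y G))) ^ 2 else 0)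
        = ∑ G : Gr d, ∑ y, (if Dist4 v w x y then
        (f (toE G) - f (toE (sw v w x y G))) ^ 2 else 0) := fun v w x => Finset.sum_comm
    simp_rw [c1]
    have c2 : ∀ v w, ∑ x, ∑ G : Gr d, ∑ y, (if Dist4 v w x y then
        (f (toE G) - f (toE (sw v w x y G))) ^ 2 else 0)
        = ∑ G : Gr d, ∑ x, ∑ y, (if Dist4 v w x y then
        (f (toE G) - f (toE (sw v w x y G))) ^ 2 else 0) := fun v w => Finset.sum_comm
    simp_rw [c2]
    have c3 : ∀ v, ∑ w, ∑ G : Gr d, ∑ x, ∑ y, (if Dist4 v w x y then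
        (f (toE G) - f (toE (sw v w x y G))) ^ 2 else 0)
        = ∑ G : Gr d, ∑ w, ∑ x, ∑ y, (if Dist4 v w x y then
        (f (toE G) - f (toE (sw v w x y G))) ^ 2 else 0) := fun v => Finset.sum_comm
    simp_rw [c3]
    exact Finset.sum_comm
  rw [h3, ← Finset.mul_sum, ← Finset.mul_sum]
  field_simp
  ring

end K
end Crest.Agent.SC
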