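/-
Row 299 (S0453), package P: assembly of the Poincare inequality.
-/
import Crest.Agent.SC.E
import Crest.Agent.SC.G0

set_option autoImplicit false

namespace Crest.Agent.SC

open Finset

variable {V : Type} [Fintype V] [DecidableEq V]

lemma relFun_comm {d : V → ℕ} (v w : V) : (rel (d := d) v w) = rel w v := by
  funext G H
  exact propext rel_comm

/-- `D_{vw}` as a linear map, zero for `v = w`. -/
noncomputable def DD (d : V → ℕ) (v w : V) : (Gr d → ℝ) →ₗ[ℝ] (Gr d → ℝ) :=
  if v = w then 0 else DavL (rel v w)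

lemma DD_of_ne {d : V → ℕ} {v w : V} (h : v ≠ w) (f : Gr d → ℝ) (G : Gr d) :
    DD d v w f G = Dav (rel v w) f G := by
  unfold DD; rw [if_neg h]; rfl

lemma DD_self {d : V → ℕ} (v : V) (f : Gr d → ℝ) (G : Gr d) : DD d v v f G = 0 := by
  unfold DD; rw [if_pos rfl]; rfl

lemma DD_comm {d : V → ℕ} (v w : V) : DD d v w = DD d w v := by
  unfold DD
  by_cases h : v = w
  · rw [if_pos h, if_pos h.symm]
  · rw [if_neg h, if_neg (Ne.symm h), relFun_comm]

/-- the Laplacian `∑_{v ≠ w} D_{vw}` -/
noncomputable def LL (d : V → ℕ) : (Gr d → ℝ) →ₗ[ℝ] (Gr d → ℝ) := ∑ v, ∑ w, DD d v w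

lemma LL_apply {d : V → ℕ} (f : Gr d → ℝ) (G : Gr d) : LL d f G = ∑ v, ∑ w, DD d v w f G := by
  unfold LL
  simp only [LinearMap.sum_apply, Finset.sum_apply]

/-- `⟨D_{vw} f, D_{xy} f⟩` -/
noncomputable def II {d : V → ℕ} (f : Gr d → ℝ) (v w x y : V) : ℝ :=
  ∑ G, DD d v w f G * DD d x y f G

lemma II_left {d : V → ℕ} (f : Gr d → ℝ) (v w x y : V) : II f w v x y = II f v w x y := by
  unfold II; rw [DD_comm]

lemma II_right {d : V → ℕ} (f : Gr d → ℝ) (v w x y : V) : II f v w y x = II f v w x y := by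
  unfold II; rw [DD_comm y x]

lemma II_pairs {d : V → ℕ} (f : Gr d → ℝ) (v w x y : V) : II f x y v w = II f v w x y := by
  unfold II; exact Finset.sum_congr rfl fun G _ => mul_comm _ _

lemma II_self_left {d : V → ℕ} (f : Gr d → ℝ) (v x y : V) : II f v v x y = 0 := by
  unfold II; simp [DD_self]

lemma II_self_right {d : V → ℕ} (f : Gr d → ℝ) (v w x : V) : II f v w x x = 0 := by
  unfold II; simp [DD_self]

lemma sum_split_two (g : V → ℝ) (v w : V) (h : v ≠ w) :
    ∑ x, g x = g v + g w + ∑ x, if x ≠ v ∧ x ≠ w then g x else 0 := by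
  have e : ∀ x, g x = (if x = v then g x else 0) + (if x = w then g x else 0)
      + (if x ≠ v ∧ x ≠ w then g x else 0) := by
    intro x
    by_cases h1 : x = v
    · have h2 : x ≠ w := by rw [h1]; exact h
      simp [h1, h]
    · by_cases h2 : x = w
      · simp [h2, Ne.symm h]
      · simp [h1, h2]
  conv_lhs => rw [Finset.sum_congr rfl fun x _ => e x]
  rw [Finset.sum_add_distrib, Finset.sum_add_distrib, Finset.sum_ite_eq', Finset.sum_ite_eq']
  simp

lemma sum_sum_split (J : V → V → ℝ) (hs : ∀ x y, J x y = J y x) (h0 : ∀ x, J x x = 0) (v w : V)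
    (h : v ≠ w) : ∑ x, ∑ y, J x y = 2 * J v w
      + 2 * (∑ y, if y ≠ v ∧ y ≠ w then J v y else 0)
      + 2 * (∑ y, if y ≠ v ∧ y ≠ w then J w y else 0)
      + ∑ x, ∑ y, if (x ≠ v ∧ x ≠ w) ∧ (y ≠ v ∧ y ≠ w) then J x y else 0 := by
  rw [sum_split_two (fun x => ∑ y, J x y) v w h, sum_split_two (fun y => J v y) v w h,
    sum_split_two (fun y => J w y) v w h]
  have e1 : (∑ x, if x ≠ v ∧ x ≠ w then ∑ y, J x y else 0)
      = (∑ x, if x ≠ v ∧ x ≠ w then J x v else 0) + (∑ x, if x ≠ v ∧ x ≠ w then J x w else 0)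
        + ∑ x, ∑ y, if (x ≠ v ∧ x ≠ w) ∧ (y ≠ v ∧ y ≠ w) then J x y else 0 := by
    rw [← Finset.sum_add_distrib, ← Finset.sum_add_distrib]
    refine Finset.sum_congr rfl fun x _ => ?_
    by_cases hx : x ≠ v ∧ x ≠ w
    · rw [if_pos hx, if_pos hx, if_pos hx, sum_split_two (fun y => J x y) v w h]
      congr 1
      refine Finset.sum_congr rfl fun y _ => ?_
      by_cases hy : y ≠ v ∧ y ≠ w
      · rw [if_pos hy, if_pos ⟨hx, hy⟩]
      · rw [if_neg hy, if_neg fun h => hy h.2]
    · rw [if_neg hx, if_neg hx, if_neg hx]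
      have : ∑ y, (if (x ≠ v ∧ x ≠ w) ∧ (y ≠ v ∧ y ≠ w) then J x y else 0) = 0 :=
        Finset.sum_eq_zero fun y _ => if_neg fun h => hx h.1
      rw [this]; ring
  have e2 : (∑ x, if x ≠ v ∧ x ≠ w then J x v else 0) = ∑ y, if y ≠ v ∧ y ≠ w then J v y else 0 :=
    Finset.sum_congr rfl fun x _ => by rw [hs x v]
  have e3 : (∑ x, if x ≠ v ∧ x ≠ w then J x w else 0) = ∑ y, if y ≠ v ∧ y ≠ w then J w y else 0 :=
    Finset.sum_congr rfl fun x _ => by rw [hs x w]
  rw [e1, e2, e3, h0, h0, hs w v]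
  ring

/-- expansion of `|LL f|²` -/
lemma LL_sq {d : V → ℕ} (f : Gr d → ℝ) :
    ∑ G, LL d f G ^ 2 = ∑ v, ∑ w, ∑ x, ∑ y, II f v w x y := by
  have e1 : ∀ G, LL d f G ^ 2 = ∑ v, ∑ w, ∑ x, ∑ y, DD d v w f G * DD d x y f G := by
    intro G
    rw [LL_apply, sq, Finset.sum_mul]
    refine Finset.sum_congr rfl fun v _ => ?_
    rw [Finset.sum_mul]
    refine Finset.sum_congr rfl fun w _ => ?_
    rw [Finset.mul_sum]
    refine Finset.sum_congr rfl fun x _ => ?_
    rw [Finset.mul_sum]
  simp_rw [e1]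
  unfold II
  rw [Finset.sum_comm]
  refine Finset.sum_congr rfl fun v _ => ?_
  rw [Finset.sum_comm]
  refine Finset.sum_congr rfl fun w _ => ?_
  rw [Finset.sum_comm]
  refine Finset.sum_congr rfl fun x _ => ?_
  rw [Finset.sum_comm]

/-- assembly of the Poincare inequality from the packages. -/
theorem poincare_of {d : V → ℕ}
    (hT : ∀ v w x : V, v ≠ w → v ≠ x → w ≠ x → ∀ f : Gr d → ℝ,
      0 ≤ ∑ G, (Dav (rel v w) f G * Dav (rel v x) f G + Dav (rel v w) f G * Dav (rel w x) f G
      + Dav (rel v x) f G * Dav (rel w x) f G))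
    (hS : ∀ v w : V, v ≠ w → ∀ f : Gr d → ℝ, 2 * ∑ G, Dav (rel v w) f G ^ 2 ≤
      ∑ x, ∑ y, ∑ G, if Dist4 v w x y ∧ Opp v w x y G then
        ((f G - f (sw v w x y G)) ^ 2 / 4 - hfun (rel v w) (Opp v w x y) f G ^ 2) else 0)
    (hB : ∀ v w x y : V, Dist4 v w x y → ∀ f : Gr d → ℝ, (∑ G, if Opp v w x y G then
      ((f G - f (sw v w x y G)) ^ 2 / 2 - hfun (rel v w) (Opp v w x y) f G ^ 2
        - hfun (rel x y) (Opp v w x y) f G ^ 2) else 0) ≤
      2 * ∑ G, Dav (rel v w) f G * Dav (rel x y) f G)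
    (hC : ∀ f : Gr d → ℝ, (∀ v w, v ≠ w → ∀ G H : Gr d, rel v w G H → f G = f H) →
      ∀ G H, f G = f H)
    (f : Gr d → ℝ) :
    (Fintype.card (Gr d) : ℝ) * (∑ G, f G ^ 2) - (∑ G, f G) ^ 2 ≤
      (Fintype.card (Gr d) : ℝ) / 32 *
        ∑ v, ∑ w, ∑ x, ∑ y, ∑ G, if Dist4 v w x y then (f G - f (sw v w x y G)) ^ 2 else 0 := by
  classical
  -- quadratic form S
  set S : (Gr d → ℝ) → ℝ := fun f => ∑ v, ∑ w, ∑ G, DD d v w f G ^ 2 with hSdef
  have hDDsymm : ∀ (v w : V) (f g : Gr d → ℝ), ∑ G, f G * DD d v w g G = ∑ G, DD d v w f G * g G := by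
    intro v w f g
    by_cases h : v = w
    · subst h; simp [DD_self]
    · simp_rw [DD_of_ne h]
      exact Dav_symm _ (rel_equiv v w) f g
  have hLLsymm : ∀ f g : Gr d → ℝ, ∑ G, f G * LL d g G = ∑ G, LL d f G * g G := by
    intro f g
    simp_rw [LL_apply, Finset.mul_sum, Finset.sum_mul]
    rw [Finset.sum_comm]
    rw [Finset.sum_comm (s := (univ : Finset (Gr d)))]
    refine Finset.sum_congr rfl fun v _ => ?_
    rw [Finset.sum_comm]
    rw [Finset.sum_comm (s := (univ : Finset (Gr d)))]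
    exact Finset.sum_congr rfl fun w _ => hDDsymm v w f g
  have hLLS : ∀ f : Gr d → ℝ, ∑ G, f G * LL d f G = S f := by
    intro f
    simp_rw [LL_apply, Finset.mul_sum]
    rw [Finset.sum_comm]
    simp only [hSdef]
    refine Finset.sum_congr rfl fun v _ => ?_
    rw [Finset.sum_comm]
    refine Finset.sum_congr rfl fun w _ => ?_
    by_cases h : v = w
    · subst h; simp [DD_self]
    · simp_rw [DD_of_ne h]
      exact Dav_sq _ (rel_equiv v w) f
  -- Q
  set Q : (Gr d → ℝ) → V → V → V → V → ℝ := fun f v w x y => ∑ G, if Opp v w x y G then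
      ((f G - f (sw v w x y G)) ^ 2 / 4 - hfun (rel v w) (Opp v w x y) f G ^ 2) else 0 with hQ
  have hslice : ∀ (f : Gr d → ℝ) (v w : V), v ≠ w →
      2 * ∑ G, DD d v w f G ^ 2 ≤ ∑ x, ∑ y, if Dist4 v w x y then Q f v w x y else 0 := by
    intro f v w h
    simp_rw [DD_of_ne h]
    refine (hS v w h f).trans (le_of_eq ?_)
    refine Finset.sum_congr rfl fun x _ => Finset.sum_congr rfl fun y _ => ?_
    by_cases h4 : Dist4 v w x y
    · rw [if_pos h4]
      simp only [hQ]
      exact Finset.sum_congr rfl fun G _ => by simp [h4]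
    · rw [if_neg h4]
      exact Finset.sum_eq_zero fun G _ => if_neg fun h => h4 h.1
  -- the key inequality
  have hkey : ∀ f : Gr d → ℝ, 4 * S f ≤ ∑ G, LL d f G ^ 2 := by
    intro f
    rw [LL_sq]
    -- split for fixed v, w
    have hsplit : ∀ v w, ∑ x, ∑ y, II f v w x y = if v = w then 0 else
        (2 * II f v w v w + 2 * (∑ y, if y ≠ v ∧ y ≠ w then II f v w v y else 0)
      + 2 * (∑ y, if y ≠ v ∧ y ≠ w then II f v w w y else 0)
      + ∑ x, ∑ y, if (x ≠ v ∧ x ≠ w) ∧ (y ≠ v ∧ y ≠ w) then II f v w x y else 0) := by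
      intro v w
      by_cases h : v = w
      · rw [if_pos h]; subst h
        exact Finset.sum_eq_zero fun x _ => Finset.sum_eq_zero fun y _ => II_self_left f v x y
      · rw [if_neg h]
        exact sum_sum_split (fun x y => II f v w x y) (fun x y => (II_right f v w x y).symm)
          (fun x => II_self_right f v w x) v w h
    simp_rw [hsplit]
    -- the three parts
    have hA : ∑ v, ∑ w, (if v = w then 0 else 2 * II f v w v w) = 2 * S f := by
      simp only [hSdef]
      rw [Finset.mul_sum]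
      refine Finset.sum_congr rfl fun v _ => ?_
      rw [Finset.mul_sum]
      refine Finset.sum_congr rfl fun w _ => ?_
      by_cases h : v = w
      · subst h; simp [DD_self]
      · rw [if_neg h]
        congr 1
        unfold II
        exact Finset.sum_congr rfl fun G _ => by ring
    set T3 : V → V → V → ℝ := fun v w x => if v ≠ w ∧ v ≠ x ∧ w ≠ x then II f v w v x else 0
      with hT3
    have hB1 : ∑ v, ∑ w, (if v = w then 0 else
        2 * (∑ y, if y ≠ v ∧ y ≠ w then II f v w v y else 0)) = 2 * ∑ v, ∑ w, ∑ x, T3 v w x := by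
      rw [Finset.mul_sum]
      refine Finset.sum_congr rfl fun v _ => ?_
      rw [Finset.mul_sum]
      refine Finset.sum_congr rfl fun w _ => ?_
      by_cases h : v = w
      · rw [if_pos h]
        have : ∑ x, T3 v w x = 0 := Finset.sum_eq_zero fun x _ => by
          simp only [hT3]; exact if_neg fun h' => h'.1 h
        rw [this, mul_zero]
      · rw [if_neg h]
        congr 1
        refine Finset.sum_congr rfl fun x _ => ?_
        simp only [hT3]
        by_cases hx : x ≠ v ∧ x ≠ w
        · rw [if_pos hx, if_pos ⟨h, hx.1.symm, hx.2.symm⟩]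
        · rw [if_neg hx, if_neg fun h' => hx ⟨h'.2.1.symm, h'.2.2.symm⟩]
    have hB2 : ∑ v, ∑ w, (if v = w then 0 else
        2 * (∑ y, if y ≠ v ∧ y ≠ w then II f v w w y else 0)) = 2 * ∑ v, ∑ w, ∑ x, T3 v w x := by
      rw [← hB1, Finset.sum_comm]
      refine Finset.sum_congr rfl fun v _ => Finset.sum_congr rfl fun w _ => ?_
      by_cases h : v = w
      · rw [if_pos h, if_pos h.symm]
      · rw [if_neg h, if_neg (Ne.symm h)]
        congr 1
        refine Finset.sum_congr rfl fun y _ => ?_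
        rw [II_left]
        congr 1
        exact propext and_comm
    have htriple : 0 ≤ ∑ v, ∑ w, ∑ x, T3 v w x := by
      have h3 : 0 ≤ ∑ v, ∑ w, ∑ x, (T3 v w x + T3 w v x + T3 x v w) := by
        refine Finset.sum_nonneg fun v _ => Finset.sum_nonneg fun w _ =>
          Finset.sum_nonneg fun x _ => ?_
        by_cases h : v ≠ w ∧ v ≠ x ∧ w ≠ x
        · obtain ⟨h1, h2, h3⟩ := h
          simp only [hT3]
          rw [if_pos ⟨h1, h2, h3⟩, if_pos ⟨h1.symm, h3, h2⟩, if_pos ⟨h2.symm, h3.symm, h1⟩]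
          refine (hT v w x h1 h2 h3 f).trans (le_of_eq ?_)
          rw [Finset.sum_add_distrib, Finset.sum_add_distrib]
          have a1 : II f v w v x = ∑ G, Dav (rel v w) f G * Dav (rel v x) f G := by
            unfold II; simp_rw [DD_of_ne h1, DD_of_ne h2]
          have a2 : II f w v w x = ∑ G, Dav (rel v w) f G * Dav (rel w x) f G := by
            rw [II_left]; unfold II; simp_rw [DD_of_ne h1, DD_of_ne h3]
          have a3 : II f x v x w = ∑ G, Dav (rel v x) f G * Dav (rel w x) f G := by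
            rw [II_left, II_right]; unfold II; simp_rw [DD_of_ne h2, DD_of_ne h3]
          rw [a1, a2, a3]
        · simp only [hT3]
          rw [if_neg h, if_neg fun h' => h ⟨h'.1.symm, h'.2.2, h'.2.1⟩,
            if_neg fun h' => h ⟨h'.2.2, h'.1.symm, h'.2.1.symm⟩]
          simp
      have e1 : ∑ v, ∑ w, ∑ x, T3 w v x = ∑ v, ∑ w, ∑ x, T3 v w x := by
        rw [Finset.sum_comm]
      have e2 : ∑ v, ∑ w, ∑ x, T3 x v w = ∑ v, ∑ w, ∑ x, T3 v w x := by
        rw [Finset.sum_congr rfl fun v _ => Finset.sum_comm (f := fun w x => T3 x v w)]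
        rw [Finset.sum_comm]
      simp_rw [Finset.sum_add_distrib] at h3
      rw [e1, e2] at h3
      linarith
    -- disjoint pairs
    have hdisj : 2 * S f ≤ ∑ v, ∑ w, (if v = w then 0 else
        ∑ x, ∑ y, if (x ≠ v ∧ x ≠ w) ∧ (y ≠ v ∧ y ≠ w) then II f v w x y else 0) := by
      have e1 : ∀ v w, (if v = w then 0 else
        ∑ x, ∑ y, if (x ≠ v ∧ x ≠ w) ∧ (y ≠ v ∧ y ≠ w) then II f v w x y else 0)
          = ∑ x, ∑ y, if Dist4 v w x y then II f v w x y else 0 := by
        intro v w
        by_cases h : v = w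
        · rw [if_pos h]
          exact (Finset.sum_eq_zero fun x _ => Finset.sum_eq_zero fun y _ =>
            if_neg fun h' => h'.1 h).symm
        · rw [if_neg h]
          refine Finset.sum_congr rfl fun x _ => Finset.sum_congr rfl fun y _ => ?_
          by_cases hxy : x = y
          · subst hxy; simp [II_self_right]
          · by_cases h' : (x ≠ v ∧ x ≠ w) ∧ (y ≠ v ∧ y ≠ w)
            · rw [if_pos h', if_pos ⟨h, h'.1.1.symm, h'.2.1.symm, h'.1.2.symm, h'.2.2.symm, hxy⟩]
            · rw [if_neg h', if_neg fun h2 => h' ⟨⟨h2.2.1.symm, h2.2.2.2.1.symm⟩,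
                h2.2.2.1.symm, h2.2.2.2.2.1.symm⟩]
      simp_rw [e1]
      have e2 : ∀ v w x y, Dist4 v w x y → Q f v w x y + Q f x y v w ≤ 2 * II f v w x y := by
        intro v w x y h
        have hb := hB v w x y h f
        have a1 : II f v w x y = ∑ G, Dav (rel v w) f G * Dav (rel x y) f G := by
          unfold II
          simp_rw [DD_of_ne h.1, DD_of_ne h.2.2.2.2.2]
        rw [a1]
        refine le_trans (le_of_eq ?_) hb
        simp only [hQ]
        rw [← Finset.sum_add_distrib]
        refine Finset.sum_congr rfl fun G _ => ?_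
        by_cases ho : Opp v w x y G
        · rw [if_pos ho, if_pos ho.swap_pairs, if_pos ho, sw_pairs v w x y]
          have : (Opp x y v w : Gr d → Prop) = Opp v w x y := by
            funext G; exact propext opp_swap_pairs
          rw [this]
          ring
        · rw [if_neg ho, if_neg fun h' => ho (opp_swap_pairs.1 h'), if_neg ho]; ring
      have e3 : ∑ v, ∑ w, ∑ x, ∑ y, (if Dist4 v w x y then Q f x y v w else 0)
          = ∑ v, ∑ w, ∑ x, ∑ y, (if Dist4 v w x y then Q f v w x y else 0) := by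
        have b1 : ∀ v w x y : V, (if Dist4 v w x y then Q f x y v w else 0)
            = (if Dist4 x y v w then Q f x y v w else 0) := by
          intro v w x y
          have : Dist4 v w x y ↔ Dist4 x y v w := ⟨Dist4.swap_pairs, Dist4.swap_pairs⟩
          simp only [this]
        refine (Finset.sum_congr rfl fun v _ => Finset.sum_congr rfl fun w _ =>
          Finset.sum_congr rfl fun x _ => Finset.sum_congr rfl fun y _ => b1 v w x y).trans ?_
        -- swap (v,w) with (x,y)
        have b2 : ∀ F : V → V → V → V → ℝ, ∑ v, ∑ w, ∑ x, ∑ y, F x y v w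
            = ∑ v, ∑ w, ∑ x, ∑ y, F v w x y := by
          intro F
          calc ∑ v, ∑ w, ∑ x, ∑ y, F x y v w
              = ∑ p : V × V, ∑ q : V × V, F q.1 q.2 p.1 p.2 := by
                simp_rw [Fintype.sum_prod_type]
            _ = ∑ q : V × V, ∑ p : V × V, F q.1 q.2 p.1 p.2 := Finset.sum_comm
            _ = _ := by simp_rw [Fintype.sum_prod_type]
        exact b2 (fun v w x y => if Dist4 v w x y then Q f v w x y else 0)
      have e4 : 2 * (∑ v, ∑ w, ∑ x, ∑ y, (if Dist4 v w x y then Q f v w x y else 0))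
          ≤ 2 * (∑ v, ∑ w, ∑ x, ∑ y, (if Dist4 v w x y then II f v w x y else 0)) := by
        have c1 : ∑ v, ∑ w, ∑ x, ∑ y, ((if Dist4 v w x y then Q f v w x y else 0)
            + (if Dist4 v w x y then Q f x y v w else 0))
            ≤ ∑ v, ∑ w, ∑ x, ∑ y, 2 * (if Dist4 v w x y then II f v w x y else 0) := by
          refine Finset.sum_le_sum fun v _ => Finset.sum_le_sum fun w _ =>
            Finset.sum_le_sum fun x _ => Finset.sum_le_sum fun y _ => ?_
          by_cases h : Dist4 v w x y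
          · simp only [if_pos h]; exact e2 v w x y h
          · simp only [if_neg h]; simp
        simp_rw [Finset.sum_add_distrib, ← Finset.mul_sum] at c1
        rw [e3] at c1
        linarith
      have e5 : ∑ v, ∑ w, ∑ G, 2 * DD d v w f G ^ 2
          ≤ ∑ v, ∑ w, ∑ x, ∑ y, (if Dist4 v w x y then Q f v w x y else 0) := by
        refine Finset.sum_le_sum fun v _ => Finset.sum_le_sum fun w _ => ?_
        by_cases h : v = w
        · subst h
          have : ∑ x, ∑ y, (if Dist4 v v x y then Q f v v x y else 0) = 0 :=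
            Finset.sum_eq_zero fun x _ => Finset.sum_eq_zero fun y _ => if_neg fun h => h.1 rfl
          rw [this]
          simp [DD_self]
        · rw [← Finset.mul_sum]
          exact hslice f v w h
      have e6 : ∑ v, ∑ w, ∑ G, 2 * DD d v w f G ^ 2 = 2 * S f := by
        simp only [hSdef, Finset.mul_sum]
      linarith
    -- combine
    have hcomb : ∑ v, ∑ w, (if v = w then 0 else
        (2 * II f v w v w + 2 * (∑ y, if y ≠ v ∧ y ≠ w then II f v w v y else 0)
      + 2 * (∑ y, if y ≠ v ∧ y ≠ w then II f v w w y else 0)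
      + ∑ x, ∑ y, if (x ≠ v ∧ x ≠ w) ∧ (y ≠ v ∧ y ≠ w) then II f v w x y else 0))
      = ∑ v, ∑ w, (if v = w then 0 else 2 * II f v w v w)
        + ∑ v, ∑ w, (if v = w then 0 else
          2 * (∑ y, if y ≠ v ∧ y ≠ w then II f v w v y else 0))
        + ∑ v, ∑ w, (if v = w then 0 else
          2 * (∑ y, if y ≠ v ∧ y ≠ w then II f v w w y else 0))
        + ∑ v, ∑ w, (if v = w then 0 else
          ∑ x, ∑ y, if (x ≠ v ∧ x ≠ w) ∧ (y ≠ v ∧ y ≠ w) then II f v w x y else 0) := by
      simp_rw [← Finset.sum_add_distrib]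
      refine Finset.sum_congr rfl fun v _ => Finset.sum_congr rfl fun w _ => ?_
      by_cases h : v = w
      · simp [h]
      · simp only [if_neg h]
    rw [hcomb, hA, hB1, hB2]
    linarith
  -- kernel
  have hker : ∀ f : Gr d → ℝ, LL d f = 0 → ∀ G H, f G = f H := by
    intro f hf
    have h0 : S f = 0 := by
      rw [← hLLS, hf]; simp
    apply hC
    intro v w hvw G H hGH
    have h1 : ∑ G, DD d v w f G ^ 2 = 0 := by
      simp only [hSdef] at h0
      have a1 := (Finset.sum_eq_zero_iff_of_nonneg (fun v _ => Finset.sum_nonneg fun w _ =>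
        Finset.sum_nonneg fun G _ => sq_nonneg _)).1 h0 v (mem_univ v)
      exact (Finset.sum_eq_zero_iff_of_nonneg (fun w _ =>
        Finset.sum_nonneg fun G _ => sq_nonneg _)).1 a1 w (mem_univ w)
    have h2 : ∀ G, Dav (rel v w) f G = 0 := by
      intro G
      have := (Finset.sum_eq_zero_iff_of_nonneg (fun G _ => sq_nonneg _)).1 h1 G (mem_univ G)
      rw [DD_of_ne hvw] at this
      exact pow_eq_zero_iff (two_ne_zero) |>.1 this
    have h3 := h2 G
    have h4 := h2 H
    unfold Dav at h3 h4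
    have h5 := avg_inv _ (rel_equiv v w) f G H hGH
    linarith
  -- S ≤ W / 8
  set W : ℝ := ∑ v, ∑ w, ∑ x, ∑ y, ∑ G, (if Dist4 v w x y then (f G - f (sw v w x y G)) ^ 2 else 0)
    with hW
  have hSW : S f ≤ W / 8 := by
    have e1 : ∀ v w, 2 * ∑ G, DD d v w f G ^ 2 ≤
        ∑ x, ∑ y, ∑ G, (if Dist4 v w x y then (f G - f (sw v w x y G)) ^ 2 else 0) / 4 := by
      intro v w
      by_cases h : v = w
      · subst h
        have : ∑ G, DD d v v f G ^ 2 = 0 := Finset.sum_eq_zero fun G _ => by simp [DD_self]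
        rw [this, mul_zero]
        exact Finset.sum_nonneg fun x _ => Finset.sum_nonneg fun y _ =>
          Finset.sum_nonneg fun G _ => by
            split_ifs
            · positivity
            · simp
      · have h1 := hS v w h f
        simp_rw [DD_of_ne h]
        refine h1.trans ?_
        refine Finset.sum_le_sum fun x _ => Finset.sum_le_sum fun y _ =>
          Finset.sum_le_sum fun G _ => ?_
        by_cases h4 : Dist4 v w x y
        · by_cases ho : Opp v w x y G
          · rw [if_pos ⟨h4, ho⟩, if_pos h4]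
            have := sq_nonneg (hfun (rel v w) (Opp v w x y) f G)
            linarith
          · rw [if_neg fun h => ho h.2, if_pos h4]
            positivity
        · rw [if_neg fun h => h4 h.1, if_neg h4]; simp
    have e2 : 2 * S f ≤ W / 4 := by
      simp only [hSdef, hW]
      rw [Finset.mul_sum, Finset.sum_div]
      refine Finset.sum_le_sum fun v _ => ?_
      rw [Finset.mul_sum, Finset.sum_div]
      refine Finset.sum_le_sum fun w _ => ?_
      refine (e1 v w).trans (le_of_eq ?_)
      simp_rw [Finset.sum_div]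
    linarith
  -- conclusion
  rcases isEmpty_or_nonempty (Gr d) with hemp | hnon
  · simp [Fintype.card_eq_zero]
  · have hgap := gap_of_sq (LL d) 4 (by norm_num) hLLsymm (fun f => by
      rw [hLLS]
      exact Finset.sum_nonneg fun v _ => Finset.sum_nonneg fun w _ =>
        Finset.sum_nonneg fun G _ => sq_nonneg _) (fun f => by rw [hLLS]; exact hkey f) hker f
    rw [hLLS] at hgap
    set N : ℝ := (Fintype.card (Gr d) : ℝ) with hN
    have hN0 : 0 < N := by rw [hN]; exact_mod_cast Fintype.card_pos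
    have e1 : N * (∑ G, f G ^ 2) - (∑ G, f G) ^ 2
        = N * ∑ x, (f x - (∑ y, f y) / N) ^ 2 := by
      have : ∀ x, (f x - (∑ y, f y) / N) ^ 2
          = f x ^ 2 - 2 * ((∑ y, f y) / N) * f x + ((∑ y, f y) / N) ^ 2 := fun x => by ring
      simp_rw [this]
      rw [Finset.sum_add_distrib, Finset.sum_sub_distrib, ← Finset.mul_sum, Finset.sum_const,
        Finset.card_univ, nsmul_eq_mul, ← hN]
      field_simp
      ring
    rw [e1, div_mul_eq_mul_div, mul_div_assoc]
    exact mul_le_mul_of_nonneg_left (by linarith) hN0.le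

end Crest.Agent.SC
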