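/-
Row 299 (S0453, switch chain): definitions for the slice inequality (package S).
-/
import Mathlib

set_option autoImplicit false

namespace Crest.Agent.SC

open Finset

/-- mean of `F` over the `k`-subsets of `M` -/
noncomputable def smean {α : Type*} [DecidableEq α] (M : Finset α) (k : ℕ) (F : Finset α → ℝ) : ℝ :=
  (∑ S ∈ powersetCard k M, F S) / ((powersetCard k M).card : ℝ)

/-- mean over the `k`-subsets separating `x` and `y`, minus the mean -/
noncomputable def hslice {α : Type*} [DecidableEq α] (M : Finset α) (k : ℕ) (F : Finset α → ℝ)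
    (x y : α) : ℝ :=
  (∑ S ∈ (powersetCard k M).filter (fun S => ¬ (x ∈ S ↔ y ∈ S)), F S)
    / (((powersetCard k M).filter (fun S => ¬ (x ∈ S ↔ y ∈ S))).card : ℝ) - smean M k F

end Crest.Agent.SC
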