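/-
Package S of row 299 (S0453, switch chain): the slice inequality.
-/
import Mathlib
import Crest.Agent.SC.SDef
import Crest.Agent.SC.E

set_option autoImplicit false

namespace Crest.Agent.SC

open Finset

namespace S

variable {β : Type*} [Fintype β] [DecidableEq β] {k : ℕ}

/-- `k`-subsets of `β` -/
abbrev Om (β : Type*) (k : ℕ) := {S : Finset β // S.card = k}

/-- swap action -/
def sg (x y : β) (S : Om β k) : Om β k :=
  ⟨S.1.map (Equiv.swap x y).toEmbedding, by rw [Finset.card_map, S.2]⟩

/-- separated -/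
def sep (x y : β) (S : Om β k) : Prop := ¬ (x ∈ S.1 ↔ y ∈ S.1)

instance (x y : β) (S : Om β k) : Decidable (sep x y S) := by unfold sep; infer_instance

lemma mem_sg (x y z : β) (S : Om β k) : z ∈ (sg x y S).1 ↔ Equiv.swap x y z ∈ S.1 := by
  unfold sg
  rw [Finset.mem_map_equiv, Equiv.symm_swap]

lemma sg_sg (x y : β) (S : Om β k) : sg x y (sg x y S) = S := by
  apply Subtype.ext
  ext z
  rw [mem_sg, mem_sg, Equiv.swap_apply_self]

lemma sg_comm (x y : β) (S : Om β k) : sg x y S = sg y x S := by
  unfold sg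
  simp only [Equiv.swap_comm]

lemma sep_comm (x y : β) (S : Om β k) : sep x y S ↔ sep y x S := by
  unfold sep; tauto

lemma not_sep_self (x : β) (S : Om β k) : ¬ sep x x S := by
  unfold sep; tauto

lemma sg_of_not_sep (x y : β) (S : Om β k) (h : ¬ sep x y S) : sg x y S = S := by
  apply Subtype.ext
  ext z
  rw [mem_sg]
  unfold sep at h
  push Not at h
  by_cases hx : z = x
  · subst hx; rw [Equiv.swap_apply_left]; exact h.symm
  · by_cases hy : z = y
    · subst hy; rw [Equiv.swap_apply_right]; exact h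
    · rw [Equiv.swap_apply_of_ne_of_ne hx hy]

lemma sep_sg_self (x y : β) (S : Om β k) : sep x y (sg x y S) ↔ sep x y S := by
  unfold sep
  rw [mem_sg, mem_sg, Equiv.swap_apply_left, Equiv.swap_apply_right]
  tauto

lemma sep_sg_disj (x y z u : β) (hzx : z ≠ x) (hzy : z ≠ y) (hux : u ≠ x) (huy : u ≠ y)
    (S : Om β k) : sep z u (sg x y S) ↔ sep z u S := by
  unfold sep
  rw [mem_sg, mem_sg, Equiv.swap_apply_of_ne_of_ne hzx hzy, Equiv.swap_apply_of_ne_of_ne hux huy]

/-- one common point -/
lemma sep_sg_one (x y b : β) (hxy : x ≠ y) (hbx : b ≠ x) (hby : b ≠ y) (S : Om β k)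
    (h : sep x b S) : sep x y (sg x b S) ↔ ¬ sep x y S := by
  unfold sep at h ⊢
  rw [mem_sg, mem_sg, Equiv.swap_apply_left, Equiv.swap_apply_of_ne_of_ne hxy.symm hby.symm]
  tauto

/-- the swap as an equivalence -/
def sgE (x y : β) : Om β k ≃ Om β k := ⟨sg x y, sg x y, sg_sg x y, sg_sg x y⟩

lemma sum_sg (x y : β) (f : Om β k → ℝ) : ∑ S, f (sg x y S) = ∑ S, f S :=
  Equiv.sum_comp (sgE x y) f

/-- number of separated sets -/
noncomputable def N (β : Type*) [Fintype β] [DecidableEq β] (k : ℕ) (x y : β) : ℝ :=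
  ((univ.filter fun S : Om β k => sep x y S).card : ℝ)

/-- mean over the separated sets -/
noncomputable def hq (x y : β) (f : Om β k → ℝ) : ℝ :=
  (∑ S, if sep x y S then f S else 0) / N β k x y

/-- pair contribution -/
noncomputable def cc (f : Om β k → ℝ) (S : Om β k) (z u : β) : ℝ :=
  1/2 * (f S - f (sg z u S)) - (if sep z u S then hq z u f else 0)

lemma N_nonneg (x y : β) : 0 ≤ N β k x y := by unfold N; positivity

lemma N_pos (x y : β) (S : Om β k) (h : sep x y S) : 0 < N β k x y := by
  unfold N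
  have : 0 < (univ.filter fun S : Om β k => sep x y S).card :=
    Finset.card_pos.2 ⟨S, by simp [h]⟩
  exact_mod_cast this

lemma N_comm (x y : β) : N β k x y = N β k y x := by
  unfold N; congr 2; ext S; simp only [mem_filter, mem_univ, true_and]; exact sep_comm x y S

lemma hq_comm (x y : β) (f : Om β k → ℝ) : hq x y f = hq y x f := by
  unfold hq
  rw [N_comm]
  congr 1
  refine Finset.sum_congr rfl fun S _ => ?_
  simp only [sep_comm x y S]

lemma hq_add (x y : β) (f g : Om β k → ℝ) : hq x y (f + g) = hq x y f + hq x y g := by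
  unfold hq
  rw [← add_div, ← Finset.sum_add_distrib]
  congr 1
  refine Finset.sum_congr rfl fun S _ => ?_
  split_ifs <;> simp

lemma hq_smul (x y : β) (a : ℝ) (f : Om β k → ℝ) : hq x y (a • f) = a * hq x y f := by
  unfold hq
  rw [← mul_div_assoc, Finset.mul_sum]
  congr 1
  refine Finset.sum_congr rfl fun S _ => ?_
  split_ifs <;> simp

lemma N_mul_hq (x y : β) (f : Om β k → ℝ) : N β k x y * hq x y f = ∑ S, if sep x y S then f S else 0 := by
  unfold hq
  by_cases h : N β k x y = 0
  · rw [h, zero_mul]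
    symm
    apply Finset.sum_eq_zero
    intro S _
    by_cases hs : sep x y S
    · exact absurd h (N_pos x y S hs).ne'
    · rw [if_neg hs]
  · field_simp

lemma cc_add (f g : Om β k → ℝ) (S : Om β k) (z u : β) : cc (f + g) S z u = cc f S z u + cc g S z u := by
  unfold cc
  rw [hq_add]
  simp only [Pi.add_apply]
  split_ifs <;> ring

lemma cc_smul (a : ℝ) (f : Om β k → ℝ) (S : Om β k) (z u : β) : cc (a • f) S z u = a * cc f S z u := by
  unfold cc
  rw [hq_smul]
  simp only [Pi.smul_apply, smul_eq_mul]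
  split_ifs <;> ring

/-- the constant -/
noncomputable def CC (β : Type*) [Fintype β] : ℝ := (Fintype.card β : ℝ) ^ 2 + 2

/-- the operator -/
noncomputable def Aop (β : Type*) [Fintype β] [DecidableEq β] (k : ℕ) :
    (Om β k → ℝ) →ₗ[ℝ] (Om β k → ℝ) where
  toFun f := fun S => (∑ z, ∑ u, cc f S z u) - 2 * f S
    + CC β * ((∑ T, f T) / Fintype.card (Om β k))
  map_add' f g := by
    funext S
    simp only [Pi.add_apply, cc_add, Finset.sum_add_distrib]
    ring
  map_smul' a f := by
    funext S
    simp only [Pi.smul_apply, smul_eq_mul, cc_smul, ← Finset.mul_sum, RingHom.id_apply]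
    ring

lemma Aop_apply (f : Om β k → ℝ) (S : Om β k) : Aop β k f S = (∑ z, ∑ u, cc f S z u) - 2 * f S
    + CC β * ((∑ T, f T) / Fintype.card (Om β k)) := rfl

lemma sum_cc (f g : Om β k → ℝ) (z u : β) : ∑ S, f S * cc g S z u
    = 1/2 * (∑ S, f S * g S - ∑ S, f S * g (sg z u S)) - N β k z u * hq z u f * hq z u g := by
  rw [N_mul_hq, Finset.sum_mul, ← Finset.sum_sub_distrib, Finset.mul_sum, ← Finset.sum_sub_distrib]
  refine Finset.sum_congr rfl fun S _ => ?_
  unfold cc
  split_ifs <;> ring

lemma sum_cc_symm (f g : Om β k → ℝ) (z u : β) :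
    ∑ S, f S * cc g S z u = ∑ S, cc f S z u * g S := by
  have h1 : ∑ S, cc f S z u * g S = ∑ S, g S * cc f S z u :=
    Finset.sum_congr rfl fun S _ => mul_comm _ _
  rw [h1, sum_cc, sum_cc]
  have h2 : ∑ S, f S * g (sg z u S) = ∑ S, g S * f (sg z u S) := by
    rw [← sum_sg z u (fun S => f S * g (sg z u S))]
    refine Finset.sum_congr rfl fun S _ => ?_
    rw [sg_sg]; ring
  have h3 : ∑ S, f S * g S = ∑ S, g S * f S := Finset.sum_congr rfl fun S _ => mul_comm _ _
  rw [h2, h3]; ring

lemma Aop_symm (f g : Om β k → ℝ) : ∑ S, f S * Aop β k g S = ∑ S, Aop β k f S * g S := by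
  simp_rw [Aop_apply]
  have h1 : ∀ f g : Om β k → ℝ, ∑ S, f S * ((∑ z, ∑ u, cc g S z u) - 2 * g S
      + CC β * ((∑ T, g T) / Fintype.card (Om β k)))
      = (∑ z, ∑ u, ∑ S, f S * cc g S z u) - 2 * ∑ S, f S * g S
        + CC β * ((∑ T, f T) * (∑ T, g T)) / Fintype.card (Om β k) := by
    intro f g
    have e1 : ∑ z, ∑ u, ∑ S, f S * cc g S z u = ∑ S, f S * ∑ z, ∑ u, cc g S z u := by
      have c1 : ∀ z, ∑ u, ∑ S, f S * cc g S z u = ∑ S, ∑ u, f S * cc g S z u :=
        fun z => Finset.sum_comm
      simp_rw [c1]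
      rw [Finset.sum_comm]
      refine Finset.sum_congr rfl fun S _ => ?_
      rw [Finset.mul_sum]
      refine Finset.sum_congr rfl fun z _ => ?_
      rw [Finset.mul_sum]
    have e2 : CC β * ((∑ T, f T) * (∑ T, g T)) / Fintype.card (Om β k)
        = ∑ S, f S * (CC β * ((∑ T, g T) / Fintype.card (Om β k))) := by
      rw [← Finset.sum_mul]; ring
    rw [e1, e2, Finset.mul_sum, ← Finset.sum_sub_distrib, ← Finset.sum_add_distrib]
    refine Finset.sum_congr rfl fun S _ => by ring
  have h2 : ∑ S, ((∑ z, ∑ u, cc f S z u) - 2 * f S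
      + CC β * ((∑ T, f T) / Fintype.card (Om β k))) * g S
      = ∑ S, g S * ((∑ z, ∑ u, cc f S z u) - 2 * f S
      + CC β * ((∑ T, f T) / Fintype.card (Om β k))) :=
    Finset.sum_congr rfl fun S _ => mul_comm _ _
  rw [h2, h1, h1]
  have h3 : ∑ S, f S * g S = ∑ S, g S * f S := Finset.sum_congr rfl fun S _ => mul_comm _ _
  have h4 : ∀ z u, ∑ S, f S * cc g S z u = ∑ S, g S * cc f S z u := by
    intro z u
    rw [sum_cc_symm]
    exact Finset.sum_congr rfl fun S _ => mul_comm _ _
  simp_rw [h4]
  rw [h3]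
  ring

/-- A commutes with swaps -/
lemma cc_comp (x y : β) (f : Om β k → ℝ) (S : Om β k) (z u : β) :
    cc (fun T => f (sg x y T)) S z u = cc f (sg x y S) (Equiv.swap x y z) (Equiv.swap x y u) := by
  set σ := Equiv.swap x y with hσ
  have h1 : ∀ T : Om β k, sg x y (sg z u T) = sg (σ z) (σ u) (sg x y T) := by
    intro T
    apply Subtype.ext
    ext w
    simp only [mem_sg]
    rw [← hσ]
    have : Equiv.swap (σ z) (σ u) w = σ (Equiv.swap z u (σ w)) := by
      have h := Equiv.swap_apply_apply σ z u
      rw [h]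
      simp [hσ, Equiv.Perm.mul_apply]
    rw [this]
    have h2 : ∀ w, σ (σ w) = w := fun w => by rw [hσ, Equiv.swap_apply_self]
    rw [h2]
  have h3 : ∀ T : Om β k, sep (σ z) (σ u) (sg x y T) ↔ sep z u T := by
    intro T
    unfold sep
    rw [mem_sg, mem_sg, ← hσ]
    have h2 : ∀ w, σ (σ w) = w := fun w => by rw [hσ, Equiv.swap_apply_self]
    rw [h2, h2]
  have h4 : N β k (σ z) (σ u) = N β k z u := by
    unfold N
    congr 1
    refine Finset.card_bij' (fun T _ => sg x y T) (fun T _ => sg x y T) ?_ ?_ ?_ ?_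
    · intro T hT
      simp only [mem_filter, mem_univ, true_and] at hT ⊢
      have := h3 (sg x y T)
      rw [sg_sg] at this
      exact this.1 hT
    · intro T hT
      simp only [mem_filter, mem_univ, true_and] at hT ⊢
      exact (h3 T).2 hT
    · intro T _; exact sg_sg x y T
    · intro T _; exact sg_sg x y T
  have h5 : hq z u (fun T => f (sg x y T)) = hq (σ z) (σ u) f := by
    unfold hq
    rw [h4]
    congr 1
    rw [← sum_sg x y (fun T => if sep (σ z) (σ u) T then f T else 0)]
    refine Finset.sum_congr rfl fun T _ => ?_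
    simp only [h3]
  unfold cc
  rw [h5]
  simp only [h3, h1]

lemma Aop_comp (x y : β) (f : Om β k → ℝ) (S : Om β k) :
    Aop β k (fun T => f (sg x y T)) S = Aop β k f (sg x y S) := by
  simp only [Aop_apply, cc_comp, sum_sg]
  congr 2
  have h1 : ∀ z, ∑ u, cc f (sg x y S) (Equiv.swap x y z) (Equiv.swap x y u)
      = ∑ u, cc f (sg x y S) (Equiv.swap x y z) u :=
    fun z => Equiv.sum_comp (Equiv.swap x y) (fun u => cc f (sg x y S) (Equiv.swap x y z) u)
  simp_rw [h1]
  exact Equiv.sum_comp (Equiv.swap x y) (fun z => ∑ u, cc f (sg x y S) z u)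

/-- transitivity: a function invariant under all swaps is constant -/
lemma const_of_inv (f : Om β k → ℝ) (h : ∀ x y S, f (sg x y S) = f S) (S T : Om β k) :
    f S = f T := by
  induction hn : (S.1 \ T.1).card generalizing S with
  | zero =>
    have hsub : S.1 ⊆ T.1 := by
      rw [← Finset.sdiff_eq_empty_iff_subset]
      exact Finset.card_eq_zero.1 hn
    have : S.1 = T.1 := Finset.eq_of_subset_of_card_le hsub (by rw [S.2, T.2])
    rw [Subtype.ext this]
  | succ m ih =>
    have h1 : (S.1 \ T.1).Nonempty := Finset.card_pos.1 (by omega)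
    have h2 : (T.1 \ S.1).Nonempty := by
      apply Finset.card_pos.1
      have e1 := Finset.card_sdiff_add_card_inter S.1 T.1
      have e2 := Finset.card_sdiff_add_card_inter T.1 S.1
      rw [Finset.inter_comm] at e2
      rw [S.2] at e1
      rw [T.2] at e2
      omega
    obtain ⟨x, hx⟩ := h1
    obtain ⟨y, hy⟩ := h2
    rw [Finset.mem_sdiff] at hx hy
    have hxy : x ≠ y := by
      rintro rfl; exact hy.2 hx.1
    have h3 : (sg x y S).1 \ T.1 = (S.1 \ T.1).erase x := by
      ext z
      rw [Finset.mem_sdiff, Finset.mem_erase, Finset.mem_sdiff, mem_sg]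
      by_cases hzx : z = x
      · subst hzx
        rw [Equiv.swap_apply_left]
        simp [hy.2]
      · by_cases hzy : z = y
        · subst hzy
          simp [hy.1]
        · rw [Equiv.swap_apply_of_ne_of_ne hzx hzy]
          simp [hzx]
    rw [← h x y S]
    apply ih
    rw [h3, Finset.card_erase_of_mem (Finset.mem_sdiff.2 hx), hn]
    rfl

section anti
variable (x y : β) (hxy : x ≠ y) (F : Om β k → ℝ) (hF : ∀ S, F (sg x y S) = - F S) (m : ℝ)
  (hm : ∀ S, |F S| ≤ m)

include hF in
lemma anti_zero (S : Om β k) (h : ¬ sep x y S) : F S = 0 := by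
  have h1 := hF S
  rw [sg_of_not_sep x y S h] at h1
  linarith

include hF in
/-- disjoint or equal pair -/
lemma hq_anti_disj (z u : β) (h : ∀ S : Om β k, sep z u (sg x y S) ↔ sep z u S) : hq z u F = 0 := by
  unfold hq
  have h1 : ∑ S, (if sep z u S then F S else 0) = ∑ S, (if sep z u (sg x y S) then F (sg x y S) else 0) :=
    (sum_sg x y (fun S => if sep z u S then F S else 0)).symm
  have h2 : ∑ S, (if sep z u (sg x y S) then F (sg x y S) else 0) = - ∑ S, (if sep z u S then F S else 0) := by
    rw [← Finset.sum_neg_distrib]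
    refine Finset.sum_congr rfl fun S _ => ?_
    simp only [h, hF]
    split_ifs <;> simp
  have h3 : ∑ S, (if sep z u S then F S else 0) = 0 := by linarith
  rw [h3, zero_div]

include hxy hF hm in
/-- one common point -/
lemma hq_anti_one (b : β) (hbx : b ≠ x) (hby : b ≠ y) (hm0 : 0 ≤ m) : hq x b F ≤ m / 2 := by
  unfold hq
  by_cases hN : N β k x b = 0
  · rw [hN, div_zero]; linarith
  have hNp : 0 < N β k x b := lt_of_le_of_ne (N_nonneg x b) (Ne.symm hN)
  rw [div_le_iff₀ hNp]
  -- each separated set is either separated by x y or not; the swap x b exchanges them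
  have h1 : ∑ S : Om β k, (if sep x b S then F S else 0)
      ≤ ∑ S : Om β k, (if sep x b S ∧ sep x y S then m else 0) := by
    refine Finset.sum_le_sum fun S _ => ?_
    by_cases h : sep x b S
    · by_cases h' : sep x y S
      · rw [if_pos h, if_pos ⟨h, h'⟩]; exact (le_abs_self _).trans (hm S)
      · rw [if_pos h, if_neg (fun hh => h' hh.2), anti_zero x y F hF S h']
    · rw [if_neg h, if_neg (fun hh => h hh.1)]
  have h2 : ∑ S : Om β k, (if sep x b S ∧ sep x y S then m else 0)
      = ∑ S : Om β k, (if sep x b S ∧ ¬ sep x y S then m else 0) := by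
    rw [← sum_sg x b (fun S : Om β k => if sep x b S ∧ sep x y S then m else 0)]
    refine Finset.sum_congr rfl fun S _ => ?_
    by_cases h : sep x b S
    · have e1 : sep x b (sg x b S) := (sep_sg_self x b S).2 h
      have e2 := sep_sg_one x y b hxy hbx hby S h
      simp only [e1, h, true_and, e2]
    · have e1 : ¬ sep x b (sg x b S) := fun hh => h ((sep_sg_self x b S).1 hh)
      simp only [e1, h, false_and, if_false]
  have h3 : ∑ S : Om β k, (if sep x b S ∧ sep x y S then m else 0)
      + ∑ S : Om β k, (if sep x b S ∧ ¬ sep x y S then m else 0) = m * N β k x b := by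
    rw [← Finset.sum_add_distrib]
    unfold N
    rw [← Finset.sum_boole, Finset.mul_sum]
    refine Finset.sum_congr rfl fun S _ => ?_
    by_cases h : sep x b S
    · by_cases h' : sep x y S
      · simp [h, h']
      · simp [h, h']
    · simp [h]
  linarith

include hxy hF hm in
/-- all pair contributions at a maximum are nonnegative -/
lemma cc_nonneg (S : Om β k) (hS : F S = m) (hm0 : 0 < m) (z u : β) : 0 ≤ cc F S z u := by
  have hmax : ∀ T, F T ≤ m := fun T => (le_abs_self _).trans (hm T)
  have hsepS : sep x y S := by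
    by_contra h
    rw [anti_zero x y F hF S h] at hS
    linarith
  unfold cc
  by_cases hs : sep z u S
  · rw [if_pos hs]
    -- the one-common-point case
    have one : ∀ a a' b : β, a ≠ a' → (∀ S, F (sg a a' S) = - F S) → sep a a' S → b ≠ a → b ≠ a' →
        sep a b S → 0 ≤ 1/2 * (F S - F (sg a b S)) - hq a b F := by
      intro a a' b haa' hFa hsa hba hba' hsab
      have e1 : ¬ sep a a' (sg a b S) := fun h =>
        (sep_sg_one a a' b haa' hba hba' S hsab).1 h hsa
      have e2 : F (sg a b S) = 0 := anti_zero a a' F hFa _ e1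
      have e3 := hq_anti_one a a' haa' F hFa m hm b hba hba' hm0.le
      rw [e2, hS]; linarith
    have hFyx : ∀ S, F (sg y x S) = - F S := fun S => by rw [sg_comm]; exact hF S
    have hsyx : sep y x S := (sep_comm x y S).1 hsepS
    by_cases hzx : z = x
    · subst hzx
      by_cases huy : u = y
      · subst huy
        rw [hq_anti_disj z u F hF z u (fun S => sep_sg_self z u S)]
        linarith [hmax (sg z u S)]
      · have huz : u ≠ z := by
          rintro rfl; exact not_sep_self _ _ hs
        exact one z y u hxy hF hsepS huz huy hs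
    · by_cases hzy : z = y
      · subst hzy
        by_cases hux : u = x
        · subst hux
          rw [hq_anti_disj u z F hF z u (fun S => by
            rw [sep_comm z u, sep_comm z u]; exact sep_sg_self u z S)]
          linarith [hmax (sg z u S)]
        · have huz : u ≠ z := by
            rintro rfl; exact not_sep_self _ _ hs
          exact one z x u hxy.symm hFyx hsyx huz hux hs
      · by_cases hux : u = x
        · subst hux
          have hs' : sep u z S := (sep_comm z u S).1 hs
          have := one u y z hxy hF hsepS hzx hzy hs'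
          rw [sg_comm z u, hq_comm z u]; exact this
        · by_cases huy : u = y
          · subst huy
            have hs' : sep u z S := (sep_comm z u S).1 hs
            have := one u x z hxy.symm hFyx hsyx hzy hzx hs'
            rw [sg_comm z u, hq_comm z u]; exact this
          · rw [hq_anti_disj x y F hF z u (fun S => sep_sg_disj x y z u hzx hzy hux huy S)]
            linarith [hmax (sg z u S)]
  · rw [if_neg hs, sg_of_not_sep z u S hs]
    simp

include hF in
lemma cc_xy (S : Om β k) : cc F S x y = F S := by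
  unfold cc
  have h1 : hq x y F = 0 := hq_anti_disj x y F hF x y (fun S => sep_sg_self x y S)
  rw [h1, hF]
  split_ifs <;> ring

end anti

lemma eig_nonneg (κ : ℝ) (f : Om β k → ℝ) (hf : f ≠ 0) (h : Aop β k f = κ • f) : 0 ≤ κ := by
  by_cases hinv : ∀ x y S, f (sg x y S) = f S
  · -- constant
    have hc := const_of_inv f hinv
    obtain ⟨S, hS⟩ := Function.ne_iff.1 hf
    simp only [Pi.zero_apply, ne_eq] at hS
    have h1 := congrFun h S
    rw [Aop_apply] at h1
    simp only [Pi.smul_apply, smul_eq_mul] at h1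
    have hcardpos : (0:ℝ) < Fintype.card (Om β k) := by
      exact_mod_cast Fintype.card_pos_iff.2 ⟨S⟩
    have e1 : (∑ T, f T) / Fintype.card (Om β k) = f S := by
      rw [Finset.sum_congr rfl (fun T _ => hc T S), Finset.sum_const, nsmul_eq_mul, Finset.card_univ]
      field_simp
    have e2 : ∀ z u, cc f S z u = - (if sep z u S then f S else 0) := by
      intro z u
      unfold cc
      rw [hinv]
      by_cases hs : sep z u S
      · rw [if_pos hs, if_pos hs]
        have : hq z u f = f S := by
          unfold hq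
          rw [div_eq_iff (N_pos z u S hs).ne']
          unfold N
          rw [← Finset.sum_boole, Finset.mul_sum]
          refine Finset.sum_congr rfl fun T _ => ?_
          rw [hc T S]
          split_ifs <;> simp
        rw [this]; ring
      · rw [if_neg hs, if_neg hs]; ring
    have e3 : ∑ z : β, ∑ u : β, cc f S z u
        = - (∑ z : β, ∑ u : β, (if sep z u S then (1:ℝ) else 0)) * f S := by
      simp_rw [e2]
      rw [neg_mul, Finset.sum_mul, ← Finset.sum_neg_distrib]
      refine Finset.sum_congr rfl fun z _ => ?_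
      rw [Finset.sum_mul, ← Finset.sum_neg_distrib]
      refine Finset.sum_congr rfl fun u _ => ?_
      split_ifs <;> simp
    have e4 : ∑ z : β, ∑ u : β, (if sep z u S then (1:ℝ) else 0) ≤ (Fintype.card β : ℝ) ^ 2 := by
      calc ∑ z : β, ∑ u : β, (if sep z u S then (1:ℝ) else 0) ≤ ∑ z : β, ∑ u : β, (1:ℝ) := by
            refine Finset.sum_le_sum fun z _ => Finset.sum_le_sum fun u _ => ?_
            split_ifs <;> norm_num
        _ = (Fintype.card β : ℝ) ^ 2 := by simp [sq]
    rw [e1, e3] at h1
    set Nn := ∑ z : β, ∑ u : β, (if sep z u S then (1:ℝ) else 0)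
    have e5 : (CC β - Nn - 2) * f S = κ * f S := by linarith
    have e6 : CC β - Nn - 2 = κ := mul_right_cancel₀ hS e5
    rw [← e6]
    unfold CC
    linarith
  · push Not at hinv
    obtain ⟨x, y, S₀, hS₀⟩ := hinv
    have hxy : x ≠ y := by
      rintro rfl
      apply hS₀
      rw [sg_of_not_sep x x S₀ (not_sep_self x S₀)]
    set F : Om β k → ℝ := fun S => f S - f (sg x y S) with hFd
    have hF : ∀ S, F (sg x y S) = - F S := by
      intro S; rw [hFd]; simp only [sg_sg]; ring
    have hAF : Aop β k F = κ • F := by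
      funext S
      have e1 : F = f - (fun T => f (sg x y T)) := rfl
      have e2 : Aop β k F S = Aop β k f S - Aop β k (fun T => f (sg x y T)) S := by
        rw [e1, map_sub]; rfl
      rw [e2, Aop_comp, h]
      simp only [Pi.smul_apply, smul_eq_mul, hFd]
      ring
    -- maximum of |F|
    obtain ⟨S₁, _, hS₁⟩ := Finset.exists_max_image (univ : Finset (Om β k)) (fun S => |F S|)
      ⟨S₀, mem_univ _⟩
    set m := |F S₁| with hm
    have hmle : ∀ S, |F S| ≤ m := fun S => hS₁ S (mem_univ _)
    have hm0 : 0 < m := by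
      have h1 : 0 < |F S₀| := by
        apply abs_pos.2
        rw [hFd]
        simp only
        intro h2
        apply hS₀
        linarith
      linarith [hmle S₀]
    obtain ⟨S, hS⟩ : ∃ S, F S = m := by
      rcases abs_choice (F S₁) with h1 | h1
      · exact ⟨S₁, h1.symm⟩
      · exact ⟨sg x y S₁, by rw [hF]; exact h1.symm⟩
    have hmean : ∑ T, F T = 0 := by
      have h1 := sum_sg x y F
      simp_rw [hF] at h1
      rw [Finset.sum_neg_distrib] at h1
      linarith
    have h1 := congrFun hAF S
    rw [Aop_apply, hmean, hS] at h1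
    simp only [Pi.smul_apply, smul_eq_mul, zero_div, mul_zero, add_zero, hS] at h1
    have hcc : ∀ z u, 0 ≤ cc F S z u := fun z u => cc_nonneg x y hxy F hF m hmle S hS hm0 z u
    have hxy' : cc F S x y = m := by rw [cc_xy x y F hF, hS]
    have hyx' : cc F S y x = m := by
      rw [cc_xy y x F (fun T => by rw [sg_comm]; exact hF T), hS]
    have hsum : 2 * m ≤ ∑ z, ∑ u, cc F S z u := by
      have a1 : ∀ z, 0 ≤ ∑ u, cc F S z u := fun z => Finset.sum_nonneg fun u _ => hcc z u
      have a2 : m ≤ ∑ u, cc F S x u := by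
        rw [← hxy']
        exact Finset.single_le_sum (f := fun u => cc F S x u) (fun u _ => hcc x u) (mem_univ y)
      have a3 : m ≤ ∑ u, cc F S y u := by
        rw [← hyx']
        exact Finset.single_le_sum (f := fun u => cc F S y u) (fun u _ => hcc y u) (mem_univ x)
      have a4 : ∑ z ∈ ({x, y} : Finset β), ∑ u, cc F S z u ≤ ∑ z, ∑ u, cc F S z u :=
        Finset.sum_le_sum_of_subset_of_nonneg (Finset.subset_univ _) (fun z _ _ => a1 z)
      rw [Finset.sum_pair hxy] at a4
      linarith
    have h2 : 0 ≤ κ * m := by linarith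
    exact nonneg_of_mul_nonneg_left h2 hm0

/-- the slice inequality for mean zero functions on `k`-subsets of a finite type -/
theorem slice_core (f : Om β k → ℝ) (hf : ∑ S, f S = 0) :
    2 * ∑ S, f S ^ 2 ≤ ∑ z, ∑ u, ∑ S, (if sep z u S then
      ((f S - f (sg z u S)) ^ 2 / 4 - hq z u f ^ 2) else 0) := by
  have h1 := quad_nonneg_of_eig (Aop β k) (fun f g => Aop_symm f g)
    (fun κ f hf h => eig_nonneg κ f hf h) f
  simp_rw [Aop_apply] at h1
  rw [hf] at h1
  have e1 : ∑ S, f S * ((∑ z, ∑ u, cc f S z u) - 2 * f S + CC β * (0 / Fintype.card (Om β k)))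
      = (∑ z, ∑ u, ∑ S, f S * cc f S z u) - 2 * ∑ S, f S ^ 2 := by
    have e1 : ∑ z, ∑ u, ∑ S, f S * cc f S z u = ∑ S, f S * ∑ z, ∑ u, cc f S z u := by
      have c1 : ∀ z, ∑ u, ∑ S, f S * cc f S z u = ∑ S, ∑ u, f S * cc f S z u :=
        fun z => Finset.sum_comm
      simp_rw [c1]
      rw [Finset.sum_comm]
      refine Finset.sum_congr rfl fun S _ => ?_
      rw [Finset.mul_sum]
      refine Finset.sum_congr rfl fun z _ => ?_
      rw [Finset.mul_sum]
    rw [e1, Finset.mul_sum, ← Finset.sum_sub_distrib]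
    refine Finset.sum_congr rfl fun S _ => ?_
    rw [zero_div]; ring
  rw [e1] at h1
  have e2 : ∀ z u, ∑ S, f S * cc f S z u = ∑ S, (if sep z u S then
      ((f S - f (sg z u S)) ^ 2 / 4 - hq z u f ^ 2) else 0) := by
    intro z u
    rw [sum_cc]
    have a1 : ∑ S, (if sep z u S then ((f S - f (sg z u S)) ^ 2 / 4 - hq z u f ^ 2) else 0)
        = ∑ S, ((f S - f (sg z u S)) ^ 2 / 4)
          - ∑ S : Om β k, (if sep z u S then hq z u f ^ 2 else 0) := by
      rw [← Finset.sum_sub_distrib]
      refine Finset.sum_congr rfl fun S _ => ?_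
      by_cases hs : sep z u S
      · simp [hs]
      · simp [hs, sg_of_not_sep z u S hs]
    have a2 : ∑ S : Om β k, (if sep z u S then hq z u f ^ 2 else 0) = N β k z u * hq z u f * hq z u f := by
      unfold N
      rw [← Finset.sum_boole, Finset.sum_mul, Finset.sum_mul]
      refine Finset.sum_congr rfl fun S _ => ?_
      split_ifs <;> ring
    have a3 : ∑ S, ((f S - f (sg z u S)) ^ 2 / 4)
        = 1/4 * ((∑ S, f S * f S) + (∑ S, f (sg z u S) * f (sg z u S)) - 2 * ∑ S, f S * f (sg z u S)) := by
      rw [Finset.mul_sum, ← Finset.sum_add_distrib, ← Finset.sum_sub_distrib, Finset.mul_sum]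
      refine Finset.sum_congr rfl fun S _ => by ring
    rw [a1, a2, a3, sum_sg z u (fun S => f S * f S)]
    ring
  simp_rw [e2] at h1
  linarith

/-! ### transfer to subsets of a finset -/

section transfer
variable {α : Type*} [DecidableEq α] (M : Finset α)

/-- embedding of `k`-subsets of `↥M` -/
def io (S : Om {x // x ∈ M} k) : Finset α := S.1.map (Function.Embedding.subtype _)

lemma mem_io (S : Om {x // x ∈ M} k) (a : α) : a ∈ io M S ↔ ∃ h : a ∈ M, (⟨a, h⟩ : {x // x ∈ M}) ∈ S.1 := by
  unfold io
  rw [Finset.mem_map]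
  constructor
  · rintro ⟨b, hb, rfl⟩
    exact ⟨b.2, hb⟩
  · rintro ⟨h, hb⟩
    exact ⟨⟨a, h⟩, hb, rfl⟩

lemma mem_io' (S : Om {x // x ∈ M} k) (a : {x // x ∈ M}) : a.1 ∈ io M S ↔ a ∈ S.1 := by
  rw [mem_io]
  exact ⟨fun ⟨_, h⟩ => h, fun h => ⟨a.2, h⟩⟩

lemma sum_pc (G : Finset α → ℝ) :
    ∑ S ∈ powersetCard k M, G S = ∑ S : Om {x // x ∈ M} k, G (io M S) := by
  symm
  apply Finset.sum_bij (fun (S : Om {x // x ∈ M} k) _ => io M S)
  · intro S _
    rw [Finset.mem_powersetCard]
    constructor
    · intro a ha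
      rw [mem_io] at ha
      exact ha.1
    · unfold io; rw [Finset.card_map, S.2]
  · intro S _ T _ h
    exact Subtype.ext (Finset.map_injective _ h)
  · intro T hT
    rw [Finset.mem_powersetCard] at hT
    have h1 : (T.subtype (fun x => x ∈ M)).map (Function.Embedding.subtype _) = T :=
      Finset.subtype_map_of_mem (fun x hx => hT.1 hx)
    refine ⟨⟨T.subtype (fun x => x ∈ M), ?_⟩, mem_univ _, h1⟩
    rw [← hT.2]
    conv_rhs => rw [← h1]
    rw [Finset.card_map]
  · intro S _; rfl

lemma io_sg (x y : {x // x ∈ M}) (S : Om {x // x ∈ M} k) :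
    io M (sg x y S) = (io M S).image (Equiv.swap x.1 y.1) := by
  ext a
  have h1 : a ∈ (io M S).image (Equiv.swap x.1 y.1) ↔ Equiv.swap x.1 y.1 a ∈ io M S := by
    rw [Finset.mem_image]
    constructor
    · rintro ⟨b, hb, rfl⟩
      rw [Equiv.swap_apply_self]; exact hb
    · intro h
      exact ⟨_, h, Equiv.swap_apply_self _ _ _⟩
  rw [h1, mem_io]
  by_cases hx : a = x.1
  · subst hx
    rw [Equiv.swap_apply_left, mem_io']
    constructor
    · rintro ⟨h, h2⟩
      rw [mem_sg] at h2
      have : (⟨x.1, h⟩ : {x // x ∈ M}) = x := rfl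
      rw [this, Equiv.swap_apply_left] at h2
      exact h2
    · intro h
      refine ⟨x.2, ?_⟩
      rw [mem_sg]
      have : (⟨x.1, x.2⟩ : {x // x ∈ M}) = x := rfl
      rw [this, Equiv.swap_apply_left]
      exact h
  · by_cases hy : a = y.1
    · subst hy
      rw [Equiv.swap_apply_right, mem_io']
      constructor
      · rintro ⟨h, h2⟩
        rw [mem_sg] at h2
        have : (⟨y.1, h⟩ : {x // x ∈ M}) = y := rfl
        rw [this, Equiv.swap_apply_right] at h2
        exact h2
      · intro h
        refine ⟨y.2, ?_⟩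
        rw [mem_sg]
        have : (⟨y.1, y.2⟩ : {x // x ∈ M}) = y := rfl
        rw [this, Equiv.swap_apply_right]
        exact h
    · rw [Equiv.swap_apply_of_ne_of_ne hx hy, mem_io]
      constructor
      · rintro ⟨h, h2⟩
        refine ⟨h, ?_⟩
        rw [mem_sg, Equiv.swap_apply_of_ne_of_ne] at h2
        · exact h2
        · intro hh; exact hx (congrArg Subtype.val hh)
        · intro hh; exact hy (congrArg Subtype.val hh)
      · rintro ⟨h, h2⟩
        refine ⟨h, ?_⟩
        rw [mem_sg, Equiv.swap_apply_of_ne_of_ne]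
        · exact h2
        · intro hh; exact hx (congrArg Subtype.val hh)
        · intro hh; exact hy (congrArg Subtype.val hh)

lemma sep_io (x y : {x // x ∈ M}) (S : Om {x // x ∈ M} k) :
    sep x y S ↔ ¬ (x.1 ∈ io M S ↔ y.1 ∈ io M S) := by
  unfold sep
  rw [mem_io', mem_io']

end transfer

end S

theorem slice_ineq {α : Type*} [DecidableEq α] (M : Finset α) (k : ℕ) (F : Finset α → ℝ) :
    2 * ∑ S ∈ powersetCard k M, (F S - smean M k F) ^ 2 ≤
      ∑ x ∈ M, ∑ y ∈ M.erase x, ∑ S ∈ (powersetCard k M).filter (fun S => ¬ (x ∈ S ↔ y ∈ S)),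
        ((F S - F (S.image (Equiv.swap x y))) ^ 2 / 4 - hslice M k F x y ^ 2) := by
  set f : S.Om {x // x ∈ M} k → ℝ := fun T => F (S.io M T) - smean M k F with hf
  have hcard : ((powersetCard k M).card : ℝ) = Fintype.card (S.Om {x // x ∈ M} k) := by
    have := S.sum_pc (k := k) M (fun _ => (1:ℝ))
    simpa using this
  have hmean : ∑ T, f T = 0 := by
    rw [hf, Finset.sum_sub_distrib, ← S.sum_pc M F, Finset.sum_const, Finset.card_univ, nsmul_eq_mul,
      ← hcard]
    unfold smean
    by_cases h : ((powersetCard k M).card : ℝ) = 0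
    · have h0 : powersetCard k M = ∅ := by
        rw [← Finset.card_eq_zero]; exact_mod_cast h
      rw [h0]; simp
    · field_simp
      ring
  have hcore := S.slice_core f hmean
  have e1 : ∑ T, f T ^ 2 = ∑ T ∈ powersetCard k M, (F T - smean M k F) ^ 2 := by
    rw [S.sum_pc M (fun T => (F T - smean M k F) ^ 2)]
  rw [e1] at hcore
  refine hcore.trans (le_of_eq ?_)
  set G : α → α → ℝ := fun x y =>
    ∑ S ∈ (powersetCard k M).filter (fun S => ¬ (x ∈ S ↔ y ∈ S)),
        ((F S - F (S.image (Equiv.swap x y))) ^ 2 / 4 - hslice M k F x y ^ 2) with hG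
  have e2 : ∀ x y : {x // x ∈ M}, ∑ T : S.Om {x // x ∈ M} k, (if S.sep x y T then
      ((f T - f (S.sg x y T)) ^ 2 / 4 - S.hq x y f ^ 2) else 0) = G x.1 y.1 := by
    intro x y
    rw [hG]
    simp only
    rw [Finset.sum_filter, S.sum_pc M]
    refine Finset.sum_congr rfl fun T _ => ?_
    by_cases hs : S.sep x y T
    · have hs' := (S.sep_io M x y T).1 hs
      rw [if_pos hs, if_pos hs', hf]
      simp only
      rw [S.io_sg]
      have hh : S.hq x y f = hslice M k F x.1 y.1 := by
        have hN := S.N_pos x y T hs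
        have hNc : (((powersetCard k M).filter (fun S => ¬ (x.1 ∈ S ↔ y.1 ∈ S))).card : ℝ)
            = S.N {x // x ∈ M} k x y := by
          unfold S.N
          rw [← Finset.sum_boole, ← Finset.sum_boole, S.sum_pc M]
          refine Finset.sum_congr rfl fun T _ => ?_
          simp only [S.sep_io]
        unfold S.hq hslice
        rw [hNc, div_sub' hN.ne']
        congr 1
        rw [Finset.sum_filter, S.sum_pc M]
        unfold S.N
        rw [← Finset.sum_boole, Finset.sum_mul, ← Finset.sum_sub_distrib]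
        refine Finset.sum_congr rfl fun T _ => ?_
        simp only [S.sep_io, hf]
        split_ifs <;> ring
      rw [← hf, hh]
      ring
    · have hs' : ¬ ¬ (x.1 ∈ S.io M T ↔ y.1 ∈ S.io M T) := fun h => hs ((S.sep_io M x y T).2 h)
      rw [if_neg hs, if_neg hs']
  simp_rw [e2]
  have e3 : ∀ x ∈ M, ∑ y ∈ M.erase x, G x y = ∑ y ∈ M, G x y := by
    intro x hx
    apply Finset.sum_erase
    rw [hG]
    simp
  rw [Finset.sum_congr rfl e3, ← Finset.sum_coe_sort M]
  refine Finset.sum_congr rfl fun x _ => ?_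
  rw [← Finset.sum_coe_sort M]

end Crest.Agent.SC
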