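/-
Row 299 (S0453, switch chain), package G0 part 2: charts of the classes of `rel v w` by `k`-subsets.
-/
import Crest.Agent.SC.G0

set_option autoImplicit false

namespace Crest.Agent.SC

open Finset

variable {V : Type} [Fintype V] [DecidableEq V]

/-- `N(v) Δ N(w)` without `v, w` -/
def Mset {d : V → ℕ} (v w : V) (G : Gr d) : Finset V :=
  univ.filter fun z => z ≠ v ∧ z ≠ w ∧ G.adj v z ≠ G.adj w z

/-- the part of `Mset` adjacent to `v` -/
def Sset {d : V → ℕ} (v w : V) (G : Gr d) : Finset V :=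
  (Mset v w G).filter fun z => G.adj v z = true

theorem mem_Mset {d : V → ℕ} {v w : V} {G : Gr d} {z : V} :
    z ∈ Mset v w G ↔ z ≠ v ∧ z ≠ w ∧ G.adj v z ≠ G.adj w z := by
  unfold Mset; simp

theorem mem_Sset {d : V → ℕ} {v w : V} {G : Gr d} {z : V} :
    z ∈ Sset v w G ↔ z ∈ Mset v w G ∧ G.adj v z = true := by
  unfold Sset; simp

theorem Sset_subset {d : V → ℕ} (v w : V) (G : Gr d) : Sset v w G ⊆ Mset v w G :=
  filter_subset _ _

theorem left_notMem_Mset {d : V → ℕ} (v w : V) (G : Gr d) : v ∉ Mset v w G := by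
  rw [mem_Mset]; simp

theorem right_notMem_Mset {d : V → ℕ} (v w : V) (G : Gr d) : w ∉ Mset v w G := by
  rw [mem_Mset]; simp

theorem Mset_rel {d : V → ℕ} {v w : V} {G H : Gr d} (h : rel v w G H) :
    Mset v w G = Mset v w H := by
  ext z
  rw [mem_Mset, mem_Mset]
  refine and_congr_right fun h1 => and_congr_right fun h2 => ?_
  have := h.2.2 z h1 h2
  revert this
  cases G.adj v z <;> cases G.adj w z <;> cases H.adj v z <;> cases H.adj w z <;> simp

/-- outside `Mset` the rows of `v` agree -/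
theorem adj_left_of_notMem {d : V → ℕ} {v w : V} {G H : Gr d} (h : rel v w G H) {z : V}
    (hz : z ∉ Mset v w G) : G.adj v z = H.adj v z := by
  by_cases h1 : z = v
  · subst h1; simp
  by_cases h2 : z = w
  · subst h2; exact h.2.1
  have hz' : z ∉ Mset v w H := by rwa [← Mset_rel h]
  have e1 : G.adj v z = G.adj w z := by
    by_contra hne; exact hz (mem_Mset.2 ⟨h1, h2, hne⟩)
  have e2 : H.adj v z = H.adj w z := by
    by_contra hne; exact hz' (mem_Mset.2 ⟨h1, h2, hne⟩)
  have := h.2.2 z h1 h2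
  rw [← e1, ← e2] at this
  revert this
  cases G.adj v z <;> cases H.adj v z <;> simp

theorem adj_right_of_notMem {d : V → ℕ} {v w : V} {G H : Gr d} (h : rel v w G H) {z : V}
    (hz : z ∉ Mset v w G) : G.adj w z = H.adj w z := by
  by_cases h1 : z = v
  · subst h1; rw [G.adj_symm, H.adj_symm]; exact h.2.1
  by_cases h2 : z = w
  · subst h2; simp
  have hz' : z ∉ Mset v w H := by rwa [← Mset_rel h]
  have e1 : G.adj v z = G.adj w z := by
    by_contra hne; exact hz (mem_Mset.2 ⟨h1, h2, hne⟩)
  have e2 : H.adj v z = H.adj w z := by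
    by_contra hne; exact hz' (mem_Mset.2 ⟨h1, h2, hne⟩)
  rw [← e1, ← e2]
  exact adj_left_of_notMem h hz

theorem sum_Mset {d : V → ℕ} (v w : V) (G : Gr d) :
    ∑ q ∈ Mset v w G, (G.adj v q).toNat = (Sset v w G).card := by
  unfold Sset
  rw [card_filter]
  refine sum_congr rfl fun q _ => ?_
  cases G.adj v q <;> rfl

theorem card_Sset_rel {d : V → ℕ} {v w : V} {G H : Gr d} (h : rel v w G H) :
    (Sset v w G).card = (Sset v w H).card := by
  have h1 := G.deg_sum v
  have h2 := H.deg_sum v
  rw [← sum_add_sum_compl (Mset v w G)] at h1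
  rw [← sum_add_sum_compl (Mset v w H)] at h2
  rw [sum_Mset] at h1 h2
  have h3 : ∑ q ∈ (Mset v w G)ᶜ, (G.adj v q).toNat = ∑ q ∈ (Mset v w H)ᶜ, (H.adj v q).toNat := by
    rw [← Mset_rel h]
    refine sum_congr rfl fun q hq => ?_
    rw [adj_left_of_notMem h (by simpa using hq)]
  omega

theorem rel_ext {d : V → ℕ} {v w : V} {G H : Gr d} (h : rel v w G H)
    (hS : Sset v w G = Sset v w H) : G = H := by
  have hv : ∀ z, G.adj v z = H.adj v z := by
    intro z
    by_cases hz : z ∈ Mset v w G
    · have h1 : z ∈ Sset v w G ↔ z ∈ Sset v w H := by rw [hS]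
      rw [mem_Sset, mem_Sset, ← Mset_rel h] at h1
      simp only [hz, true_and] at h1
      cases h2 : G.adj v z <;> cases h3 : H.adj v z <;> simp_all
    · exact adj_left_of_notMem h hz
  have hw : ∀ z, G.adj w z = H.adj w z := by
    intro z
    by_cases hz : z ∈ Mset v w G
    · have hz' : z ∈ Mset v w H := by rwa [← Mset_rel h]
      have h1 := (mem_Mset.1 hz).2.2
      have h2 := (mem_Mset.1 hz').2.2
      rw [← hv z] at h2
      revert h1 h2
      cases G.adj v z <;> cases G.adj w z <;> cases H.adj w z <;> simp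
    · exact adj_right_of_notMem h hz
  apply Gr.ext_adj
  intro p q
  by_cases h1 : p = v
  · subst h1; exact hv q
  by_cases h2 : p = w
  · subst h2; exact hw q
  by_cases h3 : q = v
  · subst h3; rw [G.adj_symm, H.adj_symm]; exact hv p
  by_cases h4 : q = w
  · subst h4; rw [G.adj_symm, H.adj_symm]; exact hw p
  exact h.1 p q h1 h2 h3 h4

/-- matrix of the chart -/
def cm (v w : V) (M S : Finset V) (a : V → V → Bool) (p q : V) : Bool :=
  if p = v ∧ q ∈ M then decide (q ∈ S)
  else if q = v ∧ p ∈ M then decide (p ∈ S)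
  else if p = w ∧ q ∈ M then !decide (q ∈ S)
  else if q = w ∧ p ∈ M then !decide (p ∈ S)
  else a p q

theorem cm_v {v w : V} (hvw : v ≠ w) {M S : Finset V} (hv : v ∉ M) (a : V → V → Bool)
    (q : V) : cm v w M S a v q = if q ∈ M then decide (q ∈ S) else a v q := by
  unfold cm
  by_cases hq : q ∈ M <;> simp [hq, hv, hvw]

theorem cm_w {v w : V} (hvw : v ≠ w) {M S : Finset V} (hw : w ∉ M) (a : V → V → Bool)
    (q : V) : cm v w M S a w q = if q ∈ M then !decide (q ∈ S) else a w q := by
  unfold cm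
  by_cases hq : q ∈ M <;> simp [hq, hw, hvw.symm]

theorem cm_M {v w : V} (hvw : v ≠ w) {M S : Finset V} (hv : v ∉ M) (hw : w ∉ M)
    (a : V → V → Bool) {z : V} (hz : z ∈ M) (q : V) :
    cm v w M S a z q = if q = v then decide (z ∈ S) else if q = w then !decide (z ∈ S)
      else a z q := by
  have h1 : z ≠ v := fun h => hv (h ▸ hz)
  have h2 : z ≠ w := fun h => hw (h ▸ hz)
  unfold cm
  by_cases hq : q = v
  · simp [hq, h1, hz]
  · by_cases hq' : q = w <;> simp [hq, hq', h1, h2, hz]

theorem cm_other {v w : V} {M S : Finset V}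
    (a : V → V → Bool) {z : V} (h1 : z ≠ v) (h2 : z ≠ w) (hz : z ∉ M) (q : V) :
    cm v w M S a z q = a z q := by
  unfold cm
  simp [h1, h2, hz]

theorem cm_symm {v w : V} (hvw : v ≠ w) {M S : Finset V} (hv : v ∉ M) (hw : w ∉ M)
    (a : V → V → Bool) (ha : ∀ p q, a p q = a q p) (p q : V) :
    cm v w M S a p q = cm v w M S a q p := by
  unfold cm
  by_cases h1 : p = v
  · subst h1
    by_cases h2 : q ∈ M
    · have : q ≠ p := fun h => hv (h ▸ h2)
      simp [h2, this]
    · simp [h2, hv, hvw, ha p q]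
  · by_cases h1' : p = w
    · subst h1'
      by_cases h2 : q ∈ M
      · have h3 : q ≠ p := fun h => hw (h ▸ h2)
        have h4 : q ≠ v := fun h => hv (h ▸ h2)
        simp [h2, h1, h3, h4]
      · simp [h2, hw, h1, ha p q]
    · by_cases h5 : q = v
      · subst h5
        by_cases h6 : p ∈ M
        · simp [h6, h1]
        · simp [h6, h1, h1', hv, ha p q, hvw]
      · by_cases h7 : q = w
        · subst h7
          by_cases h6 : p ∈ M
          · simp [h6, h1, h1', h5]
          · simp [h6, h1, h1', hw, ha p q, h5]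
        · simp [h1, h1', h5, h7, ha p q]

theorem chart_valid {d : V → ℕ} {v w : V} (hvw : v ≠ w) (G : Gr d) {S : Finset V}
    (hS : S ⊆ Mset v w G) (hc : S.card = (Sset v w G).card) :
    (∀ p q, cm v w (Mset v w G) S G.1 p q = cm v w (Mset v w G) S G.1 q p) ∧
    (∀ p, cm v w (Mset v w G) S G.1 p p = false) ∧
    ∀ p, ∑ q, (cm v w (Mset v w G) S G.1 p q).toNat = d p := by
  have hv := left_notMem_Mset v w G
  have hw := right_notMem_Mset v w G
  refine ⟨cm_symm hvw hv hw G.1 G.2.1, ?_, ?_⟩
  · intro p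
    by_cases h1 : p = v
    · subst h1; rw [cm_v hvw hv]; simp [hv, G.2.2.1]
    by_cases h2 : p = w
    · subst h2; rw [cm_w hvw hw]; simp [hw, G.2.2.1]
    by_cases h3 : p ∈ Mset v w G
    · rw [cm_M hvw hv hw _ h3]; simp [h1, h2, G.2.2.1]
    · rw [cm_other _ h1 h2 h3]; exact G.2.2.1 p
  · intro p
    by_cases h1 : p = v
    · subst h1
      rw [← G.deg_sum p, ← sum_add_sum_compl (Mset p w G), ← sum_add_sum_compl (Mset p w G)
        (fun q => (G.adj p q).toNat), sum_Mset]
      congr 1
      · rw [← hc, ← inter_eq_right.2 hS, ← filter_mem_eq_inter, card_filter]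
        refine sum_congr rfl fun q hq => ?_
        rw [cm_v hvw hv, if_pos hq]
        by_cases hqS : q ∈ S
        · simp [hqS, hq]
        · simp [hqS]
      · refine sum_congr rfl fun q hq => ?_
        rw [cm_v hvw hv, if_neg (by simpa using hq)]
        rfl
    by_cases h2 : p = w
    · subst h2
      have hMw : ∑ q ∈ Mset v p G, (G.adj p q).toNat + (Sset v p G).card = (Mset v p G).card := by
        rw [← sum_Mset, ← sum_add_distrib, card_eq_sum_ones]
        refine sum_congr rfl fun q hq => ?_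
        have := (mem_Mset.1 hq).2.2
        revert this
        cases G.adj v q <;> cases G.adj p q <;> simp
      have hSw : ∑ q ∈ Mset v p G, (cm v p (Mset v p G) S G.1 p q).toNat + S.card
          = (Mset v p G).card := by
        rw [show S.card = ∑ q ∈ Mset v p G, (decide (q ∈ S)).toNat by
          rw [← inter_eq_right.2 hS, ← filter_mem_eq_inter, card_filter]
          refine sum_congr rfl fun q hq => ?_
          by_cases hqS : q ∈ S <;> simp [hqS, hq], ← sum_add_distrib, card_eq_sum_ones]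
        refine sum_congr rfl fun q hq => ?_
        rw [cm_w hvw hw, if_pos hq]
        by_cases hqS : q ∈ S <;> simp [hqS]
      rw [← G.deg_sum p, ← sum_add_sum_compl (Mset v p G), ← sum_add_sum_compl (Mset v p G)
        (fun q => (G.adj p q).toNat)]
      have h3 : ∑ q ∈ (Mset v p G)ᶜ, (cm v p (Mset v p G) S G.1 p q).toNat
          = ∑ q ∈ (Mset v p G)ᶜ, (G.adj p q).toNat := by
        refine sum_congr rfl fun q hq => ?_
        rw [cm_w hvw hw, if_neg (by simpa using hq)]
        rfl
      omega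
    by_cases h3 : p ∈ Mset v w G
    · rw [← G.deg_sum p, ← sum_add_sum_compl {v, w}, ← sum_add_sum_compl {v, w}
        (fun q => (G.adj p q).toNat)]
      congr 1
      · rw [sum_pair hvw, sum_pair hvw, cm_M hvw hv hw _ h3, cm_M hvw hv hw _ h3, if_pos rfl,
          if_neg hvw.symm, if_pos rfl]
        have := (mem_Mset.1 h3).2.2
        rw [G.adj_symm p v, G.adj_symm p w]
        revert this
        by_cases hpS : p ∈ S <;> cases G.adj v p <;> cases G.adj w p <;> simp [hpS]
      · refine sum_congr rfl fun q hq => ?_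
        simp only [mem_compl, mem_insert, mem_singleton, not_or] at hq
        rw [cm_M hvw hv hw _ h3, if_neg hq.1, if_neg hq.2]
        rfl
    · rw [← G.deg_sum p]
      refine sum_congr rfl fun q hq => ?_
      rw [cm_other _ h1 h2 h3]
      rfl

/-- the graph in the class of `G` for which `v` owns exactly `S` -/
def chart {d : V → ℕ} (v w : V) (G : Gr d) (S : Finset V) : Gr d :=
  if h : v ≠ w ∧ S ⊆ Mset v w G ∧ S.card = (Sset v w G).card then
    mkGr (cm v w (Mset v w G) S G.1) (chart_valid h.1 G h.2.1 h.2.2).1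
      (chart_valid h.1 G h.2.1 h.2.2).2.1 (chart_valid h.1 G h.2.1 h.2.2).2.2
  else G

theorem chart_adj {d : V → ℕ} {v w : V} (hvw : v ≠ w) {G : Gr d} {S : Finset V}
    (hS : S ⊆ Mset v w G) (hc : S.card = (Sset v w G).card) (p q : V) :
    (chart v w G S).adj p q = cm v w (Mset v w G) S G.1 p q := by
  unfold chart
  rw [dif_pos ⟨hvw, hS, hc⟩]
  rfl

theorem chart_rel {d : V → ℕ} {v w : V} (hvw : v ≠ w) {G : Gr d} {S : Finset V}
    (hS : S ⊆ Mset v w G) (hc : S.card = (Sset v w G).card) : rel v w G (chart v w G S) := by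
  have hv := left_notMem_Mset v w G
  have hw := right_notMem_Mset v w G
  refine ⟨?_, ?_, ?_⟩
  · intro p q h1 h2 h3 h4
    rw [chart_adj hvw hS hc]
    unfold cm
    simp [h1, h2, h3, h4, Gr.adj]
  · rw [chart_adj hvw hS hc, cm_v hvw hv, if_neg hw]; rfl
  · intro z h1 h2
    rw [chart_adj hvw hS hc, chart_adj hvw hS hc, cm_v hvw hv, cm_w hvw hw]
    by_cases hz : z ∈ Mset v w G
    · rw [if_pos hz, if_pos hz]
      have := (mem_Mset.1 hz).2.2
      revert this
      by_cases hpS : z ∈ S <;> cases G.adj v z <;> cases G.adj w z <;> simp [hpS]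
    · rw [if_neg hz, if_neg hz]; rfl

theorem Sset_chart {d : V → ℕ} {v w : V} (hvw : v ≠ w) {G : Gr d} {S : Finset V}
    (hS : S ⊆ Mset v w G) (hc : S.card = (Sset v w G).card) :
    Sset v w (chart v w G S) = S := by
  ext z
  rw [mem_Sset, ← Mset_rel (chart_rel hvw hS hc), chart_adj hvw hS hc,
    cm_v hvw (left_notMem_Mset v w G)]
  constructor
  · rintro ⟨h1, h2⟩
    rw [if_pos h1] at h2
    simpa using h2
  · intro h
    refine ⟨hS h, ?_⟩
    rw [if_pos (hS h)]
    simpa using h

theorem chart_Sset {d : V → ℕ} {v w : V} (hvw : v ≠ w) {G H : Gr d} (h : rel v w G H) :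
    chart v w G (Sset v w H) = H := by
  have hS : Sset v w H ⊆ Mset v w G := by rw [Mset_rel h]; exact Sset_subset v w H
  have hc : (Sset v w H).card = (Sset v w G).card := (card_Sset_rel h).symm
  refine rel_ext (rel_trans (rel_symm (chart_rel hvw hS hc)) h) ?_
  rw [Sset_chart hvw hS hc]

/-- sums over a class are sums over the slice -/
theorem sum_class {d : V → ℕ} {v w : V} (hvw : v ≠ w) (G : Gr d) (f : Gr d → ℝ) :
    ∑ H ∈ univ.filter (fun H => rel v w G H), f H
      = ∑ S ∈ powersetCard (Sset v w G).card (Mset v w G), f (chart v w G S) := by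
  refine sum_bij' (fun H _ => Sset v w H) (fun S _ => chart v w G S) ?_ ?_ ?_ ?_ ?_
  · intro H hH
    simp only [mem_filter, mem_univ, true_and] at hH
    rw [mem_powersetCard]
    exact ⟨by rw [Mset_rel hH]; exact Sset_subset v w H, (card_Sset_rel hH).symm⟩
  · intro S hS
    rw [mem_powersetCard] at hS
    simp only [mem_filter, mem_univ, true_and]
    exact chart_rel hvw hS.1 hS.2
  · intro H hH
    simp only [mem_filter, mem_univ, true_and] at hH
    exact chart_Sset hvw hH
  · intro S hS
    rw [mem_powersetCard] at hS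
    exact Sset_chart hvw hS.1 hS.2
  · intro H hH
    simp only [mem_filter, mem_univ, true_and] at hH
    rw [chart_Sset hvw hH]

/-- `Opp` in the chart: `x, y ∈ M` are separated by `S` -/
theorem opp_iff {d : V → ℕ} {v w x y : V} {G : Gr d} (hvw : v ≠ w) :
    (Dist4 v w x y ∧ Opp v w x y G) ↔
      x ∈ Mset v w G ∧ y ∈ Mset v w G ∧ x ≠ y ∧ ¬ (x ∈ Sset v w G ↔ y ∈ Sset v w G) := by
  rw [mem_Sset, mem_Sset, mem_Mset, mem_Mset]
  unfold Dist4 Opp
  constructor
  · rintro ⟨⟨h1, h2, h3, h4, h5, h6⟩, o1, o2, o3⟩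
    have e1 : G.adj v x ≠ G.adj w x := by rw [← o2]; exact o3
    have e2 : G.adj v y ≠ G.adj w y := by rw [← o1]; exact o3.symm
    refine ⟨⟨h2.symm, h4.symm, e1⟩, ⟨h3.symm, h5.symm, e2⟩, h6, ?_⟩
    have k1 := h2.symm
    have k2 := h3.symm
    have k3 := h4.symm
    have k4 := h5.symm
    revert o3 e1 e2
    cases G.adj v x <;> cases G.adj v y <;> simp_all
  · rintro ⟨⟨h1, h2, h3⟩, ⟨h4, h5, h6⟩, h7, h8⟩
    refine ⟨⟨hvw, h1.symm, h4.symm, h2.symm, h5.symm, h7⟩, ?_⟩
    revert h3 h6 h8
    cases G.adj v x <;> cases G.adj v y <;> cases G.adj w x <;> cases G.adj w y <;>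
      simp [h1, h2, h4, h5]

theorem Sset_sw {d : V → ℕ} {v w x y : V} {G : Gr d} (h : Dist4 v w x y)
    (ho : Opp v w x y G) : Sset v w (sw v w x y G) = (Sset v w G).image (Equiv.swap x y) := by
  obtain ⟨hx, hy, hxy, hs⟩ := (opp_iff h.1).1 ⟨h, ho⟩
  have hM : Mset v w (sw v w x y G) = Mset v w G := (Mset_rel (rel_sw v w x y G)).symm
  obtain ⟨h1, h2, h3, h4, h5, h6⟩ := id h
  obtain ⟨o1, o2, o3⟩ := id ho
  ext z
  rw [mem_Sset, hM, mem_image]
  constructor
  · rintro ⟨hz, hz'⟩
    by_cases e1 : z = x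
    · subst e1
      refine ⟨y, ?_, by simp⟩
      rw [mem_Sset]
      refine ⟨hy, ?_⟩
      rw [sw_adj_of h ho (by simp)] at hz'
      revert o3 hz'
      cases G.adj v z <;> cases G.adj v y <;> simp
    · by_cases e2 : z = y
      · subst e2
        refine ⟨x, ?_, by simp⟩
        rw [mem_Sset]
        refine ⟨hx, ?_⟩
        rw [sw_adj_of h ho (by simp)] at hz'
        revert o3 hz'
        cases G.adj v z <;> cases G.adj v x <;> simp
      · refine ⟨z, ?_, Equiv.swap_apply_of_ne_of_ne e1 e2⟩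
        rw [mem_Sset]
        refine ⟨hz, ?_⟩
        have hzv := (mem_Mset.1 hz).1
        have hzw := (mem_Mset.1 hz).2.1
        rwa [sw_adj_of_not h ho (by tauto)] at hz'
  · rintro ⟨u, hu, rfl⟩
    rw [mem_Sset] at hu
    by_cases e1 : u = x
    · subst e1
      rw [Equiv.swap_apply_left]
      refine ⟨hy, ?_⟩
      rw [sw_adj_of h ho (by simp)]
      have := hu.2
      revert o3 this
      cases G.adj v u <;> cases G.adj v y <;> simp
    · by_cases e2 : u = y
      · subst e2
        rw [Equiv.swap_apply_right]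
        refine ⟨hx, ?_⟩
        rw [sw_adj_of h ho (by simp)]
        have := hu.2
        revert o3 this
        cases G.adj v u <;> cases G.adj v x <;> simp
      · rw [Equiv.swap_apply_of_ne_of_ne e1 e2]
        refine ⟨hu.1, ?_⟩
        have hzv := (mem_Mset.1 hu.1).1
        have hzw := (mem_Mset.1 hu.1).2.1
        rw [sw_adj_of_not h ho (by tauto)]
        exact hu.2

end Crest.Agent.SC
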