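/-
Row 299 (S0453, switch chain), package SG: transfer of the slice inequality to graphs.
-/
import Crest.Agent.SC.G1
import Crest.Agent.SC.E
import Crest.Agent.SC.SDef

set_option autoImplicit false

namespace Crest.Agent.SC

open Finset

variable {V : Type} [Fintype V] [DecidableEq V]

theorem sum_class' {d : V → ℕ} {v w : V} (hvw : v ≠ w) (G : Gr d) (f : Gr d → ℝ)
    (inst : DecidablePred fun H : Gr d => rel v w G H) :
    ∑ H ∈ @filter _ (fun H => rel v w G H) inst univ, f H
      = ∑ S ∈ powersetCard (Sset v w G).card (Mset v w G), f (chart v w G S) := by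
  rw [← sum_class hvw G f]
  refine sum_congr ?_ fun _ _ => rfl
  ext H
  simp

theorem card_class {d : V → ℕ} {v w : V} (hvw : v ≠ w) (G : Gr d)
    (inst : DecidablePred fun H : Gr d => rel v w G H) :
    ((@filter _ (fun H => rel v w G H) inst univ).card : ℝ)
      = ((powersetCard (Sset v w G).card (Mset v w G)).card : ℝ) := by
  have h := sum_class' hvw G (fun _ => (1 : ℝ)) inst
  simpa using h

theorem avg_eq_smean {d : V → ℕ} {v w : V} (hvw : v ≠ w) {G H : Gr d} (h : rel v w G H)
    (f : Gr d → ℝ) :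
    avg (rel v w) f H
      = smean (Mset v w G) (Sset v w G).card (fun S => f (chart v w G S)) := by
  rw [← avg_inv (rel v w) (rel_equiv v w) f G H h]
  unfold avg smean
  rw [sum_class' hvw G f _, card_class hvw G _]

theorem opp_chart {d : V → ℕ} {v w x y : V} {G : Gr d} {S : Finset V}
    (h : Dist4 v w x y) (hS : S ∈ powersetCard (Sset v w G).card (Mset v w G)) :
    Opp v w x y (chart v w G S) ↔
      x ∈ Mset v w G ∧ y ∈ Mset v w G ∧ ¬ (x ∈ S ↔ y ∈ S) := by
  rw [mem_powersetCard] at hS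
  have h1 := opp_iff (x := x) (y := y) (G := chart v w G S) h.1
  rw [Sset_chart h.1 hS.1 hS.2, ← Mset_rel (chart_rel h.1 hS.1 hS.2)] at h1
  constructor
  · intro ho
    obtain ⟨a, b, _, c⟩ := h1.1 ⟨h, ho⟩
    exact ⟨a, b, c⟩
  · rintro ⟨a, b, c⟩
    exact (h1.2 ⟨a, b, h.2.2.2.2.2, c⟩).2

theorem hfun_eq_hslice {d : V → ℕ} {v w x y : V} {G H : Gr d} (h : Dist4 v w x y)
    (hr : rel v w G H) (hx : x ∈ Mset v w G) (hy : y ∈ Mset v w G) (f : Gr d → ℝ) :
    hfun (rel v w) (Opp v w x y) f H
      = hslice (Mset v w G) (Sset v w G).card (fun S => f (chart v w G S)) x y := by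
  unfold hfun hslice
  rw [avg_eq_smean h.1 hr f]
  have key : ∀ (g : Gr d → ℝ) (inst : DecidablePred fun K : Gr d => rel v w H K ∧ Opp v w x y K),
      ∑ K ∈ @filter _ (fun K => rel v w H K ∧ Opp v w x y K) inst univ, g K
      = ∑ S ∈ (powersetCard (Sset v w G).card (Mset v w G)).filter
          (fun S => ¬ (x ∈ S ↔ y ∈ S)), g (chart v w G S) := by
    intro g inst
    have hset : (@filter _ (fun K => rel v w H K ∧ Opp v w x y K) inst univ)
        = (univ.filter (fun K => rel v w G K)).filter (fun K => Opp v w x y K) := by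
      ext K
      simp only [mem_filter, mem_univ, true_and]
      exact and_congr_left fun _ => ⟨fun a => rel_trans hr a, fun a => rel_trans (rel_symm hr) a⟩
    rw [hset, sum_filter, sum_class' h.1 G _ _, sum_filter]
    refine sum_congr rfl fun S hS => ?_
    have := opp_chart h hS
    by_cases hs : ¬ (x ∈ S ↔ y ∈ S)
    · rw [if_pos hs, if_pos (this.2 ⟨hx, hy, hs⟩)]
    · rw [if_neg hs, if_neg (fun hh => hs (this.1 hh).2.2)]
  have h1 := key f (Classical.decPred _)
  have h2 := key (fun _ => 1) (Classical.decPred _)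
  simp only [sum_const, nsmul_eq_mul, mul_one] at h2
  rw [← h1, ← h2]
  congr!

theorem sw_chart {d : V → ℕ} {v w x y : V} {G : Gr d} {S : Finset V}
    (h : Dist4 v w x y) (hS : S ∈ powersetCard (Sset v w G).card (Mset v w G))
    (ho : Opp v w x y (chart v w G S)) :
    sw v w x y (chart v w G S) = chart v w G (S.image (Equiv.swap x y)) := by
  rw [mem_powersetCard] at hS
  have h1 : rel v w G (sw v w x y (chart v w G S)) :=
    rel_trans (chart_rel h.1 hS.1 hS.2) (rel_sw v w x y _)
  rw [← chart_Sset h.1 h1, Sset_sw h ho, Sset_chart h.1 hS.1 hS.2]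

/-- Package S' : transfer of the slice inequality to graphs -/
theorem slice_graph_of
    (slice_ineq : ∀ (M : Finset V) (k : ℕ) (F : Finset V → ℝ),
      2 * ∑ S ∈ powersetCard k M, (F S - smean M k F) ^ 2 ≤
      ∑ x ∈ M, ∑ y ∈ M.erase x, ∑ S ∈ (powersetCard k M).filter (fun S => ¬ (x ∈ S ↔ y ∈ S)),
        ((F S - F (S.image (Equiv.swap x y))) ^ 2 / 4 - hslice M k F x y ^ 2))
    {d : V → ℕ} (v w : V) (h : v ≠ w) (f : Gr d → ℝ) :
    2 * ∑ G, Dav (rel v w) f G ^ 2 ≤
      ∑ x, ∑ y, ∑ G, if Dist4 v w x y ∧ Opp v w x y G then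
        ((f G - f (sw v w x y G)) ^ 2 / 4 - hfun (rel v w) (Opp v w x y) f G ^ 2) else 0 := by
  classical
  rw [← sub_nonneg]
  have e1 : (∑ x, ∑ y, ∑ G, if Dist4 v w x y ∧ Opp v w x y G then
        ((f G - f (sw v w x y G)) ^ 2 / 4 - hfun (rel v w) (Opp v w x y) f G ^ 2) else 0)
        - 2 * ∑ G, Dav (rel v w) f G ^ 2
      = ∑ G, ((∑ x, ∑ y, if Dist4 v w x y ∧ Opp v w x y G then
        ((f G - f (sw v w x y G)) ^ 2 / 4 - hfun (rel v w) (Opp v w x y) f G ^ 2) else 0)
        - 2 * Dav (rel v w) f G ^ 2) := by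
    rw [sum_sub_distrib, mul_sum]
    congr 1
    rw [sum_comm]
    rw [sum_congr rfl fun x _ => sum_comm]
    rw [sum_comm]
    rw [sum_comm]
    rw [sum_comm]
    refine sum_congr rfl fun G _ => ?_
    rw [sum_comm]
  rw [e1]
  refine sum_nonneg_of_class (rel v w) (rel_equiv v w) _ fun G => ?_
  rw [sum_class' h G _ _]
  set M := Mset v w G with hM
  set k := (Sset v w G).card with hk
  set F : Finset V → ℝ := fun S => f (chart v w G S) with hF
  have key : ∀ S ∈ powersetCard k M, ∀ x y,
      (if Dist4 v w x y ∧ Opp v w x y (chart v w G S) then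
        ((f (chart v w G S) - f (sw v w x y (chart v w G S))) ^ 2 / 4
          - hfun (rel v w) (Opp v w x y) f (chart v w G S) ^ 2) else 0)
      = if x ∈ M then (if y ∈ M.erase x then (if ¬ (x ∈ S ↔ y ∈ S) then
          ((F S - F (S.image (Equiv.swap x y))) ^ 2 / 4 - hslice M k F x y ^ 2) else 0) else 0)
          else 0 := by
    intro S hS x y
    have hS' := mem_powersetCard.1 hS
    by_cases hc : Dist4 v w x y ∧ Opp v w x y (chart v w G S)
    · have h2 := (opp_chart hc.1 hS).1 hc.2
      rw [if_pos hc, if_pos h2.1, if_pos (mem_erase.2 ⟨hc.1.2.2.2.2.2.symm, h2.2.1⟩),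
        if_pos h2.2.2, sw_chart hc.1 hS hc.2,
        hfun_eq_hslice hc.1 (chart_rel h hS'.1 hS'.2) h2.1 h2.2.1 f]
    · rw [if_neg hc]
      by_cases hx : x ∈ M
      · rw [if_pos hx]
        by_cases hy : y ∈ M.erase x
        · rw [if_pos hy]
          rw [mem_erase] at hy
          by_cases hs : ¬ (x ∈ S ↔ y ∈ S)
          · exfalso
            apply hc
            have hx' := mem_Mset.1 hx
            have hy' := mem_Mset.1 hy.2
            have hD : Dist4 v w x y :=
              ⟨h, hx'.1.symm, hy'.1.symm, hx'.2.1.symm, hy'.2.1.symm, hy.1.symm⟩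
            exact ⟨hD, (opp_chart hD hS).2 ⟨hx, hy.2, hs⟩⟩
          · rw [if_neg hs]
        · rw [if_neg hy]
      · rw [if_neg hx]
  have key2 : ∀ S ∈ powersetCard k M, Dav (rel v w) f (chart v w G S) = F S - smean M k F := by
    intro S hS
    have hS' := mem_powersetCard.1 hS
    unfold Dav
    rw [avg_eq_smean h (chart_rel h hS'.1 hS'.2) f]
  have h3 : ∀ S ∈ powersetCard k M,
      ((∑ x, ∑ y, if Dist4 v w x y ∧ Opp v w x y (chart v w G S) then
        ((f (chart v w G S) - f (sw v w x y (chart v w G S))) ^ 2 / 4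
          - hfun (rel v w) (Opp v w x y) f (chart v w G S) ^ 2) else 0)
        - 2 * Dav (rel v w) f (chart v w G S) ^ 2)
      = (∑ x ∈ M, ∑ y ∈ M.erase x, (if ¬ (x ∈ S ↔ y ∈ S) then
          ((F S - F (S.image (Equiv.swap x y))) ^ 2 / 4 - hslice M k F x y ^ 2) else 0))
        - 2 * (F S - smean M k F) ^ 2 := by
    intro S hS
    rw [key2 S hS]
    congr 1
    rw [← sum_filter_mem_univ M]
    refine sum_congr rfl fun x _ => ?_
    by_cases hx : x ∈ M
    · rw [if_pos hx, ← sum_filter_mem_univ (M.erase x)]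
      refine sum_congr rfl fun y _ => ?_
      rw [key S hS x y, if_pos hx]
    · rw [if_neg hx]
      refine sum_eq_zero fun y _ => ?_
      rw [key S hS x y, if_neg hx]
  rw [sum_congr rfl h3, sum_sub_distrib, ← mul_sum, sub_nonneg]
  refine (slice_ineq M k F).trans (le_of_eq ?_)
  rw [sum_comm]
  refine sum_congr rfl fun x _ => ?_
  rw [sum_comm]
  refine sum_congr rfl fun y _ => ?_
  rw [sum_filter]
where
  sum_filter_mem_univ {V : Type} [Fintype V] [DecidableEq V] (M : Finset V) {g : V → ℝ} :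
      ∑ x, (if x ∈ M then g x else 0) = ∑ x ∈ M, g x := by
    simp

end Crest.Agent.SC
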