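/-
Row 299 (S0453), package T: transfer of the three-row table inequality to graphs.
-/
import Crest.Agent.SC.E
import Crest.Agent.SC.G0

set_option autoImplicit false

namespace Crest.Agent.SC

open Finset

/-! ### a general transfer lemma for averages -/

section transfer
variable {Ω Ω' : Type*} [Fintype Ω] [Fintype Ω']

theorem avg_transfer (r : Ω → Ω → Prop) (C : Ω → Prop) (r' : Ω' → Ω' → Prop)
    (e : {H // C H} ≃ Ω') (hr : ∀ H H' : {H // C H}, r' (e H) (e H') ↔ r H.1 H'.1)
    (hC : ∀ H H', C H → r H H' → C H') (f : Ω → ℝ) (H : {H // C H}) :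
    avg r f H.1 = avg r' (fun B => f (e.symm B).1) (e H) := by
  classical
  have key : ∀ g : Ω → ℝ, ∑ K ∈ univ.filter (fun K => r H.1 K), g K
      = ∑ B ∈ univ.filter (fun B => r' (e H) B), g (e.symm B).1 := by
    intro g
    symm
    refine Finset.sum_bij (fun B _ => (e.symm B).1) ?_ ?_ ?_ ?_
    · intro B hB
      rw [mem_filter] at hB ⊢
      refine ⟨mem_univ _, ?_⟩
      rw [← hr H (e.symm B), Equiv.apply_symm_apply]
      exact hB.2
    · intro B _ B' _ h
      exact e.symm.injective (Subtype.ext h)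
    · intro K hK
      rw [mem_filter] at hK
      refine ⟨e ⟨K, hC _ _ H.2 hK.2⟩, ?_, ?_⟩
      · rw [mem_filter]
        exact ⟨mem_univ _, (hr H ⟨K, _⟩).2 hK.2⟩
      · rw [Equiv.symm_apply_apply]
    · intro B _; rfl
  unfold avg
  rw [key f]
  have hc := key (fun _ => (1:ℝ))
  simp only [Finset.sum_const, nsmul_eq_mul, mul_one] at hc
  rw [hc]

open Classical in
theorem sum_transfer (C : Ω → Prop) (e : {H // C H} ≃ Ω') (g : Ω → ℝ) :
    ∑ H ∈ univ.filter (fun H => C H), g H = ∑ B, g (e.symm B).1 := by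
  symm
  refine Finset.sum_bij (fun B _ => (e.symm B).1) ?_ ?_ ?_ ?_
  · intro B _
    rw [mem_filter]
    exact ⟨mem_univ _, (e.symm B).2⟩
  · intro B _ B' _ h
    exact e.symm.injective (Subtype.ext h)
  · intro K hK
    rw [mem_filter] at hK
    exact ⟨e ⟨K, hK.2⟩, mem_univ _, by rw [Equiv.symm_apply_apply]⟩
  · intro B _; rfl

end transfer

variable {V : Type} [Fintype V] [DecidableEq V]

/-- index of a vertex in the triple -/
def idx (t : Fin 3 → V) (p : V) : Option (Fin 3) :=
  if p = t 0 then some 0 else if p = t 1 then some 1 else if p = t 2 then some 2 else none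

lemma idx_t {t : Fin 3 → V} (ht : Function.Injective t) (i : Fin 3) : idx t (t i) = some i := by
  unfold idx
  fin_cases i
  · simp
  · have : t 1 ≠ t 0 := fun h => by simpa using ht h
    simp [this]
  · have h0 : t 2 ≠ t 0 := fun h => by simpa using ht h
    have h1 : t 2 ≠ t 1 := fun h => by simpa using ht h
    simp [h0, h1]

lemma eq_of_idx {t : Fin 3 → V} {p : V} {i : Fin 3} (h : idx t p = some i) : p = t i := by
  unfold idx at h
  split_ifs at h with h0 h1 h2
  · simp only [Option.some.injEq] at h; rw [← h]; exact h0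
  · simp only [Option.some.injEq] at h; rw [← h]; exact h1
  · simp only [Option.some.injEq] at h; rw [← h]; exact h2

lemma idx_none_iff {t : Fin 3 → V} (ht : Function.Injective t) {p : V} :
    idx t p = none ↔ ∀ i, p ≠ t i := by
  constructor
  · intro h i hp
    rw [hp, idx_t ht] at h
    exact absurd h (by simp)
  · intro h
    unfold idx
    rw [if_neg (h 0), if_neg (h 1), if_neg (h 2)]

lemma sum_idx {t : Fin 3 → V} (ht : Function.Injective t) (g : V → ℕ) :
    ∑ q, g q = ∑ j, g (t j) + ∑ q, if idx t q = none then g q else 0 := by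
  have e : ∀ q, g q = (∑ j, if q = t j then g q else 0) + (if idx t q = none then g q else 0) := by
    intro q
    by_cases h : idx t q = none
    · rw [if_pos h]
      have : ∑ j, (if q = t j then g q else 0) = 0 :=
        Finset.sum_eq_zero fun j _ => if_neg ((idx_none_iff ht).1 h j)
      omega
    · rw [if_neg h]
      obtain ⟨i, hi⟩ := Option.ne_none_iff_exists'.1 h
      have hq := eq_of_idx hi
      have : ∑ j, (if q = t j then g q else 0) = g q := by
        rw [Finset.sum_eq_single i]
        · rw [if_pos hq]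
        · intro j _ hj
          rw [if_neg]
          intro h'
          exact hj (ht (h'.symm.trans hq))
        · simp
      omega
  conv_lhs => rw [Finset.sum_congr rfl fun q _ => e q]
  rw [Finset.sum_add_distrib, Finset.sum_comm]
  congr 1
  refine Finset.sum_congr rfl fun j _ => ?_
  rw [Finset.sum_ite_eq']
  simp

lemma f3a : ∀ i : Fin 3, i ≠ i + 1 := by decide
lemma f3b : ∀ i : Fin 3, i ≠ i + 2 := by decide
lemma f3c : ∀ i : Fin 3, i + 1 + 1 = i + 2 := by decide
lemma f3d : ∀ i : Fin 3, i + 1 + 2 = i := by decide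
lemma f3e : ∀ i : Fin 3, i + 2 + 1 = i := by decide
lemma f3f : ∀ i : Fin 3, i + 2 + 2 = i + 1 := by decide
lemma f3g : ∀ i j : Fin 3, j ≠ i + 1 → j ≠ i + 2 → j = i := by decide
lemma f3h : ∀ i : Fin 3, i + 1 ≠ i + 2 := by decide
lemma f3k : ∀ i : Fin 3, -(i + 1 + (i + 2)) = i := by decide

lemma f3sum (i : Fin 3) (g : Fin 3 → ℕ) : ∑ j, g j = g i + (g (i + 1) + g (i + 2)) := by
  rw [Fin.sum_univ_three]
  fin_cases i
  · simp; omega
  · simp; omega
  · simp; omega

section G
variable {d : V → ℕ}

/-- edge opposite to `t i` -/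
def oe (t : Fin 3 → V) (G : Gr d) (i : Fin 3) : Bool := G.adj (t (i + 1)) (t (i + 2))

/-- internal column from the number of internal edges and the opposite edge -/
def icol (m : ℕ) (o : Bool) : Bool := if m = 0 then false else if m = 3 then true else !o

/-- number of internal edges -/
def ic (t : Fin 3 → V) (G : Gr d) : ℕ := ∑ i, (oe t G i).toNat

/-- column sum of the internal column -/
def cc (m : ℕ) : ℕ := if m = 1 then 2 else if m = 2 then 1 else if m = 3 then 3 else 0

/-- the table of a graph -/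
def psi (t : Fin 3 → V) (G : Gr d) (i : Fin 3) (z : V) : Bool :=
  if idx t z = none then G.adj (t i) z else if z = t 0 then icol (ic t G) (oe t G i) else false

lemma bits1 : ∀ o : Fin 3 → Bool, ∀ i : Fin 3,
    (o (i + 1)).toNat + (o (i + 2)).toNat = (icol (∑ j, (o j).toNat) (o i)).toNat
      + (if 2 ≤ ∑ j, (o j).toNat then 1 else 0) := by
  decide

lemma bits2 : ∀ o : Fin 3 → Bool, ∑ i, (icol (∑ j, (o j).toNat) (o i)).toNat
    = cc (∑ j, (o j).toNat) := by
  decide

lemma bits3 : ∀ b : Fin 3 → Bool, ∀ m : Fin 4, ∑ i, (b i).toNat = cc m →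
    (∑ i, (icol m (b i)).toNat = m ∧ ∀ i, icol m (icol m (b i)) = b i) := by
  decide

lemma bits4 : ∀ o o' : Fin 3 → Bool, ∑ j, (o j).toNat = ∑ j, (o' j).toNat → ∀ i,
    (icol (∑ j, (o j).toNat) (o i) = icol (∑ j, (o' j).toNat) (o' i) ↔ o i = o' i) := by
  decide

lemma ic_lt (t : Fin 3 → V) (G : Gr d) : ic t G < 4 := by
  unfold ic
  have : ∀ o : Fin 3 → Bool, ∑ i, (o i).toNat < 4 := by decide
  exact this _

lemma adj_triple (t : Fin 3 → V) (G : Gr d) (i : Fin 3) :
    ∑ j, (G.adj (t i) (t j)).toNat = (oe t G (i + 1)).toNat + (oe t G (i + 2)).toNat := by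
  unfold oe
  fin_cases i
  · simp [Fin.sum_univ_three, G.adj_symm (t 2) (t 0)]
    try omega
  · simp [Fin.sum_univ_three, G.adj_symm (t 1) (t 0)]
    try omega
  · simp [Fin.sum_univ_three, G.adj_symm (t 2) (t 1)]
    try omega

lemma psi_row {t : Fin 3 → V} (ht : Function.Injective t) (G : Gr d) (i : Fin 3) :
    ∑ z, (psi t G i z).toNat + (if 2 ≤ ic t G then 1 else 0) = d (t i) := by
  have h10 : t 1 ≠ t 0 := fun h => by simpa using ht h
  have h20 : t 2 ≠ t 0 := fun h => by simpa using ht h
  rw [← G.deg_sum (t i), sum_idx ht, sum_idx ht (fun q => (G.adj (t i) q).toNat), adj_triple]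
  have e1 : ∑ j, (psi t G i (t j)).toNat = (icol (ic t G) (oe t G i)).toNat := by
    rw [Fin.sum_univ_three]
    unfold psi
    simp [idx_t ht, h10, h20]
  have e2 : ∑ q, (if idx t q = none then (psi t G i q).toNat else 0)
      = ∑ q, (if idx t q = none then (G.adj (t i) q).toNat else 0) := by
    refine Finset.sum_congr rfl fun q _ => ?_
    by_cases h : idx t q = none
    · simp [psi, h]
    · simp [h]
  have e3 := bits1 (oe t G) i
  rw [e1, e2]
  change _ = (icol (ic t G) (oe t G i)).toNat + (if 2 ≤ ic t G then 1 else 0) at e3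
  omega

/-- same class outside the triple -/
def relC (t : Fin 3 → V) (G H : Gr d) : Prop :=
  (∀ p q, idx t p = none → idx t q = none → G.adj p q = H.adj p q) ∧
  (∀ z, idx t z = none → ∑ i, (G.adj (t i) z).toNat = ∑ i, (H.adj (t i) z).toNat) ∧
  ic t G = ic t H

lemma relC_equiv (t : Fin 3 → V) : Equivalence (relC (d := d) t) :=
  ⟨fun _ => ⟨fun _ _ _ _ => rfl, fun _ _ => rfl, rfl⟩,
   fun h => ⟨fun p q a b => (h.1 p q a b).symm, fun z a => (h.2.1 z a).symm, h.2.2.symm⟩,
   fun h h' => ⟨fun p q a b => (h.1 p q a b).trans (h'.1 p q a b),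
     fun z a => (h.2.1 z a).trans (h'.2.1 z a), h.2.2.trans h'.2.2⟩⟩

/-- column sums of `psi` -/
lemma psi_col {t : Fin 3 → V} (G : Gr d) (z : V) :
    ∑ i, (psi t G i z).toNat = if idx t z = none then ∑ i, (G.adj (t i) z).toNat
      else if z = t 0 then cc (ic t G) else 0 := by
  by_cases h : idx t z = none
  · simp [psi, h]
  · by_cases h0 : z = t 0
    · simp only [psi, h, if_false]
      simp only [h0, if_true]
      exact bits2 (oe t G)
    · simp [psi, h, h0]

lemma psi_col_eq {t : Fin 3 → V} {G H : Gr d} (h : relC t G H) (z : V) :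
    ∑ i, (psi t G i z).toNat = ∑ i, (psi t H i z).toNat := by
  rw [psi_col, psi_col, h.2.2]
  by_cases hz : idx t z = none
  · rw [if_pos hz, if_pos hz, h.2.1 z hz]
  · rw [if_neg hz, if_neg hz]

lemma psi_row_eq {t : Fin 3 → V} (ht : Function.Injective t) {G H : Gr d} (h : relC t G H)
    (i : Fin 3) : ∑ z, (psi t G i z).toNat = ∑ z, (psi t H i z).toNat := by
  have h1 := psi_row ht G i
  have h2 := psi_row ht H i
  rw [h.2.2] at h1
  omega

/-- the table of a graph in the class of `G₀` -/
def toTab {t : Fin 3 → V} (ht : Function.Injective t) (G₀ : Gr d) (H : {H // relC t G₀ H}) :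
    Tab V (fun z => ∑ i, (psi t G₀ i z).toNat) (fun i => ∑ z, (psi t G₀ i z).toNat) :=
  ⟨psi t H.1, fun z => (psi_col_eq H.2 z).symm, fun i => (psi_row_eq ht H.2 i).symm⟩

/-- internal edges from rows -/
lemma oe_eq_of_psi {t : Fin 3 → V} (ht : Function.Injective t) {G H : Gr d} (h : ic t G = ic t H)
    (i : Fin 3) (hi : psi t G i (t 0) = psi t H i (t 0)) : oe t G i = oe t H i := by
  have h0 : idx t (t 0) ≠ none := by rw [idx_t ht]; simp
  simp only [psi, h0, if_false, if_true] at hi
  exact (bits4 (oe t G) (oe t H) h i).1 hi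

/-- the adjacency matrix rebuilt from a table -/
def newadj (t : Fin 3 → V) (G₀ : Gr d) (B : Fin 3 → V → Bool) (p q : V) : Bool :=
  match idx t p, idx t q with
  | some i, some j => if i = j then false else icol (ic t G₀) (B (-(i + j)) (t 0))
  | some i, none => B i q
  | none, some j => B j p
  | none, none => G₀.adj p q

lemma newadj_symm (t : Fin 3 → V) (G₀ : Gr d) (B : Fin 3 → V → Bool) (p q : V) :
    newadj t G₀ B p q = newadj t G₀ B q p := by
  unfold newadj
  cases hp : idx t p with
  | none => cases hq : idx t q with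
    | none => exact G₀.adj_symm p q
    | some j => rfl
  | some i => cases hq : idx t q with
    | none => rfl
    | some j =>
      simp only
      rw [add_comm j i]
      simp only [eq_comm]

lemma newadj_self (t : Fin 3 → V) (G₀ : Gr d) (B : Fin 3 → V → Bool) (p : V) :
    newadj t G₀ B p p = false := by
  unfold newadj
  cases hp : idx t p with
  | none => exact G₀.adj_self p
  | some i => simp

lemma tab_col {t : Fin 3 → V} (G₀ : Gr d)
    (B : Tab V (fun z => ∑ i, (psi t G₀ i z).toNat) (fun i => ∑ z, (psi t G₀ i z).toNat)) (z : V) :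
    ∑ i, (B.1 i z).toNat = if idx t z = none then ∑ i, (G₀.adj (t i) z).toNat
      else if z = t 0 then cc (ic t G₀) else 0 :=
  (B.2.1 z).trans (psi_col G₀ z)

lemma tab_row {t : Fin 3 → V} (G₀ : Gr d)
    (B : Tab V (fun z => ∑ i, (psi t G₀ i z).toNat) (fun i => ∑ z, (psi t G₀ i z).toNat))
    (i : Fin 3) : ∑ z, (B.1 i z).toNat = ∑ z, (psi t G₀ i z).toNat := B.2.2 i

lemma bits5 : ∀ b : Fin 3 → Bool, ∀ m : Fin 4, ∑ i, (b i).toNat = cc m → ∀ i : Fin 3,
    ∑ j, (if i = j then false else icol m (b (-(i + j)))).toNat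
      = (b i).toNat + (if 2 ≤ (m : ℕ) then 1 else 0) := by
  decide

lemma newadj_deg {t : Fin 3 → V} (ht : Function.Injective t) (G₀ : Gr d)
    (B : Tab V (fun z => ∑ i, (psi t G₀ i z).toNat) (fun i => ∑ z, (psi t G₀ i z).toNat)) (p : V) :
    ∑ q, (newadj t G₀ B.1 p q).toNat = d p := by
  have hB0 : ∑ i, (B.1 i (t 0)).toNat = cc (ic t G₀) := by
    rw [tab_col]
    simp [idx_t ht]
  rw [sum_idx ht]
  cases hp : idx t p with
  | none =>
    have e1 : ∑ j, (newadj t G₀ B.1 p (t j)).toNat = ∑ j, (G₀.adj p (t j)).toNat := by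
      have a1 : ∀ j, newadj t G₀ B.1 p (t j) = B.1 j p := by
        intro j
        unfold newadj
        rw [hp, idx_t ht]
      simp_rw [a1]
      rw [tab_col, if_pos hp]
      exact Finset.sum_congr rfl fun j _ => by rw [G₀.adj_symm]
    have e2 : ∑ q, (if idx t q = none then (newadj t G₀ B.1 p q).toNat else 0)
        = ∑ q, (if idx t q = none then (G₀.adj p q).toNat else 0) := by
      refine Finset.sum_congr rfl fun q _ => ?_
      by_cases h : idx t q = none
      · simp [newadj, h, hp]
      · simp [h]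
    rw [e1, e2, ← G₀.deg_sum p, sum_idx ht (fun q => (G₀.adj p q).toNat)]
  | some i =>
    have hpi := eq_of_idx hp
    have e1 : ∑ j, (newadj t G₀ B.1 p (t j)).toNat
        = (B.1 i (t 0)).toNat + (if 2 ≤ ic t G₀ then 1 else 0) := by
      have a1 : ∀ j, newadj t G₀ B.1 p (t j)
          = if i = j then false else icol (ic t G₀) (B.1 (-(i + j)) (t 0)) := by
        intro j
        unfold newadj
        rw [hp, idx_t ht]
      simp_rw [a1]
      exact bits5 (fun i => B.1 i (t 0)) ⟨ic t G₀, ic_lt t G₀⟩ hB0 i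
    have e2 : ∑ q, (if idx t q = none then (newadj t G₀ B.1 p q).toNat else 0)
        = ∑ q, (if idx t q = none then (B.1 i q).toNat else 0) := by
      refine Finset.sum_congr rfl fun q _ => ?_
      by_cases h : idx t q = none
      · simp [newadj, h, hp]
      · simp [h]
    have e3 : ∑ j, (B.1 i (t j)).toNat = (B.1 i (t 0)).toNat := by
      have hz : ∀ z, idx t z ≠ none → z ≠ t 0 → B.1 i z = false := by
        intro z h1 h2
        have h3 := tab_col G₀ B z
        rw [if_neg h1, if_neg h2] at h3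
        have h4 : (B.1 i z).toNat = 0 := Finset.sum_eq_zero_iff.1 h3 i (mem_univ _)
        cases hb : B.1 i z with
        | false => rfl
        | true => rw [hb] at h4; simp at h4
      have h10 : t 1 ≠ t 0 := fun h => by simpa using ht h
      have h20 : t 2 ≠ t 0 := fun h => by simpa using ht h
      rw [Fin.sum_univ_three, hz (t 1) (by rw [idx_t ht]; simp) h10,
        hz (t 2) (by rw [idx_t ht]; simp) h20]
      simp
    have e4 := tab_row G₀ B i
    rw [sum_idx ht, e3] at e4
    have e5 := psi_row ht G₀ i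
    rw [e1, e2, hpi]
    omega

/-- the graph of a table -/
def ofTab {t : Fin 3 → V} (ht : Function.Injective t) (G₀ : Gr d)
    (B : Tab V (fun z => ∑ i, (psi t G₀ i z).toNat) (fun i => ∑ z, (psi t G₀ i z).toNat)) : Gr d :=
  mkGr (newadj t G₀ B.1) (newadj_symm t G₀ B.1) (newadj_self t G₀ B.1) (newadj_deg ht G₀ B)

lemma ofTab_adj {t : Fin 3 → V} (ht : Function.Injective t) (G₀ : Gr d)
    (B : Tab V (fun z => ∑ i, (psi t G₀ i z).toNat) (fun i => ∑ z, (psi t G₀ i z).toNat))
    (p q : V) : (ofTab ht G₀ B).adj p q = newadj t G₀ B.1 p q := rfl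

lemma oe_ofTab {t : Fin 3 → V} (ht : Function.Injective t) (G₀ : Gr d)
    (B : Tab V (fun z => ∑ i, (psi t G₀ i z).toNat) (fun i => ∑ z, (psi t G₀ i z).toNat))
    (i : Fin 3) : oe t (ofTab ht G₀ B) i = icol (ic t G₀) (B.1 i (t 0)) := by
  unfold oe
  rw [ofTab_adj]
  unfold newadj
  rw [idx_t ht, idx_t ht]
  have h1 := f3h i
  have h2 := f3k i
  simp only [h1, if_false, h2]

lemma tab_col0 {t : Fin 3 → V} (ht : Function.Injective t) (G₀ : Gr d)
    (B : Tab V (fun z => ∑ i, (psi t G₀ i z).toNat) (fun i => ∑ z, (psi t G₀ i z).toNat)) :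
    ∑ i, (B.1 i (t 0)).toNat = cc (ic t G₀) := by
  rw [tab_col]
  simp [idx_t ht]

lemma ic_ofTab {t : Fin 3 → V} (ht : Function.Injective t) (G₀ : Gr d)
    (B : Tab V (fun z => ∑ i, (psi t G₀ i z).toNat) (fun i => ∑ z, (psi t G₀ i z).toNat)) :
    ic t (ofTab ht G₀ B) = ic t G₀ := by
  have h := (bits3 (fun i => B.1 i (t 0)) ⟨ic t G₀, ic_lt t G₀⟩ (tab_col0 ht G₀ B)).1
  conv_lhs => unfold ic
  simp_rw [oe_ofTab]
  exact h

lemma relC_ofTab {t : Fin 3 → V} (ht : Function.Injective t) (G₀ : Gr d)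
    (B : Tab V (fun z => ∑ i, (psi t G₀ i z).toNat) (fun i => ∑ z, (psi t G₀ i z).toNat)) :
    relC t G₀ (ofTab ht G₀ B) := by
  refine ⟨?_, ?_, (ic_ofTab ht G₀ B).symm⟩
  · intro p q hp hq
    rw [ofTab_adj]; unfold newadj; rw [hp, hq]
  · intro z hz
    have a1 : ∀ i, (ofTab ht G₀ B).adj (t i) z = B.1 i z := by
      intro i
      rw [ofTab_adj]; unfold newadj; rw [idx_t ht, hz]
    simp_rw [a1]
    rw [tab_col, if_pos hz]

lemma psi_ofTab {t : Fin 3 → V} (ht : Function.Injective t) (G₀ : Gr d)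
    (B : Tab V (fun z => ∑ i, (psi t G₀ i z).toNat) (fun i => ∑ z, (psi t G₀ i z).toNat)) :
    psi t (ofTab ht G₀ B) = B.1 := by
  funext i z
  unfold psi
  by_cases hz : idx t z = none
  · rw [if_pos hz, ofTab_adj]; unfold newadj; rw [idx_t ht, hz]
  · rw [if_neg hz]
    by_cases h0 : z = t 0
    · rw [if_pos h0, oe_ofTab, ic_ofTab, h0]
      exact (bits3 (fun i => B.1 i (t 0)) ⟨ic t G₀, ic_lt t G₀⟩ (tab_col0 ht G₀ B)).2 i
    · rw [if_neg h0]
      have h3 := tab_col G₀ B z
      rw [if_neg hz, if_neg h0] at h3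
      have h4 : (B.1 i z).toNat = 0 := Finset.sum_eq_zero_iff.1 h3 i (mem_univ _)
      cases hb : B.1 i z with
      | false => rfl
      | true => rw [hb] at h4; simp at h4

lemma adj_triple_of_oe {t : Fin 3 → V} {G H : Gr d} (h : ∀ i, oe t G i = oe t H i) (i j : Fin 3) :
    G.adj (t i) (t j) = H.adj (t i) (t j) := by
  have h0 := h 0
  have h1 := h 1
  have h2 := h 2
  unfold oe at h0 h1 h2
  fin_cases i <;> fin_cases j
  · simp
  · simpa using h2
  · rw [G.adj_symm, H.adj_symm]; simpa using h1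
  · rw [G.adj_symm, H.adj_symm]; simpa using h2
  · simp
  · simpa using h0
  · simpa using h1
  · rw [G.adj_symm, H.adj_symm]; simpa using h0
  · simp

lemma toTab_injective {t : Fin 3 → V} (ht : Function.Injective t) (G₀ : Gr d) :
    Function.Injective (toTab ht G₀) := by
  intro H H' h
  have hpsi : psi t H.1 = psi t H'.1 := congrArg Subtype.val h
  have hic : ic t H.1 = ic t H'.1 := H.2.2.2.symm.trans H'.2.2.2
  have hoe : ∀ i, oe t H.1 i = oe t H'.1 i := fun i =>
    oe_eq_of_psi ht hic i (congrFun (congrFun hpsi i) (t 0))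
  have hrow : ∀ i z, idx t z = none → H.1.adj (t i) z = H'.1.adj (t i) z := by
    intro i z hz
    have := congrFun (congrFun hpsi i) z
    simpa [psi, hz] using this
  apply Subtype.ext
  apply Gr.ext_adj
  intro p q
  cases hp : idx t p with
  | none => cases hq : idx t q with
    | none => rw [← H.2.1 p q hp hq, H'.2.1 p q hp hq]
    | some j =>
      rw [eq_of_idx hq, H.1.adj_symm, H'.1.adj_symm]
      exact hrow j p hp
  | some i => cases hq : idx t q with
    | none => rw [eq_of_idx hp]; exact hrow i q hq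
    | some j => rw [eq_of_idx hp, eq_of_idx hq]; exact adj_triple_of_oe hoe i j

lemma toTab_surjective {t : Fin 3 → V} (ht : Function.Injective t) (G₀ : Gr d) :
    Function.Surjective (toTab ht G₀) := by
  intro B
  exact ⟨⟨ofTab ht G₀ B, relC_ofTab ht G₀ B⟩, Subtype.ext (psi_ofTab ht G₀ B)⟩

/-- the bijection between a class and the tables -/
noncomputable def tabEquiv {t : Fin 3 → V} (ht : Function.Injective t) (G₀ : Gr d) :
    {H // relC t G₀ H} ≃
      Tab V (fun z => ∑ i, (psi t G₀ i z).toNat) (fun i => ∑ z, (psi t G₀ i z).toNat) :=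
  Equiv.ofBijective (toTab ht G₀) ⟨toTab_injective ht G₀, toTab_surjective ht G₀⟩

/-- the relation `rel (t (i+1)) (t (i+2))` refines `relC` -/
lemma relC_of_rel {t : Fin 3 → V} (ht : Function.Injective t) (i : Fin 3) {G H : Gr d}
    (h : rel (t (i + 1)) (t (i + 2)) G H) : relC t G H := by
  obtain ⟨h1, h2, h3⟩ := h
  have hout : ∀ p, idx t p = none → ∀ j, p ≠ t j := fun p hp => (idx_none_iff ht).1 hp
  have hne1 := f3a i
  have hne2 := f3b i
  have hz3 := f3sum i
  refine ⟨?_, ?_, ?_⟩
  · intro p q hp hq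
    exact h1 p q (hout p hp _) (hout p hp _) (hout q hq _) (hout q hq _)
  · intro z hz
    rw [hz3, hz3]
    have a := h3 z (hout z hz _) (hout z hz _)
    have b := h1 (t i) z (fun h => hne1 (ht h)) (fun h => hne2 (ht h)) (hout z hz _) (hout z hz _)
    rw [b]; omega
  · unfold ic
    rw [hz3, hz3]
    have a := h3 (t i) (fun h => hne1 (ht h)) (fun h => hne2 (ht h))
    have b : oe t G i = oe t H i := h2
    have c1 : ∀ K : Gr d, (oe t K (i + 1)).toNat = (K.adj (t (i + 2)) (t i)).toNat := by
      intro K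
      unfold oe
      rw [f3c, f3d]
    have c2 : ∀ K : Gr d, (oe t K (i + 2)).toNat = (K.adj (t (i + 1)) (t i)).toNat := by
      intro K
      unfold oe
      rw [f3e, f3f, K.adj_symm]
    rw [b, c1, c1, c2, c2]
    omega

lemma rel_iff_relT {t : Fin 3 → V} (ht : Function.Injective t) (G₀ : Gr d) (i : Fin 3)
    (H H' : {H // relC t G₀ H}) :
    relT i (tabEquiv ht G₀ H) (tabEquiv ht G₀ H') ↔ rel (t (i + 1)) (t (i + 2)) H.1 H'.1 := by
  have hout : ∀ p, idx t p = none → ∀ j, p ≠ t j := fun p hp => (idx_none_iff ht).1 hp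
  have hne1 := f3a i
  have hne2 := f3b i
  have hz3 := f3sum i
  have hic : ic t H.1 = ic t H'.1 := H.2.2.2.symm.trans H'.2.2.2
  have hcls : relC t H.1 H'.1 := (relC_equiv t).trans ((relC_equiv t).symm H.2) H'.2
  have hcases : ∀ p, p ≠ t (i + 1) → p ≠ t (i + 2) → idx t p = none ∨ p = t i := by
    intro p h1 h2
    cases hp : idx t p with
    | none => left; rfl
    | some j =>
      right
      have hj := eq_of_idx hp
      have : j = i := by
        have a1 : j ≠ i + 1 := fun h => h1 (by rw [hj, h])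
        have a2 : j ≠ i + 2 := fun h => h2 (by rw [hj, h])
        exact f3g i j a1 a2
      rw [hj, this]
  constructor
  · intro h
    have hrow : ∀ z, psi t H.1 i z = psi t H'.1 i z := h
    have hoe : oe t H.1 i = oe t H'.1 i := oe_eq_of_psi ht hic i (hrow (t 0))
    have hadj : ∀ z, idx t z = none → H.1.adj (t i) z = H'.1.adj (t i) z := by
      intro z hz
      have := hrow z
      simpa [psi, hz] using this
    refine ⟨?_, hoe, ?_⟩
    · intro p q hp1 hp2 hq1 hq2
      rcases hcases p hp1 hp2 with hp | hp <;> rcases hcases q hq1 hq2 with hq | hq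
      · exact hcls.1 p q hp hq
      · rw [hq, H.1.adj_symm, H'.1.adj_symm]; exact hadj p hp
      · rw [hp]; exact hadj q hq
      · rw [hp, hq]; simp
    · intro z hz1 hz2
      rcases hcases z hz1 hz2 with hz | hz
      · have a := hcls.2.1 z hz
        rw [hz3, hz3, hadj z hz] at a
        omega
      · rw [hz]
        have c1 : ∀ K : Gr d, (oe t K (i + 1)).toNat = (K.adj (t (i + 2)) (t i)).toNat := by
          intro K
          unfold oe
          rw [f3c, f3d]
        have c2 : ∀ K : Gr d, (oe t K (i + 2)).toNat = (K.adj (t (i + 1)) (t i)).toNat := by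
          intro K
          unfold oe
          rw [f3e, f3f, K.adj_symm]
        have a := hic
        unfold ic at a
        rw [hz3, hz3, hoe, c1, c1, c2, c2] at a
        omega
  · intro h
    show ∀ z, psi t H.1 i z = psi t H'.1 i z
    intro z
    unfold psi
    by_cases hz : idx t z = none
    · rw [if_pos hz, if_pos hz]
      exact h.1 (t i) z (fun h => hne1 (ht h)) (fun h => hne2 (ht h)) (hout z hz _) (hout z hz _)
    · rw [if_neg hz, if_neg hz, hic]
      have : oe t H.1 i = oe t H'.1 i := h.2.1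
      rw [this]

/-- transfer of the table inequality -/
theorem triple_of_table
    (htab : ∀ (J : Type) [Fintype J] [DecidableEq J] (c : J → ℕ) (r : Fin 3 → ℕ)
      (f : Tab J c r → ℝ),
      0 ≤ ∑ B, (Dav (relT 0) f B * Dav (relT 1) f B + Dav (relT 0) f B * Dav (relT 2) f B
      + Dav (relT 1) f B * Dav (relT 2) f B))
    (v w x : V) (h1 : v ≠ w) (h2 : v ≠ x) (h3 : w ≠ x) (f : Gr d → ℝ) :
    0 ≤ ∑ G, (Dav (rel v w) f G * Dav (rel v x) f G + Dav (rel v w) f G * Dav (rel w x) f G
      + Dav (rel v x) f G * Dav (rel w x) f G) := by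
  classical
  set t : Fin 3 → V := ![v, w, x] with htdef
  have ht : Function.Injective t := by
    intro i j hij
    fin_cases i <;> fin_cases j <;> simp_all [htdef]
  refine sum_nonneg_of_class (relC t) (relC_equiv t) _ fun G₀ => ?_
  rw [sum_transfer (fun H => relC t G₀ H) (tabEquiv ht G₀)]
  have htr : ∀ (i : Fin 3) (B : Tab V (fun z => ∑ i, (psi t G₀ i z).toNat)
      (fun i => ∑ z, (psi t G₀ i z).toNat)),
      Dav (rel (t (i + 1)) (t (i + 2))) f ((tabEquiv ht G₀).symm B).1
        = Dav (relT i) (fun B => f ((tabEquiv ht G₀).symm B).1) B := by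
    intro i B
    unfold Dav
    rw [avg_transfer (rel (t (i + 1)) (t (i + 2))) (fun H => relC t G₀ H) (relT i)
      (tabEquiv ht G₀) (rel_iff_relT ht G₀ i)
      (fun H H' hH hr => (relC_equiv t).trans hH (relC_of_rel ht i hr)) f
      ((tabEquiv ht G₀).symm B), Equiv.apply_symm_apply]
  have t0 := htr 0
  have t1 := htr 1
  have t2 := htr 2
  have r0 : (rel (t (0 + 1)) (t (0 + 2)) : Gr d → Gr d → Prop) = rel w x := by
    simp [htdef]
  have r1 : (rel (t (1 + 1)) (t (1 + 2)) : Gr d → Gr d → Prop) = rel v x := by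
    have : (rel (t (1 + 1)) (t (1 + 2)) : Gr d → Gr d → Prop) = rel x v := by
      have e1 : (1 + 1 : Fin 3) = 2 := by decide
      have e2 : (1 + 2 : Fin 3) = 0 := by decide
      rw [e1, e2]; simp [htdef]
    rw [this]
    funext G H
    exact propext rel_comm
  have r2 : (rel (t (2 + 1)) (t (2 + 2)) : Gr d → Gr d → Prop) = rel v w := by
    have e1 : (2 + 1 : Fin 3) = 0 := by decide
    have e2 : (2 + 2 : Fin 3) = 1 := by decide
    rw [e1, e2]; simp [htdef]
  rw [r0] at t0
  rw [r1] at t1
  rw [r2] at t2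
  simp_rw [t0, t1, t2]
  refine (htab V _ _ (fun B => f ((tabEquiv ht G₀).symm B).1)).trans (le_of_eq ?_)
  exact Finset.sum_congr rfl fun B _ => by ring

end G

end Crest.Agent.SC
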