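/-
Row 299 (S0453, switch chain), package W1: the three-row table inequality.
-/
import Crest.Agent.SC.Basic
import Crest.Agent.SC.E

set_option autoImplicit false
set_option linter.unusedSectionVars false
set_option linter.style.haveILetI false

namespace Crest.Agent.SC

open Finset

namespace W1

variable {J : Type} [Fintype J] [DecidableEq J] {c : J → ℕ} {r : Fin 3 → ℕ}

theorem tab_ext {B B' : Tab J c r} (h : ∀ l z, B.1 l z = B'.1 l z) : B = B' :=
  Subtype.ext (funext fun l => funext fun z => h l z)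

theorem sum3 {M : Type*} [AddCommMonoid M] {i j k : Fin 3} (hij : i ≠ j) (hik : i ≠ k)
    (hjk : j ≠ k) (F : Fin 3 → M) : ∑ l, F l = F i + F j + F k := by
  have h : (univ : Finset (Fin 3)) = {i, j, k} := by
    revert i j k; decide
  rw [h, sum_insert (by simp [hij, hik]), sum_insert (by simp [hjk]), sum_singleton, add_assoc]

/-- swap the columns `a`, `b` in the rows belonging to `P` -/
def swRaw (P : Finset (Fin 3)) (a b : J) (M : Fin 3 → J → Bool) : Fin 3 → J → Bool :=
  fun l z => if l ∈ P then M l (Equiv.swap a b z) else M l z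

theorem swRaw_ok (P : Finset (Fin 3)) (a b : J) (B : Tab J c r)
    (h : ∑ l ∈ P, (B.1 l a).toNat = ∑ l ∈ P, (B.1 l b).toNat) :
    (∀ j, ∑ i, (swRaw P a b B.1 i j).toNat = c j) ∧
      (∀ i, ∑ j, (swRaw P a b B.1 i j).toNat = r i) := by
  constructor
  · intro z
    have key : ∀ z' : J, (z' = Equiv.swap a b z) →
        (∑ l ∈ P, (B.1 l z').toNat = ∑ l ∈ P, (B.1 l z).toNat) →
        ∑ i, (swRaw P a b B.1 i z).toNat = c z := by
      intro z' hz' hs
      rw [← B.2.1 z]
      rw [← sum_filter_add_sum_filter_not univ (fun l => l ∈ P),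
        ← sum_filter_add_sum_filter_not univ (fun l => l ∈ P) (f := fun i => (B.1 i z).toNat)]
      congr 1
      · have : (univ.filter fun l => l ∈ P) = P := by ext; simp
        rw [this, ← hs]
        apply sum_congr rfl
        intro l hl
        simp [swRaw, hl, hz']
      · apply sum_congr rfl
        intro l hl
        simp only [mem_filter, mem_univ, true_and] at hl
        simp [swRaw, hl]
    by_cases hza : z = a
    · subst hza
      exact key b (by simp) h.symm
    by_cases hzb : z = b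
    · subst hzb
      exact key a (by simp) h
    · exact key z (by rw [Equiv.swap_apply_of_ne_of_ne hza hzb]) rfl
  · intro i
    rw [← B.2.2 i]
    by_cases hi : i ∈ P
    · simp only [swRaw, hi, if_true]
      exact Equiv.sum_comp (Equiv.swap a b) (fun z => (B.1 i z).toNat)
    · simp only [swRaw, hi, if_false]

def swP (P : Finset (Fin 3)) (a b : J) (B : Tab J c r) : Tab J c r :=
  if h : ∑ l ∈ P, (B.1 l a).toNat = ∑ l ∈ P, (B.1 l b).toNat then
    ⟨swRaw P a b B.1, swRaw_ok P a b B h⟩ else B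

theorem swP_apply {P : Finset (Fin 3)} {a b : J} {B : Tab J c r}
    (h : ∑ l ∈ P, (B.1 l a).toNat = ∑ l ∈ P, (B.1 l b).toNat) (l : Fin 3) (z : J) :
    (swP P a b B).1 l z = if l ∈ P then B.1 l (Equiv.swap a b z) else B.1 l z := by
  unfold swP
  rw [dif_pos h]
  rfl

theorem swP_swP {P : Finset (Fin 3)} {a b : J} {B : Tab J c r}
    (h : ∑ l ∈ P, (B.1 l a).toNat = ∑ l ∈ P, (B.1 l b).toNat) :
    swP P a b (swP P a b B) = B := by
  apply tab_ext
  intro l z
  have h' : ∑ l ∈ P, ((swP P a b B).1 l a).toNat = ∑ l ∈ P, ((swP P a b B).1 l b).toNat := by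
    have e1 : ∑ l ∈ P, ((swP P a b B).1 l a).toNat = ∑ l ∈ P, (B.1 l b).toNat := by
      apply sum_congr rfl
      intro l hl
      rw [swP_apply h]; simp [hl]
    have e2 : ∑ l ∈ P, ((swP P a b B).1 l b).toNat = ∑ l ∈ P, (B.1 l a).toNat := by
      apply sum_congr rfl
      intro l hl
      rw [swP_apply h]; simp [hl]
    rw [e1, e2, h]
  rw [swP_apply h']
  by_cases hl : l ∈ P
  · have e : Equiv.swap a b (Equiv.swap a b z) = z := by simp
    rw [if_pos hl, swP_apply h, if_pos hl, e]
  · rw [if_neg hl, swP_apply h, if_neg hl]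

/-- tables whose row `i` is `ρ` -/
def cls (i : Fin 3) (ρ : J → Bool) : Finset (Tab J c r) :=
  univ.filter fun B => ∀ z, B.1 i z = ρ z

theorem mem_cls {i : Fin 3} {ρ : J → Bool} {B : Tab J c r} :
    B ∈ (cls i ρ : Finset (Tab J c r)) ↔ ∀ z, B.1 i z = ρ z := by
  simp [cls]

theorem contract {ι : Type*} [Finite ι] (h : ι → ℝ) (q : ℝ) (hq : q < 1)
    (H : ∀ C, 0 ≤ C → (∀ x, h x ≤ C) → ∀ x, h x ≤ q * C) (x : ι) : h x ≤ 0 := by
  haveI : Nonempty ι := ⟨x⟩
  obtain ⟨x0, hx0⟩ := Finite.exists_max h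
  by_contra hx
  push Not at hx
  have h0 : 0 < h x0 := lt_of_lt_of_le hx (hx0 x)
  have := H (h x0) h0.le hx0 x0
  nlinarith

structure Eig (g : Fin 3 → Tab J c r → ℝ) (lam : ℝ) : Prop where
  row : ∀ i B B', (∀ z, B.1 i z = B'.1 i z) → g i B = g i B'
  eq : ∀ i j k, i ≠ j → i ≠ k → j ≠ k → ∀ ρ : J → Bool,
    ∑ B ∈ cls i ρ, (lam - 1) * g i B = ∑ B ∈ cls i ρ, (g j B + g k B)

theorem valid_univ {a b : J} (hab : c a = c b) (B : Tab J c r) :
    ∑ l ∈ (univ : Finset (Fin 3)), (B.1 l a).toNat = ∑ l ∈ univ, (B.1 l b).toNat := by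
  rw [B.2.1 a, B.2.1 b, hab]

theorem sum_cls_swap {a b : J} (hab : c a = c b) (i : Fin 3) (ρ : J → Bool)
    (F : Tab J c r → ℝ) :
    ∑ B ∈ cls i (fun z => ρ (Equiv.swap a b z)), F B = ∑ B ∈ cls i ρ, F (swP univ a b B) := by
  apply sum_nbij' (swP univ a b) (swP univ a b)
  · intro B hB
    rw [mem_cls] at hB ⊢
    intro z
    rw [swP_apply (valid_univ hab B)]
    simp [hB]
  · intro B hB
    rw [mem_cls] at hB ⊢
    intro z
    rw [swP_apply (valid_univ hab B)]
    simp [hB]
  · intro B _
    exact swP_swP (valid_univ hab B)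
  · intro B _
    exact swP_swP (valid_univ hab B)
  · intro B _
    rw [swP_swP (valid_univ hab B)]

theorem others (i : Fin 3) : ∃ j k : Fin 3, i ≠ j ∧ i ≠ k ∧ j ≠ k := by
  revert i; decide

theorem same_class {g : Fin 3 → Tab J c r → ℝ} {lam : ℝ} (hE : Eig g lam) (hlam : 2 < lam)
    {a b : J} (hab : c a = c b) (i : Fin 3) (B : Tab J c r) :
    g i (swP univ a b B) = g i B := by
  have key := contract (ι := Fin 3 × Tab J c r)
    (fun x => |g x.1 (swP univ a b x.2) - g x.1 x.2|) (1 / (lam - 1))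
    (by rw [div_lt_one (by linarith)]; linarith) ?_ (i, B)
  · have h2 : |g i (swP univ a b B) - g i B| = 0 := le_antisymm key (abs_nonneg _)
    have := abs_eq_zero.mp h2
    linarith
  · intro C hC0 hC ⟨i, B⟩
    simp only at hC ⊢
    by_cases hrow : B.1 i a = B.1 i b
    · have : g i (swP univ a b B) = g i B := by
        apply hE.row
        intro z
        rw [swP_apply (valid_univ hab B)]
        simp only [mem_univ, if_true]
        by_cases hza : z = a
        · subst hza; simp [hrow]
        by_cases hzb : z = b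
        · subst hzb; simp [hrow]
        rw [Equiv.swap_apply_of_ne_of_ne hza hzb]
      rw [this]
      simp only [sub_self, abs_zero]
      apply mul_nonneg _ hC0
      apply div_nonneg zero_le_one
      linarith
    · obtain ⟨j, k, hij, hik, hjk⟩ := others i
      have e1 := hE.eq i j k hij hik hjk (B.1 i)
      have e2 := hE.eq i j k hij hik hjk (fun z => B.1 i (Equiv.swap a b z))
      rw [sum_cls_swap hab, sum_cls_swap hab] at e2
      have hc1 : ∀ B' ∈ (cls i (B.1 i) : Finset (Tab J c r)), g i B' = g i B := by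
        intro B' hB'
        rw [mem_cls] at hB'
        exact hE.row i _ _ hB'
      have hc2 : ∀ B' ∈ (cls i (B.1 i) : Finset (Tab J c r)),
          g i (swP univ a b B') = g i (swP univ a b B) := by
        intro B' hB'
        rw [mem_cls] at hB'
        apply hE.row
        intro z
        rw [swP_apply (valid_univ hab _), swP_apply (valid_univ hab _)]
        simp [hB']
      have e1' : ∑ B' ∈ (cls i (B.1 i) : Finset (Tab J c r)), (lam - 1) * g i B' =
          ((cls i (B.1 i) : Finset (Tab J c r)).card : ℝ) * ((lam - 1) * g i B) := by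
        rw [← nsmul_eq_mul, ← sum_const]
        apply sum_congr rfl
        intro B' hB'
        rw [hc1 B' hB']
      have e2' : ∑ B' ∈ (cls i (B.1 i) : Finset (Tab J c r)),
          (lam - 1) * g i (swP univ a b B') =
          ((cls i (B.1 i) : Finset (Tab J c r)).card : ℝ) *
            ((lam - 1) * g i (swP univ a b B)) := by
        rw [← nsmul_eq_mul, ← sum_const]
        apply sum_congr rfl
        intro B' hB'
        rw [hc2 B' hB']
      have hN : (0 : ℝ) < ((cls i (B.1 i) : Finset (Tab J c r)).card : ℝ) := by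
        have : B ∈ (cls i (B.1 i) : Finset (Tab J c r)) := by rw [mem_cls]; intro z; rfl
        exact_mod_cast card_pos.mpr ⟨B, this⟩
      have e3 : ((cls i (B.1 i) : Finset (Tab J c r)).card : ℝ) *
          ((lam - 1) * (g i (swP univ a b B) - g i B)) =
          ∑ B' ∈ (cls i (B.1 i) : Finset (Tab J c r)),
            ((g j (swP univ a b B') - g j B') + (g k (swP univ a b B') - g k B')) := by
        have : ∑ B' ∈ (cls i (B.1 i) : Finset (Tab J c r)),
            ((g j (swP univ a b B') - g j B') + (g k (swP univ a b B') - g k B')) =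
            ∑ B' ∈ (cls i (B.1 i) : Finset (Tab J c r)),
              (g j (swP univ a b B') + g k (swP univ a b B')) -
            ∑ B' ∈ (cls i (B.1 i) : Finset (Tab J c r)), (g j B' + g k B') := by
          rw [← sum_sub_distrib]
          apply sum_congr rfl
          intro B' _; ring
        rw [this, ← e2, ← e1, e1', e2']
        ring
      have e4 : |∑ B' ∈ (cls i (B.1 i) : Finset (Tab J c r)),
            ((g j (swP univ a b B') - g j B') + (g k (swP univ a b B') - g k B'))| ≤
          ((cls i (B.1 i) : Finset (Tab J c r)).card : ℝ) * C := by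
        rw [← nsmul_eq_mul]
        refine (abs_sum_le_sum_abs _ _).trans (sum_le_card_nsmul _ _ _ ?_)
        intro B' hB'
        rw [mem_cls] at hB'
        have hne : B'.1 i a ≠ B'.1 i b := by rw [hB', hB']; exact hrow
        have hs := valid_univ hab B'
        rw [sum3 hij hik hjk, sum3 hij hik hjk] at hs
        have hz : ∀ l, B'.1 l a = B'.1 l b → g l (swP univ a b B') - g l B' = 0 := by
          intro l hl
          rw [sub_eq_zero]
          apply hE.row
          intro z
          rw [swP_apply (valid_univ hab B')]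
          simp only [mem_univ, if_true]
          by_cases hza : z = a
          · subst hza; simp [hl]
          by_cases hzb : z = b
          · subst hzb; simp [hl]
          rw [Equiv.swap_apply_of_ne_of_ne hza hzb]
        have hor : B'.1 j a = B'.1 j b ∨ B'.1 k a = B'.1 k b := by
          revert hs hne
          cases B'.1 i a <;> cases B'.1 i b <;> cases B'.1 j a <;> cases B'.1 j b <;>
            cases B'.1 k a <;> cases B'.1 k b <;> simp
        rcases hor with h | h
        · rw [hz j h, zero_add]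
          exact hC (k, B')
        · rw [hz k h, add_zero]
          exact hC (j, B')
      rw [← e3, abs_mul, abs_of_pos hN] at e4
      have e5 := le_of_mul_le_mul_left e4 hN
      rw [abs_mul, abs_of_pos (by linarith : (0 : ℝ) < lam - 1)] at e5
      have hl : 0 < lam - 1 := by linarith
      rw [div_mul_eq_mul_div, one_mul, le_div_iff₀ hl]
      linarith

/-- number of class-1 columns where `ρ` is one -/
def xr (c : J → ℕ) (ρ : J → Bool) : ℕ := (univ.filter fun z => c z = 1 ∧ ρ z = true).card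

theorem xr_same {a b : J} (hab : c a = c b) (ρ : J → Bool) :
    xr c (fun z => ρ (Equiv.swap a b z)) = xr c ρ := by
  unfold xr
  have hcz : ∀ z, c (Equiv.swap a b z) = c z := by
    intro z
    by_cases hza : z = a
    · subst hza; simp [hab]
    by_cases hzb : z = b
    · subst hzb; simp [hab]
    rw [Equiv.swap_apply_of_ne_of_ne hza hzb]
  apply card_bij (fun z _ => Equiv.swap a b z)
  · intro z hz
    simp only [mem_filter, mem_univ, true_and] at hz ⊢
    rw [hcz]; exact hz
  · intro z _ z' _ h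
    exact (Equiv.swap a b).injective h
  · intro z hz
    simp only [mem_filter, mem_univ, true_and] at hz
    refine ⟨Equiv.swap a b z, ?_, by simp⟩
    simp only [mem_filter, mem_univ, true_and]
    rw [hcz]
    simpa using hz

theorem xr_cross {a b : J} (ha : c a = 1) (hb : c b = 2) (ρ : J → Bool) (hρa : ρ a = false)
    (hρb : ρ b = true) :
    xr c (fun z => ρ (Equiv.swap a b z)) = xr c ρ + 1 := by
  unfold xr
  have : (univ.filter fun z => c z = 1 ∧ ρ (Equiv.swap a b z) = true) =
      insert a (univ.filter fun z => c z = 1 ∧ ρ z = true) := by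
    ext z
    simp only [mem_filter, mem_univ, true_and, mem_insert]
    by_cases hza : z = a
    · subst hza; simp [ha, hρb]
    by_cases hzb : z = b
    · subst hzb; simp [hza, hb]
    rw [Equiv.swap_apply_of_ne_of_ne hza hzb]
    simp [hza]
  rw [this, card_insert_of_notMem]
  simp [hρa]

theorem exists_pm (ρ₁ ρ₂ : J → Bool) (hs : ∑ z, (ρ₁ z).toNat = ∑ z, (ρ₂ z).toNat)
    (hne : ∃ z, ρ₁ z ≠ ρ₂ z) :
    ∃ a, ρ₁ a = false ∧ ρ₂ a = true := by
  by_contra hcon
  push Not at hcon
  have hle : ∀ z ∈ (univ : Finset J), (ρ₂ z).toNat ≤ (ρ₁ z).toNat := by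
    intro z _
    have := hcon z
    cases h1 : ρ₁ z <;> cases h2 : ρ₂ z <;> simp_all
  have := (sum_eq_sum_iff_of_le hle).mp hs.symm
  obtain ⟨z, hz⟩ := hne
  have h3 := this z (mem_univ z)
  apply hz
  cases h1 : ρ₁ z <;> cases h2 : ρ₂ z <;> simp_all

theorem lip {g : Fin 3 → Tab J c r → ℝ} {C : ℝ}
    (hrow : ∀ i (B B' : Tab J c r), (∀ z, B.1 i z = B'.1 i z) → g i B = g i B')
    (hsame : ∀ (a b : J), c a = c b → ∀ i B, g i (swP univ a b B) = g i B)
    (hC0 : 0 ≤ C)
    (hcross : ∀ i (B B' : Tab J c r) (a b : J), c a = 1 → c b = 2 → B.1 i a = false →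
      B.1 i b = true → (∀ z, B'.1 i z = B.1 i (Equiv.swap a b z)) → |g i B' - g i B| ≤ C)
    {i j k : Fin 3} (hij : i ≠ j) (hik : i ≠ k) (hjk : j ≠ k) (ρ : J → Bool) (n : ℕ) :
    ∀ B₁ B₂ : Tab J c r, B₁ ∈ (cls i ρ : Finset (Tab J c r)) → B₂ ∈ (cls i ρ : Finset (Tab J c r)) →
    (univ.filter fun z => B₁.1 j z ≠ B₂.1 j z).card ≤ n → xr c (B₁.1 j) ≤ xr c (B₂.1 j) →
    |g j B₂ - g j B₁| ≤ C * ((xr c (B₂.1 j) : ℝ) - (xr c (B₁.1 j) : ℝ)) := by
  induction n with
  | zero =>
    intro B₁ B₂ h1 h2 hn hx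
    have : g j B₂ = g j B₁ := by
      apply hrow
      intro z
      by_contra hz
      have : z ∈ (univ.filter fun z => B₁.1 j z ≠ B₂.1 j z) := by
        simp only [mem_filter, mem_univ, true_and]
        exact fun h => hz h.symm
      have := card_pos.mpr ⟨z, this⟩
      omega
    rw [this, sub_self, abs_zero]
    apply mul_nonneg hC0
    have : (xr c (B₁.1 j) : ℝ) ≤ (xr c (B₂.1 j) : ℝ) := by exact_mod_cast hx
    linarith
  | succ n ih =>
    intro B₁ B₂ h1 h2 hn hx
    by_cases hne : ∃ z, B₁.1 j z ≠ B₂.1 j z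
    swap
    · push Not at hne
      have : g j B₂ = g j B₁ := hrow _ _ _ fun z => (hne z).symm
      rw [this, sub_self, abs_zero]
      apply mul_nonneg hC0
      have : (xr c (B₁.1 j) : ℝ) ≤ (xr c (B₂.1 j) : ℝ) := by exact_mod_cast hx
      linarith
    have hs : ∑ z, (B₁.1 j z).toNat = ∑ z, (B₂.1 j z).toNat := by rw [B₁.2.2 j, B₂.2.2 j]
    rw [mem_cls] at h1 h2
    -- structure of the difference sets
    have hfree : ∀ z, B₁.1 j z ≠ B₂.1 j z → c z = (ρ z).toNat + 1 ∧
        (B₁.1 j z).toNat + (B₁.1 k z).toNat = 1 := by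
      intro z hz
      have e1 := B₁.2.1 z
      have e2 := B₂.2.1 z
      rw [sum3 hij hik hjk] at e1 e2
      rw [h1 z] at e1
      rw [h2 z] at e2
      rw [← e1] at e2 ⊢
      revert e2 hz
      cases ρ z <;> cases B₁.1 j z <;> cases B₁.1 k z <;> cases B₂.1 j z <;>
        cases B₂.1 k z <;> simp
    -- the basic move
    have move : ∀ a b, B₁.1 j a = false → B₂.1 j a = true → B₁.1 j b = true →
        B₂.1 j b = false →
        (swP {j, k} a b B₁ ∈ (cls i ρ : Finset (Tab J c r))) ∧
        (∀ z, (swP {j, k} a b B₁).1 j z = B₁.1 j (Equiv.swap a b z)) ∧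
        (univ.filter fun z => (swP {j, k} a b B₁).1 j z ≠ B₂.1 j z).card ≤ n := by
      intro a b ha1 ha2 hb1 hb2
      have fa := hfree a (by rw [ha1, ha2]; simp)
      have fb := hfree b (by rw [hb1, hb2]; simp)
      have hv : ∑ l ∈ ({j, k} : Finset (Fin 3)), (B₁.1 l a).toNat =
          ∑ l ∈ ({j, k} : Finset (Fin 3)), (B₁.1 l b).toNat := by
        rw [sum_pair hjk, sum_pair hjk, fa.2, fb.2]
      have hrowj : ∀ z, (swP {j, k} a b B₁).1 j z = B₁.1 j (Equiv.swap a b z) := by
        intro z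
        rw [swP_apply hv]
        simp
      refine ⟨?_, hrowj, ?_⟩
      · rw [mem_cls]
        intro z
        rw [swP_apply hv]
        simp [hij, hik, h1]
      · have hsub : (univ.filter fun z => (swP {j, k} a b B₁).1 j z ≠ B₂.1 j z) ⊆
            (univ.filter fun z => B₁.1 j z ≠ B₂.1 j z).erase a := by
          intro z hz
          simp only [mem_filter, mem_univ, true_and] at hz
          rw [hrowj] at hz
          simp only [mem_erase, mem_filter, mem_univ, true_and]
          by_cases hza : z = a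
          · subst hza
            simp [hb1, ha2] at hz
          by_cases hzb : z = b
          · subst hzb
            simp [ha1, hb2] at hz
          rw [Equiv.swap_apply_of_ne_of_ne hza hzb] at hz
          exact ⟨hza, hz⟩
        have hmem : a ∈ (univ.filter fun z => B₁.1 j z ≠ B₂.1 j z) := by
          simp only [mem_filter, mem_univ, true_and]
          rw [ha1, ha2]; simp
        have := card_le_card hsub
        rw [card_erase_of_mem hmem] at this
        omega
    by_cases hex : ∃ a b, B₁.1 j a = false ∧ B₂.1 j a = true ∧ B₁.1 j b = true ∧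
        B₂.1 j b = false ∧ c a = c b
    · obtain ⟨a, b, ha1, ha2, hb1, hb2, hab⟩ := hex
      obtain ⟨m1, m2, m3⟩ := move a b ha1 ha2 hb1 hb2
      have hxx : xr c ((swP {j, k} a b B₁).1 j) = xr c (B₁.1 j) := by
        rw [← xr_same hab (B₁.1 j)]
        congr 1
        funext z
        exact m2 z
      have hg : g j (swP {j, k} a b B₁) = g j B₁ := by
        rw [← hsame a b hab j B₁]
        apply hrow
        intro z
        rw [m2, swP_apply (valid_univ hab B₁)]
        simp
      have := ih (swP {j, k} a b B₁) B₂ m1 (by rw [mem_cls]; exact h2) m3 (by rw [hxx]; exact hx)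
      rw [hxx, hg] at this
      exact this
    · push Not at hex
      obtain ⟨a, ha1, ha2⟩ := exists_pm _ _ hs hne
      obtain ⟨b, hb2, hb1⟩ := exists_pm _ _ hs.symm (by
        obtain ⟨z, hz⟩ := hne; exact ⟨z, fun h => hz h.symm⟩)
      have fa := (hfree a (by rw [ha1, ha2]; simp)).1
      have fb := (hfree b (by rw [hb1, hb2]; simp)).1
      have hab := hex a b ha1 ha2 hb1 hb2
      have hca : c a = 1 := by
        by_contra hca
        have hcb : c b = 1 := by
          revert fa fb hab hca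
          cases ρ a <;> cases ρ b <;> simp <;> omega
        -- then x(B2) < x(B1)
        have hsub : (univ.filter fun z => c z = 1 ∧ B₂.1 j z = true) ⊂
            (univ.filter fun z => c z = 1 ∧ B₁.1 j z = true) := by
          rw [ssubset_iff_of_subset]
          · refine ⟨b, ?_, ?_⟩
            · simp [hcb, hb1]
            · simp [hb2]
          · intro z hz
            simp only [mem_filter, mem_univ, true_and] at hz ⊢
            refine ⟨hz.1, ?_⟩
            by_contra hz1
            have hz1' : B₁.1 j z = false := by simpa using hz1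
            exact hex z b hz1' hz.2 hb1 hb2 (by rw [hz.1, hcb])
        have := card_lt_card hsub
        unfold xr at hx
        omega
      have hcb : c b = 2 := by
        revert fa fb hab hca
        cases ρ a <;> cases ρ b <;> simp <;> omega
      obtain ⟨m1, m2, m3⟩ := move a b ha1 ha2 hb1 hb2
      have hxx : xr c ((swP {j, k} a b B₁).1 j) = xr c (B₁.1 j) + 1 := by
        rw [← xr_cross hca hcb (B₁.1 j) ha1 hb1]
        congr 1
        funext z
        exact m2 z
      have hg := hcross j B₁ (swP {j, k} a b B₁) a b hca hcb ha1 hb1 m2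
      have hlt : xr c (B₁.1 j) < xr c (B₂.1 j) := by
        unfold xr
        apply card_lt_card
        rw [ssubset_iff_of_subset]
        · refine ⟨a, ?_, ?_⟩
          · simp [hca, ha2]
          · simp [ha1]
        · intro z hz
          simp only [mem_filter, mem_univ, true_and] at hz ⊢
          refine ⟨hz.1, ?_⟩
          by_contra hz1
          have hz1' : B₂.1 j z = false := by simpa using hz1
          exact hex a z ha1 ha2 hz.2 hz1' (by rw [hz.1, hca])
      have h3 := ih (swP {j, k} a b B₁) B₂ m1 (by rw [mem_cls]; exact h2) m3 (by rw [hxx]; omega)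
      rw [hxx] at h3
      have h4 : g j B₂ - g j B₁ = (g j B₂ - g j (swP {j, k} a b B₁)) +
        (g j (swP {j, k} a b B₁) - g j B₁) := by ring
      rw [h4]
      refine (abs_add_le _ _).trans ?_
      push_cast at h3
      linarith

theorem star1 {i l m : Fin 3} (hil : i ≠ l) (him : i ≠ m) (hlm : l ≠ m) (ρ : J → Bool) {a b : J}
    (ha : c a = 1) (hb : c b = 2) (hρa : ρ a = false) (hρb : ρ b = true) (h : Tab J c r → ℝ)
    (hh : ∀ B B' : Tab J c r, (∀ z, B.1 l z = B'.1 l z) → h B = h B') :
    ∑ B ∈ cls i (fun z => ρ (Equiv.swap a b z)), h B =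
      ∑ B ∈ cls i ρ, if B.1 l a = false ∧ B.1 l b = true then h B else 0 := by
  rw [← sum_filter]
  -- validity facts
  have v1 : ∀ B : Tab J c r, B ∈ (cls i (fun z => ρ (Equiv.swap a b z)) : Finset (Tab J c r)) →
      (∑ q ∈ ({i, m} : Finset (Fin 3)), (B.1 q a).toNat =
        ∑ q ∈ ({i, m} : Finset (Fin 3)), (B.1 q b).toNat) ∧ B.1 l a = false ∧ B.1 l b = true := by
    intro B hB
    rw [mem_cls] at hB
    have e1 := B.2.1 a
    have e2 := B.2.1 b
    rw [sum3 hil him hlm] at e1 e2
    rw [sum_pair him, sum_pair him]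
    have h1 : B.1 i a = true := by rw [hB]; simpa using hρb
    have h2 : B.1 i b = false := by rw [hB]; simpa using hρa
    rw [h1, ha] at e1
    rw [h2, hb] at e2
    rw [h1, h2]
    revert e1 e2
    cases B.1 l a <;> cases B.1 m a <;> cases B.1 l b <;> cases B.1 m b <;> simp
  have v2 : ∀ B : Tab J c r, B ∈ (cls i ρ : Finset (Tab J c r)) →
      B.1 l a = false ∧ B.1 l b = true →
      (∑ q ∈ ({i, m} : Finset (Fin 3)), (B.1 q a).toNat =
        ∑ q ∈ ({i, m} : Finset (Fin 3)), (B.1 q b).toNat) := by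
    intro B hB hab
    rw [mem_cls] at hB
    have e1 := B.2.1 a
    have e2 := B.2.1 b
    rw [sum3 hil him hlm] at e1 e2
    rw [sum_pair him, sum_pair him]
    have h1 : B.1 i a = false := by rw [hB]; exact hρa
    have h2 : B.1 i b = true := by rw [hB]; exact hρb
    rw [h1, ha, hab.1] at e1
    rw [h2, hb, hab.2] at e2
    rw [h1, h2]
    revert e1 e2
    cases B.1 m a <;> cases B.1 m b <;> simp
  have hl : l ∉ ({i, m} : Finset (Fin 3)) := by simp [hil.symm, hlm]
  have hi : i ∈ ({i, m} : Finset (Fin 3)) := by simp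
  apply sum_nbij' (swP {i, m} a b) (swP {i, m} a b)
  · intro B hB
    obtain ⟨hv, h1, h2⟩ := v1 B hB
    rw [mem_cls] at hB
    rw [mem_filter, mem_cls]
    refine ⟨?_, ?_, ?_⟩
    · intro z
      rw [swP_apply hv, if_pos hi, hB]
      simp
    · rw [swP_apply hv, if_neg hl]; exact h1
    · rw [swP_apply hv, if_neg hl]; exact h2
  · intro B hB
    rw [mem_filter] at hB
    have hv := v2 B hB.1 hB.2
    rw [mem_cls] at hB ⊢
    intro z
    rw [swP_apply hv, if_pos hi, hB.1]
  · intro B hB
    exact swP_swP (v1 B hB).1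
  · intro B hB
    rw [mem_filter] at hB
    exact swP_swP (v2 B hB.1 hB.2)
  · intro B hB
    apply hh
    intro z
    rw [swP_apply (v1 B hB).1, if_neg hl]

/-- free class-1 columns -/
def AA (c : J → ℕ) (ρ : J → Bool) : Finset J := univ.filter fun z => c z = 1 ∧ ρ z = false

/-- free class-2 columns -/
def BB (c : J → ℕ) (ρ : J → Bool) : Finset J := univ.filter fun z => c z = 2 ∧ ρ z = true

/-- weights -/
def ww (l : Fin 3) (ρ : J → Bool) (B : Tab J c r) : ℝ :=
  (((AA c ρ).filter fun z => B.1 l z = false).card : ℝ) *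
    (((BB c ρ).filter fun z => B.1 l z = true).card : ℝ)

theorem star {i l m : Fin 3} (hil : i ≠ l) (him : i ≠ m) (hlm : l ≠ m) (ρ : J → Bool)
    (h : Tab J c r → ℝ)
    (hh : ∀ B B' : Tab J c r, (∀ z, B.1 l z = B'.1 l z) → h B = h B') :
    ∑ a ∈ AA c ρ, ∑ b ∈ BB c ρ, ∑ B ∈ cls i (fun z => ρ (Equiv.swap a b z)), h B =
      ∑ B ∈ cls i ρ, ww l ρ B * h B := by
  have e1 : ∀ a ∈ AA c ρ, ∀ b ∈ BB c ρ,
      ∑ B ∈ cls i (fun z => ρ (Equiv.swap a b z)), h B =
      ∑ B ∈ cls i ρ, if B.1 l a = false ∧ B.1 l b = true then h B else 0 := by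
    intro a ha b hb
    simp only [AA, BB, mem_filter, mem_univ, true_and] at ha hb
    exact star1 hil him hlm ρ ha.1 hb.1 ha.2 hb.2 h hh
  rw [sum_congr rfl fun a ha => sum_congr rfl fun b hb => e1 a ha b hb]
  simp_rw [sum_comm (t := (cls i ρ : Finset (Tab J c r)))]
  apply sum_congr rfl
  intro B _
  unfold ww
  rw [card_filter, card_filter]
  push_cast
  rw [sum_mul_sum, sum_mul]
  apply sum_congr rfl
  intro a _
  rw [sum_mul]
  apply sum_congr rfl
  intro b _
  by_cases h1 : B.1 l a = false <;> by_cases h2 : B.1 l b = true <;> simp [h1, h2]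

theorem xr_sum {i j k : Fin 3} (hij : i ≠ j) (hik : i ≠ k) (hjk : j ≠ k) (B : Tab J c r) :
    xr c (B.1 i) + xr c (B.1 j) + xr c (B.1 k) = (univ.filter fun z => c z = 1).card := by
  unfold xr
  rw [card_filter, card_filter, card_filter, card_filter, ← sum_add_distrib, ← sum_add_distrib]
  apply sum_congr rfl
  intro z _
  have e1 := B.2.1 z
  rw [sum3 hij hik hjk] at e1
  by_cases hc : c z = 1
  · rw [hc] at e1 ⊢
    revert e1
    cases B.1 i z <;> cases B.1 j z <;> cases B.1 k z <;> simp
  · simp [hc]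

theorem AA_card {i j k : Fin 3} (hij : i ≠ j) (hik : i ≠ k) (hjk : j ≠ k) (ρ : J → Bool)
    (B : Tab J c r) (hB : B ∈ (cls i ρ : Finset (Tab J c r))) :
    ((AA c ρ).filter fun z => B.1 j z = false).card + xr c (B.1 j) = (AA c ρ).card := by
  rw [mem_cls] at hB
  have : xr c (B.1 j) = ((AA c ρ).filter fun z => ¬ B.1 j z = false).card := by
    unfold xr AA
    congr 1
    ext z
    simp only [mem_filter, mem_univ, true_and, Bool.not_eq_false]
    have e1 := B.2.1 z
    rw [sum3 hij hik hjk, hB] at e1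
    revert e1
    cases ρ z <;> cases B.1 j z <;> cases B.1 k z <;> simp <;> omega
  rw [this]
  exact card_filter_add_card_filter_not _

theorem BB_card {i j k : Fin 3} (hij : i ≠ j) (hik : i ≠ k) (hjk : j ≠ k) (ρ : J → Bool)
    (B : Tab J c r) (hB : B ∈ (cls i ρ : Finset (Tab J c r))) :
    ((BB c ρ).filter fun z => B.1 j z = true).card + xr c (B.1 j) +
      (univ.filter fun z => c z = 3 ∨ (c z = 2 ∧ ρ z = false)).card = r j := by
  rw [mem_cls] at hB
  rw [← B.2.2 j]
  unfold BB xr
  rw [filter_filter, card_filter, card_filter, card_filter, ← sum_add_distrib, ← sum_add_distrib]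
  apply sum_congr rfl
  intro z _
  have e1 := B.2.1 z
  rw [sum3 hij hik hjk, hB] at e1
  rw [← e1]
  cases ρ z <;> cases B.1 j z <;> cases B.1 k z <;> simp

theorem ww_anti {i j k : Fin 3} (hij : i ≠ j) (hik : i ≠ k) (hjk : j ≠ k) (ρ : J → Bool)
    (B₁ B₂ : Tab J c r) (h1 : B₁ ∈ (cls i ρ : Finset (Tab J c r)))
    (h2 : B₂ ∈ (cls i ρ : Finset (Tab J c r))) (hx : xr c (B₁.1 j) ≤ xr c (B₂.1 j)) :
    ww j ρ B₂ ≤ ww j ρ B₁ := by
  have a1 := AA_card hij hik hjk ρ B₁ h1
  have a2 := AA_card hij hik hjk ρ B₂ h2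
  have b1 := BB_card hij hik hjk ρ B₁ h1
  have b2 := BB_card hij hik hjk ρ B₂ h2
  unfold ww
  apply mul_le_mul
  · exact_mod_cast (by omega : ((AA c ρ).filter fun z => B₂.1 j z = false).card ≤
      ((AA c ρ).filter fun z => B₁.1 j z = false).card)
  · exact_mod_cast (by omega : ((BB c ρ).filter fun z => B₂.1 j z = true).card ≤
      ((BB c ρ).filter fun z => B₁.1 j z = true).card)
  · positivity
  · positivity

theorem half {g : Fin 3 → Tab J c r → ℝ} {C : ℝ}
    (hrow : ∀ i (B B' : Tab J c r), (∀ z, B.1 i z = B'.1 i z) → g i B = g i B')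
    (hsame : ∀ (a b : J), c a = c b → ∀ i B, g i (swP univ a b B) = g i B)
    (hC0 : 0 ≤ C)
    (hcross : ∀ i (B B' : Tab J c r) (a b : J), c a = 1 → c b = 2 → B.1 i a = false →
      B.1 i b = true → (∀ z, B'.1 i z = B.1 i (Equiv.swap a b z)) → |g i B' - g i B| ≤ C)
    {i j k : Fin 3} (hij : i ≠ j) (hik : i ≠ k) (hjk : j ≠ k) (ρ : J → Bool) (σ : ℝ)
    (hσ : |σ| ≤ 1) :
    σ * ((∑ B ∈ (cls i ρ : Finset (Tab J c r)), g j B) *
        (∑ B ∈ (cls i ρ : Finset (Tab J c r)), ww j ρ B) -
        ((cls i ρ : Finset (Tab J c r)).card : ℝ) *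
          ∑ B ∈ (cls i ρ : Finset (Tab J c r)), ww j ρ B * g j B) ≤
      C * ((∑ B ∈ (cls i ρ : Finset (Tab J c r)), (xr c (B.1 j) : ℝ)) *
        (∑ B ∈ (cls i ρ : Finset (Tab J c r)), ww j ρ B) -
        ((cls i ρ : Finset (Tab J c r)).card : ℝ) *
          ∑ B ∈ (cls i ρ : Finset (Tab J c r)), ww j ρ B * (xr c (B.1 j) : ℝ)) := by
  have hanti : AntivaryOn (fun B : Tab J c r => C * (xr c (B.1 j) : ℝ) - σ * g j B)
      (fun B => ww j ρ B) ((cls i ρ : Finset (Tab J c r)) : Set (Tab J c r)) := by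
    intro B₁ h1 B₂ h2 hw
    simp only at hw ⊢
    have hx : xr c (B₂.1 j) ≤ xr c (B₁.1 j) := by
      by_contra hx
      push Not at hx
      have := ww_anti hij hik hjk ρ B₁ B₂ (by exact_mod_cast h1) (by exact_mod_cast h2) hx.le
      linarith
    have hl := lip hrow hsame hC0 hcross hij hik hjk ρ _ B₂ B₁ (by exact_mod_cast h2)
      (by exact_mod_cast h1) le_rfl hx
    have h3 : |σ * (g j B₁ - g j B₂)| ≤ |g j B₁ - g j B₂| := by
      rw [abs_mul]
      have := abs_nonneg (g j B₁ - g j B₂)
      nlinarith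
    have h4 := (abs_le.mp (h3.trans hl)).2
    linarith
  have hch := hanti.card_mul_sum_le_sum_mul_sum
  have e1 : ∑ B ∈ (cls i ρ : Finset (Tab J c r)),
      (C * (xr c (B.1 j) : ℝ) - σ * g j B) * ww j ρ B =
      C * ∑ B ∈ (cls i ρ : Finset (Tab J c r)), ww j ρ B * (xr c (B.1 j) : ℝ) -
      σ * ∑ B ∈ (cls i ρ : Finset (Tab J c r)), ww j ρ B * g j B := by
    rw [mul_sum, mul_sum, ← sum_sub_distrib]
    apply sum_congr rfl
    intro B _; ring
  have e2 : ∑ B ∈ (cls i ρ : Finset (Tab J c r)),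
      (C * (xr c (B.1 j) : ℝ) - σ * g j B) =
      C * ∑ B ∈ (cls i ρ : Finset (Tab J c r)), (xr c (B.1 j) : ℝ) -
      σ * ∑ B ∈ (cls i ρ : Finset (Tab J c r)), g j B := by
    rw [mul_sum, mul_sum, ← sum_sub_distrib]
  rw [e1, e2] at hch
  linarith

theorem cross_class {g : Fin 3 → Tab J c r → ℝ} {lam : ℝ} (hE : Eig g lam) (hlam : 2 < lam) :
    ∀ i (B B' : Tab J c r) (a b : J), c a = 1 → c b = 2 → B.1 i a = false →
      B.1 i b = true → (∀ z, B'.1 i z = B.1 i (Equiv.swap a b z)) → |g i B' - g i B| ≤ 0 := by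
  intro i B B' a b ha hb hBa hBb hB'
  refine contract (ι := {x : Fin 3 × Tab J c r × Tab J c r × J × J //
    c x.2.2.2.1 = 1 ∧ c x.2.2.2.2 = 2 ∧ x.2.1.1 x.1 x.2.2.2.1 = false ∧
    x.2.1.1 x.1 x.2.2.2.2 = true ∧
    ∀ z, x.2.2.1.1 x.1 z = x.2.1.1 x.1 (Equiv.swap x.2.2.2.1 x.2.2.2.2 z)})
    (fun x => |g x.1.1 x.1.2.2.1 - g x.1.1 x.1.2.1|) (1 / (lam - 1))
    (by rw [div_lt_one (by linarith)]; linarith) ?_ ⟨(i, B, B', a, b), ha, hb, hBa, hBb, hB'⟩
  clear hB' hBb hBa hb ha b a B' B i
  intro C hC0 hC ⟨(i, B, B', a, b), ha, hb, hBa, hBb, hB'⟩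
  simp only at ha hb hBa hBb hB' ⊢
  have hcross : ∀ i (B B' : Tab J c r) (a b : J), c a = 1 → c b = 2 → B.1 i a = false →
      B.1 i b = true → (∀ z, B'.1 i z = B.1 i (Equiv.swap a b z)) → |g i B' - g i B| ≤ C := by
    intro i B B' a b ha hb hBa hBb hB'
    exact hC ⟨(i, B, B', a, b), ha, hb, hBa, hBb, hB'⟩
  have hsame : ∀ (a b : J), c a = c b → ∀ i B, g i (swP univ a b B) = g i B :=
    fun a b hab i B => same_class hE hlam hab i B
  obtain ⟨j, k, hij, hik, hjk⟩ := others i
  obtain ⟨ρ, hρ⟩ : ∃ ρ, ρ = B.1 i := ⟨_, rfl⟩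
  have hBc : B ∈ (cls i ρ : Finset (Tab J c r)) := by rw [mem_cls, hρ]; intro z; rfl
  have hB'c : B' ∈ (cls i (fun z => ρ (Equiv.swap a b z)) : Finset (Tab J c r)) := by
    rw [mem_cls, hρ]; exact hB'
  have hρa : ρ a = false := by rw [hρ]; exact hBa
  have hρb : ρ b = true := by rw [hρ]; exact hBb
  have haA : a ∈ AA c ρ := by simp [AA, ha, hρa]
  have hbB : b ∈ BB c ρ := by simp [BB, hb, hρb]
  -- cardinalities
  obtain ⟨N, hN⟩ : ∃ N : ℝ, N = ((cls i ρ : Finset (Tab J c r)).card : ℝ) := ⟨_, rfl⟩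
  have hNpos : 0 < N := by
    rw [hN]; exact_mod_cast card_pos.mpr ⟨B, hBc⟩
  obtain ⟨M, hM⟩ : ∃ M : ℝ, M = ∑ a' ∈ AA c ρ, ∑ b' ∈ BB c ρ,
    ∑ _B ∈ (cls i (fun z => ρ (Equiv.swap a' b' z)) : Finset (Tab J c r)), (1 : ℝ) := ⟨_, rfl⟩
  have hMj : ∑ B ∈ (cls i ρ : Finset (Tab J c r)), ww j ρ B = M := by
    rw [hM, star hij hik hjk ρ (fun _ => 1) (fun _ _ _ => rfl)]
    simp
  have hMk : ∑ B ∈ (cls i ρ : Finset (Tab J c r)), ww k ρ B = M := by
    rw [hM, star hik hij hjk.symm ρ (fun _ => 1) (fun _ _ _ => rfl)]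
    simp
  have hMpos : 0 < M := by
    rw [hM]
    apply sum_pos'
    · intro a' _
      apply sum_nonneg
      intro b' _
      apply sum_nonneg
      intro _ _
      exact zero_le_one
    · refine ⟨a, haA, ?_⟩
      apply sum_pos'
      · intro b' _
        apply sum_nonneg
        intro _ _
        exact zero_le_one
      · refine ⟨b, hbB, ?_⟩
        rw [sum_const, nsmul_eq_mul, mul_one]
        exact_mod_cast card_pos.mpr ⟨B', hB'c⟩
  -- the equation for B
  have eB : (lam - 1) * g i B * N = ∑ B'' ∈ (cls i ρ : Finset (Tab J c r)), g j B'' +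
      ∑ B'' ∈ (cls i ρ : Finset (Tab J c r)), g k B'' := by
    rw [← sum_add_distrib, ← hE.eq i j k hij hik hjk ρ, hN, mul_comm, ← nsmul_eq_mul,
      ← sum_const]
    apply sum_congr rfl
    intro B'' hB''
    rw [hE.row i B B'']
    intro z
    rw [mem_cls] at hBc hB''
    rw [hBc, hB'']
  -- the equation for B'
  have eB' : (lam - 1) * g i B' * M =
      ∑ B'' ∈ (cls i ρ : Finset (Tab J c r)), ww j ρ B'' * g j B'' +
      ∑ B'' ∈ (cls i ρ : Finset (Tab J c r)), ww k ρ B'' * g k B'' := by
    rw [← star hij hik hjk ρ (g j) (fun B B' h => hE.row j B B' h),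
      ← star hik hij hjk.symm ρ (g k) (fun B B' h => hE.row k B B' h), ← sum_add_distrib, hM,
      mul_sum]
    apply sum_congr rfl
    intro a' ha'
    rw [← sum_add_distrib, mul_sum]
    apply sum_congr rfl
    intro b' hb'
    rw [← sum_add_distrib, ← hE.eq i j k hij hik hjk, mul_sum]
    apply sum_congr rfl
    intro B'' hB''
    rw [mul_one]
    congr 1
    -- g i B' = g i B''
    simp only [AA, BB, mem_filter, mem_univ, true_and] at ha' hb'
    have haa : c a = c a' := by rw [ha, ha'.1]
    have hbb : c b = c b' := by rw [hb, hb'.1]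
    rw [← hsame a a' haa i B'', ← hsame b b' hbb i (swP univ a a' B'')]
    apply hE.row
    intro z
    rw [swP_apply (valid_univ hbb _), if_pos (mem_univ _), swP_apply (valid_univ haa _),
      if_pos (mem_univ _)]
    rw [mem_cls] at hB'' hB'c
    rw [hB'', hB'c]
    have hab : a ≠ b := by rintro rfl; omega
    have hab' : a ≠ b' := by rintro rfl; omega
    have ha'b : a' ≠ b := by rintro rfl; omega
    have ha'b' : a' ≠ b' := by rintro rfl; omega
    by_cases hza : z = a
    · subst hza
      rw [Equiv.swap_apply_left, Equiv.swap_apply_of_ne_of_ne hab hab', Equiv.swap_apply_left,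
        Equiv.swap_apply_left, hρb, hb'.2]
    by_cases hzb : z = b
    · subst hzb
      rw [Equiv.swap_apply_right, Equiv.swap_apply_left,
        Equiv.swap_apply_of_ne_of_ne hab'.symm ha'b'.symm, Equiv.swap_apply_right, hρa, ha'.2]
    by_cases hza' : z = a'
    · subst hza'
      rw [Equiv.swap_apply_of_ne_of_ne hza hzb, Equiv.swap_apply_of_ne_of_ne hzb ha'b',
        Equiv.swap_apply_right, Equiv.swap_apply_of_ne_of_ne (Ne.symm hza) hab', hρa, ha'.2]
    by_cases hzb' : z = b'
    · subst hzb'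
      rw [Equiv.swap_apply_of_ne_of_ne hza hzb, Equiv.swap_apply_right,
        Equiv.swap_apply_of_ne_of_ne hab.symm ha'b.symm,
        Equiv.swap_apply_of_ne_of_ne ha'b.symm (Ne.symm hzb), hρb, hb'.2]
    rw [Equiv.swap_apply_of_ne_of_ne hza hzb, Equiv.swap_apply_of_ne_of_ne hzb hzb',
      Equiv.swap_apply_of_ne_of_ne hza hza', Equiv.swap_apply_of_ne_of_ne hza' hzb']
  -- the x-sums
  obtain ⟨S, hS⟩ : ∃ S : ℝ, S = ((univ.filter fun z => c z = 1).card : ℝ) - (xr c ρ : ℝ) :=
    ⟨_, rfl⟩
  have xB : ∑ B'' ∈ (cls i ρ : Finset (Tab J c r)), (xr c (B''.1 j) : ℝ) +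
      ∑ B'' ∈ (cls i ρ : Finset (Tab J c r)), (xr c (B''.1 k) : ℝ) = S * N := by
    rw [← sum_add_distrib, hN, mul_comm, ← nsmul_eq_mul, ← sum_const]
    apply sum_congr rfl
    intro B'' hB''
    have h1 := xr_sum hij hik hjk B''
    have h2 : B''.1 i = ρ := by
      rw [mem_cls] at hB''; exact funext hB''
    rw [h2] at h1
    rw [hS]
    have h3 : (xr c ρ : ℝ) + (xr c (B''.1 j) : ℝ) + (xr c (B''.1 k) : ℝ) =
      ((univ.filter fun z => c z = 1).card : ℝ) := by exact_mod_cast h1
    linarith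
  have xB' : ∑ B'' ∈ (cls i ρ : Finset (Tab J c r)), ww j ρ B'' * (xr c (B''.1 j) : ℝ) +
      ∑ B'' ∈ (cls i ρ : Finset (Tab J c r)), ww k ρ B'' * (xr c (B''.1 k) : ℝ) =
      (S - 1) * M := by
    have hxj : ∀ l : Fin 3, ∀ B B' : Tab J c r, (∀ z, B.1 l z = B'.1 l z) →
        (xr c (B.1 l) : ℝ) = (xr c (B'.1 l) : ℝ) := by
      intro l B B' h
      have : B.1 l = B'.1 l := funext h
      rw [this]
    rw [← star hij hik hjk ρ (fun B => (xr c (B.1 j) : ℝ)) (hxj j),
      ← star hik hij hjk.symm ρ (fun B => (xr c (B.1 k) : ℝ)) (hxj k), ← sum_add_distrib, hM,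
      mul_sum]
    apply sum_congr rfl
    intro a' ha'
    rw [← sum_add_distrib, mul_sum]
    apply sum_congr rfl
    intro b' hb'
    rw [← sum_add_distrib, mul_sum]
    apply sum_congr rfl
    intro B'' hB''
    simp only [AA, BB, mem_filter, mem_univ, true_and] at ha' hb'
    have h1 := xr_sum hij hik hjk B''
    have h2 : B''.1 i = fun z => ρ (Equiv.swap a' b' z) := by
      rw [mem_cls] at hB''; exact funext hB''
    rw [h2, xr_cross ha'.1 hb'.1 ρ ha'.2 hb'.2] at h1
    rw [hS]
    have h3 : ((xr c ρ : ℝ) + 1) + (xr c (B''.1 j) : ℝ) + (xr c (B''.1 k) : ℝ) =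
      ((univ.filter fun z => c z = 1).card : ℝ) := by exact_mod_cast h1
    linarith
  -- conclusion
  have fin : ∀ σ : ℝ, |σ| ≤ 1 → σ * ((lam - 1) * (g i B - g i B')) * (N * M) ≤ C * (N * M) := by
    intro σ hσ
    have c1 := half (fun i B B' h => hE.row i B B' h) hsame hC0 hcross hij hik hjk ρ σ hσ
    have c2 := half (fun i B B' h => hE.row i B B' h) hsame hC0 hcross hik hij hjk.symm ρ σ hσ
    rw [hMj, ← hN] at c1
    rw [hMk, ← hN] at c2
    have h1 : σ * ((lam - 1) * (g i B - g i B')) * (N * M) =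
        σ * (((lam - 1) * g i B * N) * M - N * ((lam - 1) * g i B' * M)) := by ring
    rw [h1, eB, eB']
    have h2 : C * (N * M) = C * ((S * N) * M - N * ((S - 1) * M)) := by ring
    rw [h2, ← xB, ← xB']
    linarith
  have hNM : 0 < N * M := mul_pos hNpos hMpos
  have f1 := le_of_mul_le_mul_right (fin 1 (by simp)) hNM
  have f2 := le_of_mul_le_mul_right (fin (-1) (by simp)) hNM
  have hl : 0 < lam - 1 := by linarith
  rw [div_mul_eq_mul_div, one_mul, le_div_iff₀ hl]
  have h5 : |g i B' - g i B| * (lam - 1) = |(g i B' - g i B) * (lam - 1)| := by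
    rw [abs_mul, abs_of_pos hl]
  rw [h5, abs_le]
  constructor <;> linarith

/-- the functions `g i` are constant along all classes -/
theorem eig_const {g : Fin 3 → Tab J c r → ℝ} {lam : ℝ} (hE : Eig g lam) (hlam : 2 < lam)
    (i l : Fin 3) (B₁ B₂ : Tab J c r) (h : ∀ z, B₁.1 i z = B₂.1 i z) : g l B₁ = g l B₂ := by
  by_cases hil : i = l
  · subst hil
    exact hE.row _ _ _ h
  · obtain ⟨m, him, hlm⟩ : ∃ m : Fin 3, i ≠ m ∧ l ≠ m := by
      have : ∀ i l : Fin 3, ∃ m : Fin 3, i ≠ m ∧ l ≠ m := by decide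
      exact this i l
    have hsame : ∀ (a b : J), c a = c b → ∀ i B, g i (swP univ a b B) = g i B :=
      fun a b hab i B => same_class hE hlam hab i B
    have h1 : B₁ ∈ (cls i (B₁.1 i) : Finset (Tab J c r)) := by rw [mem_cls]; intro z; rfl
    have h2 : B₂ ∈ (cls i (B₁.1 i) : Finset (Tab J c r)) := by
      rw [mem_cls]; intro z; exact (h z).symm
    rcases le_total (xr c (B₁.1 l)) (xr c (B₂.1 l)) with hx | hx
    · have := lip (fun i B B' h => hE.row i B B' h) hsame le_rfl (cross_class hE hlam) hil him hlm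
        (B₁.1 i) _ B₁ B₂ h1 h2 le_rfl hx
      rw [zero_mul] at this
      have := abs_eq_zero.mp (le_antisymm this (abs_nonneg _))
      linarith
    · have := lip (fun i B B' h => hE.row i B B' h) hsame le_rfl (cross_class hE hlam) hil him hlm
        (B₁.1 i) _ B₂ B₁ h2 h1 le_rfl hx
      rw [zero_mul] at this
      have := abs_eq_zero.mp (le_antisymm this (abs_nonneg _))
      linarith

theorem relT_equiv (i : Fin 3) : Equivalence (relT (c := c) (r := r) i) :=
  ⟨fun _ _ => rfl, fun h z => (h z).symm, fun h h' z => (h z).trans (h' z)⟩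

theorem sum_cls_avg (i : Fin 3) (ρ : J → Bool) (f : Tab J c r → ℝ) :
    ∑ B ∈ cls i ρ, avg (relT i) f B = ∑ B ∈ cls i ρ, f B := by
  by_cases hne : (cls i ρ : Finset (Tab J c r)).Nonempty
  · have hN : ((cls i ρ : Finset (Tab J c r)).card : ℝ) ≠ 0 := by
      exact_mod_cast (card_pos.mpr hne).ne'
    have : ∀ B ∈ (cls i ρ : Finset (Tab J c r)), avg (relT i) f B =
        (∑ B ∈ cls i ρ, f B) / ((cls i ρ : Finset (Tab J c r)).card : ℝ) := by
      intro B hB
      unfold avg
      have h2 : ∀ (inst : DecidablePred fun H => relT i B H),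
          @filter _ (fun H => relT i B H) inst univ = (cls i ρ : Finset (Tab J c r)) := by
        intro inst
        ext H
        rw [mem_cls] at hB ⊢
        simp only [mem_filter, mem_univ, true_and, relT]
        constructor
        · intro h z; rw [← h, hB]
        · intro h z; rw [h, hB]
      rw [h2]
    rw [sum_congr rfl this, sum_const, nsmul_eq_mul]
    field_simp
  · rw [not_nonempty_iff_eq_empty] at hne
    rw [hne, sum_empty, sum_empty]

section lin
variable {Ω : Type*} [Fintype Ω]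

theorem avg_add (r : Ω → Ω → Prop) (f g : Ω → ℝ) : avg r (f + g) = avg r f + avg r g := by
  funext G
  simp only [avg, Pi.add_apply]
  rw [sum_add_distrib, add_div]

theorem avg_smul (r : Ω → Ω → Prop) (a : ℝ) (f : Ω → ℝ) : avg r (a • f) = a • avg r f := by
  funext G
  simp only [avg, Pi.smul_apply, smul_eq_mul]
  rw [← mul_sum, mul_div_assoc]

/-- `avg` as a linear map -/
noncomputable def avgL (r : Ω → Ω → Prop) : (Ω → ℝ) →ₗ[ℝ] (Ω → ℝ) where
  toFun := avg r
  map_add' := avg_add r
  map_smul' := by intro a f; exact avg_smul r a f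

theorem sum_Dav_sq (r : Ω → Ω → Prop) (hr : Equivalence r) (f : Ω → ℝ) :
    ∑ G, Dav r f G ^ 2 = ∑ G, f G * Dav r f G := by
  have h1 := avg_symm r hr f (avg r f)
  have h2 : ∀ G, avg r (avg r f) G = avg r f G :=
    fun G => avg_of_inv r hr (avg r f) (fun G H h => avg_inv r hr f G H h) G
  simp only [h2] at h1
  have h3 : ∑ G, Dav r f G ^ 2 - ∑ G, f G * Dav r f G =
      ∑ G, avg r f G * avg r f G - ∑ G, f G * avg r f G := by
    rw [← sum_sub_distrib, ← sum_sub_distrib]
    apply sum_congr rfl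
    intro G _
    unfold Dav
    ring
  linarith

end lin

end W1

open W1 in
theorem table_ineq (J : Type) [Fintype J] [DecidableEq J] (c : J → ℕ) (r : Fin 3 → ℕ)
    (f : Tab J c r → ℝ) :
    0 ≤ ∑ B, (Dav (relT 0) f B * Dav (relT 1) f B + Dav (relT 0) f B * Dav (relT 2) f B
      + Dav (relT 1) f B * Dav (relT 2) f B) := by
  obtain ⟨A, hA⟩ : ∃ A : (Tab J c r → ℝ) →ₗ[ℝ] (Tab J c r → ℝ),
      ∀ f G, A f G = ∑ i : Fin 3, Dav (relT i) f G := by
    refine ⟨∑ i : Fin 3, (LinearMap.id - avgL (relT i)), ?_⟩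
    intro f G
    simp only [LinearMap.coe_sum, Finset.sum_apply, LinearMap.sub_apply, LinearMap.id_apply,
      Pi.sub_apply, Dav]
    rfl
  have hsymm : ∀ f g : Tab J c r → ℝ, ∑ x, f x * A g x = ∑ x, A f x * g x := by
    intro f g
    simp only [hA, mul_sum, sum_mul]
    rw [sum_comm, sum_comm (s := univ) (t := univ) (f := fun x i => Dav (relT i) f x * g x)]
    apply sum_congr rfl
    intro i _
    have := avg_symm (relT i) (W1.relT_equiv (c := c) (r := r) i) f g
    unfold Dav
    simp only [mul_sub, sub_mul, sum_sub_distrib]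
    rw [this]
  have heig : ∀ (κ : ℝ) (f : Tab J c r → ℝ), f ≠ 0 → A f = κ • f → κ ≤ κ ^ 2 := by
    intro κ f hf hκ
    by_contra hcon
    push Not at hcon
    have hκ0 : 0 < κ := by nlinarith [sq_nonneg κ]
    have hκ1 : κ < 1 := by nlinarith
    obtain ⟨lam, hlam⟩ : ∃ lam, lam = 3 - κ := ⟨_, rfl⟩
    have hl2 : 2 < lam := by linarith
    have hl0 : lam ≠ 0 := by linarith
    have hsum : ∀ B, ∑ i : Fin 3, avg (relT i) f B = lam * f B := by
      intro B
      have := congrFun hκ B
      rw [hA, Pi.smul_apply, smul_eq_mul] at this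
      unfold Dav at this
      rw [sum_sub_distrib, sum_const, card_univ, Fintype.card_fin] at this
      simp only [nsmul_eq_mul] at this
      push_cast at this
      rw [hlam]
      linarith
    have hE : W1.Eig (fun i B => avg (relT i) f B / lam) lam := by
      constructor
      · intro i B B' h
        rw [avg_inv (relT i) (W1.relT_equiv i) f B B' h]
      · intro i j k hij hik hjk ρ
        have h1 := W1.sum_cls_avg i ρ f
        have h2 : ∑ B ∈ W1.cls i ρ, f B = ∑ B ∈ W1.cls i ρ,
            (avg (relT i) f B / lam + (avg (relT j) f B / lam + avg (relT k) f B / lam)) := by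
          apply sum_congr rfl
          intro B _
          have := hsum B
          rw [W1.sum3 hij hik hjk] at this
          field_simp
          linarith
        rw [sum_add_distrib] at h2
        have h3 : ∑ B ∈ W1.cls i ρ, (lam - 1) * (avg (relT i) f B / lam) =
            ∑ B ∈ W1.cls i ρ, avg (relT i) f B -
              ∑ B ∈ W1.cls i ρ, avg (relT i) f B / lam := by
          rw [← sum_sub_distrib]
          apply sum_congr rfl
          intro B _
          field_simp
        rw [h3, h1, h2]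
        ring
    have hconst : ∀ (i : Fin 3) (B₁ B₂ : Tab J c r), relT i B₁ B₂ → f B₁ = f B₂ := by
      intro i B₁ B₂ h
      have h1 := hsum B₁
      have h2 := hsum B₂
      have h3 : ∀ l : Fin 3, avg (relT l) f B₁ = avg (relT l) f B₂ := by
        intro l
        have := W1.eig_const hE hl2 i l B₁ B₂ h
        field_simp at this
        exact this
      simp only [h3] at h1
      rw [h1] at h2
      exact mul_left_cancel₀ hl0 h2
    apply hf
    funext B
    have h1 := congrFun hκ B
    rw [hA, Pi.smul_apply, smul_eq_mul] at h1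
    have h2 : ∀ i : Fin 3, Dav (relT i) f B = 0 := by
      intro i
      unfold Dav
      rw [avg_of_inv (relT i) (W1.relT_equiv i) f (hconst i) B, sub_self]
    simp only [h2, sum_const_zero] at h1
    have : f B = 0 := by
      rcases mul_eq_zero.mp h1.symm with h | h
      · exact absurd h hκ0.ne'
      · exact h
    exact this
  have hmain := sq_ge_of_eig A hsymm heig f
  have e1 : ∑ x, f x * A f x = ∑ i : Fin 3, ∑ x, Dav (relT i) f x ^ 2 := by
    simp only [hA, mul_sum]
    rw [sum_comm]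
    apply sum_congr rfl
    intro i _
    rw [sum_Dav_sq (relT i) (W1.relT_equiv i)]
  have e2 : ∑ x, A f x ^ 2 = ∑ i : Fin 3, ∑ x, Dav (relT i) f x ^ 2 +
      2 * ∑ B, (Dav (relT 0) f B * Dav (relT 1) f B + Dav (relT 0) f B * Dav (relT 2) f B
      + Dav (relT 1) f B * Dav (relT 2) f B) := by
    simp only [hA, Fin.sum_univ_three]
    rw [mul_sum, ← sum_add_distrib, ← sum_add_distrib, ← sum_add_distrib]
    apply sum_congr rfl
    intro B _
    ring
  linarith

end Crest.Agent.SC
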