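/-
Package X of row 299 (S0453): total variation bound from the Poincare inequality.
-/
import Crest.Agent.SW.M

set_option autoImplicit false
namespace Crest.Agent.SC
open Finset Crest.SwitchChain

/-- Package X : total variation bound from the Poincare inequality -/
theorem tv_part {n : ℕ} (hn : 4 ≤ n) (d : Fin n → ℕ) (hd : (realizations d).Nonempty)
    (hP : ∀ f : Finset (Edge n) → ℝ,
        ((realizations d).card : ℝ) * (∑ G ∈ realizations d, f G ^ 2) -
            (∑ G ∈ realizations d, f G) ^ 2 ≤
          24 * (n : ℝ) ^ 2 * (n.choose 4 : ℝ) * (realizations d).card *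
            ∑ G ∈ realizations d,
              f G * (f G - ∑ G' ∈ realizations d, kernel n G G' * f G')) :
    ∃ t : ℕ, t ≤ 2 * n ^ 8 ∧ ∀ G ∈ realizations d,
        tvDist (fun G' => (kernel n ^ t) G G') (unifOn (realizations d)) ≤ 1 / 4 := by
  refine (Crest.Agent.SW.result_of_gap n hn d hd (1 / (2 * (n : ℝ) ^ 2)) le_rfl ?_).1
  intro f
  refine (hP f).trans (le_of_eq ?_)
  rw [Crest.Agent.SW.dirichlet hn d f]
  have hN : (0:ℝ) < (n.choose 4 : ℝ) := by exact_mod_cast Nat.choose_pos hn
  have hn0 : (0:ℝ) < n := by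
    have : 0 < n := by omega
    exact_mod_cast this
  field_simp

end Crest.Agent.SC
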