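/-
Row 299 (S0453): final assembly of the Poincare inequality.
-/
import Crest.Agent.SC.P
import Crest.Agent.SC.T
import Crest.Agent.SC.W1
import Crest.Agent.SC.S
import Crest.Agent.SC.SG
import Crest.Agent.SC.B
import Crest.Agent.SC.C
import Crest.Agent.SC.K
import Crest.Agent.SC.X

set_option autoImplicit false
open Finset

namespace Crest.Agent.SC

theorem poincare {V : Type} [Fintype V] [DecidableEq V] {d : V → ℕ} (f : Gr d → ℝ) :
    (Fintype.card (Gr d) : ℝ) * (∑ G, f G ^ 2) - (∑ G, f G) ^ 2 ≤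
      (Fintype.card (Gr d) : ℝ) / 32 *
        ∑ v, ∑ w, ∑ x, ∑ y, ∑ G, if Dist4 v w x y then (f G - f (sw v w x y G)) ^ 2 else 0 :=
  poincare_of (fun v w x h1 h2 h3 f => triple_of_table table_ineq v w x h1 h2 h3 f)
    (fun v w h f => slice_graph_of slice_ineq v w h f)
    (fun v w x y h f => block_ineq v w x y h f) (fun f h => conn f h) f

open Crest.SwitchChain in
theorem poincare_kernel (n : ℕ) (hn : 4 ≤ n) (d : Fin n → ℕ)
    (f : Finset (Edge n) → ℝ) :
    ((realizations d).card : ℝ) * (∑ G ∈ realizations d, f G ^ 2) -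
            (∑ G ∈ realizations d, f G) ^ 2 ≤
          24 * (n : ℝ) ^ 2 * (n.choose 4 : ℝ) * (realizations d).card *
            ∑ G ∈ realizations d,
              f G * (f G - ∑ G' ∈ realizations d, kernel n G G' * f G') := by
  have hc : ((realizations d).card : ℝ) = (Fintype.card (Gr d) : ℝ) := by
    have h := sum_toE (d := d) (fun _ => (1 : ℝ))
    simpa using h
  rw [dirichlet_eq hn f, sum_toE (d := d) (fun E => f E ^ 2), sum_toE (d := d) f, hc]
  have hp := poincare (d := d) (fun G => f (toE G))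
  refine hp.trans ?_
  set W := ∑ v, ∑ w, ∑ x, ∑ y, ∑ G : Gr d, if Dist4 v w x y then
        (f (toE G) - f (toE (sw v w x y G))) ^ 2 else 0 with hW
  have hW0 : 0 ≤ W := by
    rw [hW]
    refine sum_nonneg fun v _ => sum_nonneg fun w _ => sum_nonneg fun x _ => sum_nonneg fun y _ =>
      sum_nonneg fun G _ => ?_
    split_ifs
    · positivity
    · exact le_rfl
  have hN : (0:ℝ) < (n.choose 4 : ℝ) := by exact_mod_cast Nat.choose_pos hn
  have hn4 : (4:ℝ) ≤ n := by exact_mod_cast hn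
  have hcard : (0:ℝ) ≤ (Fintype.card (Gr d) : ℝ) := Nat.cast_nonneg _
  have e : 24 * (n : ℝ) ^ 2 * (n.choose 4 : ℝ) * (Fintype.card (Gr d) : ℝ) *
      (W / (192 * (n.choose 4 : ℝ))) = (n:ℝ) ^ 2 / 8 * ((Fintype.card (Gr d) : ℝ) * W) := by
    field_simp
    ring
  rw [e]
  have h1 : 0 ≤ (Fintype.card (Gr d) : ℝ) * W := mul_nonneg hcard hW0
  nlinarith [mul_nonneg h1 (by nlinarith : (0:ℝ) ≤ (n:ℝ) ^ 2 - 16)]

end Crest.Agent.SC
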